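import Mathlib

/-!
Convex analysis of the mean-field transform: creation and propagation of jumps of the slope.
-/

open Set Filter Topology

namespace Vale.Agent.P171

/-- Quantitative jump of the slope of `P` from `≤ rm` to `≥ rp` across `[ym, yp]`. -/
structure JumpAt (P : ℝ → ℝ) (rm rp ym yp : ℝ) : Prop where
  le : ym ≤ yp
  left : ∀ t y, t ≤ y → y ≤ ym → P y - P t ≤ rm * (y - t)
  right : ∀ y t, yp ≤ y → y ≤ t → rp * (t - y) ≤ P t - P y

lemma JumpAt.weaken {P : ℝ → ℝ} {rm rp rm' rp' ym yp : ℝ} (h : JumpAt P rm rp ym yp)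
    (h1 : rm ≤ rm') (h2 : rp' ≤ rp) : JumpAt P rm' rp' ym yp where
  le := h.le
  left := fun t y hty hy => (h.left t y hty hy).trans
    (mul_le_mul_of_nonneg_right h1 (by linarith))
  right := fun y t hy hyt => le_trans (mul_le_mul_of_nonneg_right h2 (by linarith))
    (h.right y t hy hyt)

lemma convex_left {f : ℝ → ℝ} (hf : ConvexOn ℝ univ f) {t y u v : ℝ} (hty : t ≤ y) (hyu : y ≤ u)
    (huv : u < v) : f y - f t ≤ (f v - f u) / (v - u) * (y - t) := by
  rcases eq_or_lt_of_le hty with h | h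
  · subst h; simp
  · have h1 := hf.secant_mono (a := y) (x := t) (y := v) (mem_univ _) (mem_univ _) (mem_univ _)
      h.ne (by linarith : y < v).ne' (by linarith)
    have h2 := hf.secant_mono (a := v) (x := y) (y := u) (mem_univ _) (mem_univ _) (mem_univ _)
      (by linarith : y < v).ne huv.ne hyu
    have e1 : (f t - f y) / (t - y) = (f y - f t) / (y - t) := by
      rw [← neg_sub (f y) (f t), ← neg_sub y t, neg_div_neg_eq]
    have e2 : (f y - f v) / (y - v) = (f v - f y) / (v - y) := by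
      rw [← neg_sub (f v) (f y), ← neg_sub v y, neg_div_neg_eq]
    have e3 : (f u - f v) / (u - v) = (f v - f u) / (v - u) := by
      rw [← neg_sub (f v) (f u), ← neg_sub v u, neg_div_neg_eq]
    rw [e1] at h1
    rw [e2, e3] at h2
    have h3 := h1.trans h2
    rwa [div_le_iff₀ (by linarith)] at h3

lemma convex_right {f : ℝ → ℝ} (hf : ConvexOn ℝ univ f) {t y u v : ℝ} (hyt : y ≤ t) (hvy : v ≤ y)
    (huv : u < v) : (f v - f u) / (v - u) * (t - y) ≤ f t - f y := by
  rcases eq_or_lt_of_le hyt with h | h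
  · subst h; simp
  · have h1 := hf.secant_mono (a := y) (x := u) (y := t) (mem_univ _) (mem_univ _) (mem_univ _)
      (by linarith : u < y).ne h.ne' (by linarith)
    have h2 := hf.secant_mono (a := u) (x := v) (y := y) (mem_univ _) (mem_univ _) (mem_univ _)
      huv.ne' (by linarith : u < y).ne' hvy
    have e1 : (f u - f y) / (u - y) = (f y - f u) / (y - u) := by
      rw [← neg_sub (f y) (f u), ← neg_sub y u, neg_div_neg_eq]
    rw [e1] at h1
    have h3 := h2.trans h1
    rwa [le_div_iff₀ (by linarith)] at h3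

/-- a jump of a convex function obtained from three values -/
lemma jump_of_values {f : ℝ → ℝ} (hf : ConvexOn ℝ univ f) {y s rm rp : ℝ} (hs : 0 < s)
    (h1 : f y - f (y - s) ≤ rm * s) (h2 : rp * s ≤ f (y + s) - f y) :
    JumpAt f rm rp (y - s) (y + s) where
  le := by linarith
  left := by
    intro t z htz hz
    have := convex_left hf htz hz (show y - s < y by linarith)
    refine this.trans ?_
    refine mul_le_mul_of_nonneg_right ?_ (by linarith)
    rw [div_le_iff₀ (by linarith)]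
    linarith
  right := by
    intro z t hz hzt
    have := convex_right hf hzt hz (show y < y + s by linarith)
    refine le_trans ?_ this
    refine mul_le_mul_of_nonneg_right ?_ (by linarith)
    rw [le_div_iff₀ (by linarith)]
    linarith

/-- the mean-field functional -/
noncomputable def Phi (P : ℝ → ℝ) (a ν m : ℝ) : ℝ := P (ν + a * m) - a * m ^ 2 / 2

/-- maximizers of the mean-field functional avoid the gap -/
lemma gap {P : ℝ → ℝ} (hmono : Monotone P) {rm rp ym yp w a δ : ℝ} (hJ : JumpAt P rm rp ym yp)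
    (hw : yp - ym ≤ w) (ha : 0 < a) (hδ : 0 < δ) (hrp : 0 ≤ rp) (h1 : 2 * rp * w ≤ a * δ ^ 2)
    (h2 : w ≤ a * δ) {ν m : ℝ} (hm1 : rm ≤ m) (hm2 : m ≤ rp - δ) :
    Phi P a ν m ≤ Phi P a ν rm ∨ Phi P a ν m ≤ Phi P a ν rp := by
  unfold Phi
  rcases le_or_gt (ν + a * m) ym with hy | hy
  · left
    have h := hJ.left (ν + a * rm) (ν + a * m) (by nlinarith) hy
    nlinarith [sq_nonneg (m - rm)]
  · right
    have hle : ν + a * m ≤ ν + a * rp := by nlinarith
    rcases le_or_gt yp (ν + a * m) with hy2 | hy2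
    · have h := hJ.right (ν + a * m) (ν + a * rp) hy2 hle
      nlinarith [sq_nonneg (rp - m)]
    · have h3 : yp ≤ ν + a * rp := by nlinarith
      have h := hJ.right yp (ν + a * rp) le_rfl h3
      have h4 := hmono hy2.le
      have h5 : 0 ≤ rp - m - δ := by linarith
      have h6 : a * δ ^ 2 ≤ a * (rp - m) ^ 2 := by
        refine mul_le_mul_of_nonneg_left ?_ ha.le
        exact pow_le_pow_left₀ hδ.le (by linarith) 2
      have h7 : rp * (yp - (ν + a * m)) ≤ rp * w := mul_le_mul_of_nonneg_left (by linarith) hrp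
      nlinarith

lemma continuous_of_convex {f : ℝ → ℝ} (hf : ConvexOn ℝ univ f) : Continuous f := by
  rw [← continuousOn_univ]
  exact hf.continuousOn isOpen_univ

/-- **Existence of a mean-field coexistence point.** -/
theorem mf_coexist {P : ℝ → ℝ} (hconv : ConvexOn ℝ univ P) (hmono : Monotone P)
    (hpos : ∀ y, 0 ≤ P y) (hexp : ∀ y, P y ≤ Real.exp y) {A : ℝ} (hA : 0 < A)
    (hB : ∀ y, P y ≤ 1 + y ^ 2 / A) {rm rp ym yp w a δ : ℝ} (hJ : JumpAt P rm rp ym yp)
    (hw : yp - ym ≤ w) (ha : 0 < a) (hA32 : 32 * a ≤ A) (hδ : 0 < δ) (hrm : 0 ≤ rm)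
    (hgap : rm < rp - δ) (h1 : 2 * rp * w ≤ a * δ ^ 2) (h2 : w ≤ a * δ) :
    ∃ ν T m1 m2 : ℝ, m1 ≤ rm ∧ rp - δ ≤ m2 ∧ Phi P a ν m1 = T ∧ Phi P a ν m2 = T ∧
      ∀ m, 0 ≤ m → Phi P a ν m ≤ T := by
  have hrp : 0 ≤ rp := by linarith
  have hm0 : 0 < rp - δ := by linarith
  have hcont := continuous_of_convex hconv
  set C := 1 + 2 * yp ^ 2 / A with hC
  have hC0 : 0 < C := by positivity
  set M := max rp (max 1 (4 * C / a)) with hM
  have hMrp : rp ≤ M := le_max_left _ _
  have hM1 : 1 ≤ M := le_trans (le_max_left _ _) (le_max_right _ _)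
  have hMC : 4 * C ≤ a * M := by
    have : 4 * C / a ≤ M := le_trans (le_max_right _ _) (le_max_right _ _)
    rw [div_le_iff₀ ha] at this
    linarith
  have hbig : ∀ ν m, ν ≤ yp → M ≤ m → Phi P a ν m ≤ 0 := by
    intro ν m hν hm
    unfold Phi
    have h3 : P (ν + a * m) ≤ P (yp + a * m) := hmono (by linarith)
    have h4 := hB (yp + a * m)
    have h5 : (yp + a * m) ^ 2 / A ≤ 2 * yp ^ 2 / A + a * m ^ 2 / 16 := by
      rw [div_add_div _ _ hA.ne' (by norm_num : (16 : ℝ) ≠ 0), div_le_div_iff₀ hA (by positivity)]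
      have h2 : (yp + a * m) ^ 2 ≤ 2 * yp ^ 2 + 2 * (a * m) ^ 2 := by
        nlinarith [sq_nonneg (yp - a * m)]
      have h3 : 32 * (a * m) ^ 2 ≤ A * (a * m ^ 2) := by
        have : 0 ≤ a * m ^ 2 := by positivity
        nlinarith
      nlinarith [mul_nonneg hA.le (sub_nonneg.mpr h2), mul_nonneg hA.le (sub_nonneg.mpr h3)]
    have h6 : 4 * C ≤ a * m ^ 2 := by
      have h7 : a * M ≤ a * m := mul_le_mul_of_nonneg_left hm ha.le
      have h8 : a * m * 1 ≤ a * m * m := mul_le_mul_of_nonneg_left (by linarith) (by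
        have : 0 < m := by linarith
        positivity)
      nlinarith
    nlinarith
  have hPhiCont : Continuous (Function.uncurry fun ν m => Phi P a ν m) := by
    unfold Phi Function.uncurry
    fun_prop
  set K1 := Icc (0 : ℝ) rm with hK1
  set K2 := Icc (rp - δ) M with hK2
  have c1 : IsCompact K1 := isCompact_Icc
  have c2 : IsCompact K2 := isCompact_Icc
  have n1 : K1.Nonempty := ⟨0, by rw [hK1]; exact ⟨le_rfl, hrm⟩⟩
  have hrpK2 : rp ∈ K2 := by rw [hK2]; exact ⟨by linarith, hMrp⟩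
  have n2 : K2.Nonempty := ⟨rp, hrpK2⟩
  set h1f : ℝ → ℝ := fun ν => sSup ((fun m => Phi P a ν m) '' K1) with hh1
  set h2f : ℝ → ℝ := fun ν => sSup ((fun m => Phi P a ν m) '' K2) with hh2
  have k1 : Continuous h1f := c1.continuous_sSup hPhiCont
  have k2 : Continuous h2f := c2.continuous_sSup hPhiCont
  have hc : ∀ ν, Continuous (fun m => Phi P a ν m) := by
    intro ν
    unfold Phi
    fun_prop
  have le1 : ∀ ν m, m ∈ K1 → Phi P a ν m ≤ h1f ν := by
    intro ν m hm
    exact le_csSup (c1.image (hc ν)).bddAbove (mem_image_of_mem _ hm)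
  have le2 : ∀ ν m, m ∈ K2 → Phi P a ν m ≤ h2f ν := by
    intro ν m hm
    exact le_csSup (c2.image (hc ν)).bddAbove (mem_image_of_mem _ hm)
  have at1 : ∀ ν, ∃ m ∈ K1, h1f ν = Phi P a ν m := fun ν =>
    c1.exists_sSup_image_eq n1 (hc ν).continuousOn
  have at2 : ∀ ν, ∃ m ∈ K2, h2f ν = Phi P a ν m := fun ν =>
    c2.exists_sSup_image_eq n2 (hc ν).continuousOn
  have zero_le1 : ∀ ν, 0 ≤ h1f ν := by
    intro ν
    have h0 := le1 ν 0 (by rw [hK1]; exact ⟨le_rfl, hrm⟩)
    refine le_trans ?_ h0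
    unfold Phi
    have := hpos (ν + a * 0)
    simp only [ne_eq, OfNat.ofNat_ne_zero, not_false_eq_true, zero_pow, mul_zero, zero_div,
      sub_zero]
    simpa using this
  -- right end
  have hR : h1f yp ≤ h2f yp := by
    obtain ⟨m, hm, he⟩ := at1 yp
    rw [he]
    refine le_trans ?_ (le2 yp rp hrpK2)
    rw [hK1, mem_Icc] at hm
    have h := hJ.right (yp + a * m) (yp + a * rp) (by nlinarith [hm.1]) (by nlinarith [hm.2])
    unfold Phi
    nlinarith [sq_nonneg (rp - m)]
  -- left end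
  set νlo := min yp (Real.log (a * (rp - δ) ^ 2 / 2) - a * M) with hνlo
  have hL : h2f νlo ≤ h1f νlo := by
    obtain ⟨m, hm, he⟩ := at2 νlo
    rw [he]
    refine le_trans ?_ (zero_le1 νlo)
    rw [hK2, mem_Icc] at hm
    unfold Phi
    have h3 := hexp (νlo + a * m)
    have h4 : νlo + a * m ≤ Real.log (a * (rp - δ) ^ 2 / 2) := by
      have : νlo ≤ Real.log (a * (rp - δ) ^ 2 / 2) - a * M := min_le_right _ _
      nlinarith [hm.2]
    have h5 : Real.exp (νlo + a * m) ≤ a * (rp - δ) ^ 2 / 2 := by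
      have := Real.exp_le_exp.mpr h4
      rwa [Real.exp_log (by positivity)] at this
    have h6 : (rp - δ) ^ 2 ≤ m ^ 2 := pow_le_pow_left₀ hm0.le hm.1 2
    nlinarith
  have hνle : νlo ≤ yp := min_le_left _ _
  obtain ⟨ν, hν, hνeq⟩ : ∃ ν ∈ Icc νlo yp, h2f ν - h1f ν = 0 := by
    have := intermediate_value_Icc hνle (k2.sub k1).continuousOn (f := fun ν => h2f ν - h1f ν)
    have h0 : (0 : ℝ) ∈ Icc (h2f νlo - h1f νlo) (h2f yp - h1f yp) := ⟨by linarith, by linarith⟩
    obtain ⟨ν, hν, he⟩ := this h0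
    exact ⟨ν, hν, he⟩
  have heq : h2f ν = h1f ν := by linarith
  obtain ⟨m1, hm1, he1⟩ := at1 ν
  obtain ⟨m2, hm2, he2⟩ := at2 ν
  refine ⟨ν, h1f ν, m1, m2, hm1.2, hm2.1, he1.symm, by rw [← he2, heq], ?_⟩
  intro m hm
  rcases le_or_gt m rm with a1 | a1
  · exact le1 ν m ⟨hm, a1⟩
  · rcases le_or_gt m (rp - δ) with a2 | a2
    · rcases gap hmono hJ hw ha hδ hrp h1 h2 (ν := ν) a1.le a2 with g | g
      · exact g.trans (le1 ν rm ⟨hrm, le_rfl⟩)
      · exact g.trans ((le2 ν rp hrpK2).trans heq.le)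
    · rcases le_or_gt m M with a3 | a3
      · exact (le2 ν m ⟨a2.le, a3⟩).trans heq.le
      · exact (hbig ν m hν.2 a3.le).trans (zero_le1 ν)

/-- **One step**: jump of the new pressure. -/
theorem jump_step {P P1 : ℝ → ℝ} (hconv : ConvexOn ℝ univ P1) {a ν T m1 m2 s : ℝ} (ha : 0 < a)
    (hs : 0 < s) (hlow : ∀ ν m, Phi P a ν m ≤ P1 ν) (hup : P1 ν ≤ T + s ^ 2)
    (hm1 : Phi P a ν m1 = T) (hm2 : Phi P a ν m2 = T) :
    JumpAt P1 (m1 + s + s / (2 * a)) (m2 - s - s / (2 * a)) (ν - s) (ν + s) := by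
  refine jump_of_values hconv hs ?_ ?_
  · have h := hlow (ν - s) (m1 + s / a)
    have e : Phi P a (ν - s) (m1 + s / a) = T - m1 * s - s ^ 2 / (2 * a) := by
      rw [← hm1]
      unfold Phi
      have : ν - s + a * (m1 + s / a) = ν + a * m1 := by field_simp; ring
      rw [this]
      field_simp
      ring
    rw [e] at h
    have e2 : (m1 + s + s / (2 * a)) * s = m1 * s + s ^ 2 + s ^ 2 / (2 * a) := by ring
    rw [e2]
    linarith
  · have h := hlow (ν + s) (m2 - s / a)
    have e : Phi P a (ν + s) (m2 - s / a) = T + m2 * s - s ^ 2 / (2 * a) := by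
      rw [← hm2]
      unfold Phi
      have : ν + s + a * (m2 - s / a) = ν + a * m2 := by field_simp; ring
      rw [this]
      field_simp
      ring
    rw [e] at h
    have e2 : (m2 - s - s / (2 * a)) * s = m2 * s - s ^ 2 - s ^ 2 / (2 * a) := by ring
    rw [e2]
    linarith

end Vale.Agent.P171
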