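import Vale.Agent.P171.Mean2
import Vale.Agent.P171.Convex

/-!
The starting point of the recursion (pure step repulsion) and the recursion step.
-/

open MeasureTheory Set Filter Topology
open scoped ENNReal

namespace Vale.Agent.P171

lemma att_zero {c : ℝ} (hc : 0 ≤ c) : Att (fun _ => (0 : ℝ)) c where
  meas := measurable_const
  nonneg := fun _ => le_rfl
  strength := by
    intro n x
    simp only [Finset.sum_const_zero]
    exact mul_nonneg hc (sc_nonneg 1 0 x)

lemma GC_card' {S : Set E} (f : ℕ → ℝ≥0∞) :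
    GC S (fun X => f (Multiset.card X)) =
      ∑' n : ℕ, ((n.factorial : ℝ≥0∞))⁻¹ * (f n * (volume S) ^ n) := by
  unfold GC
  congr 1
  funext n
  congr 1
  unfold II
  simp only [card_ms, Fintype.card_fin]
  rw [setLIntegral_const, volume_pi_pi]
  simp

lemma XiE_zero_upper {A L ν : ℝ} (hA : 0 < A) (hL : 0 ≤ L) :
    XiE A (fun _ => 0) L ν ≤ ENNReal.ofReal (Real.exp (Real.exp (ν - A / 2) * L ^ 3)) := by
  unfold XiE
  have h1 : GC (box L) (EG (HH ν 0 (pot A (fun _ => 0)))) ≤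
      GC (box L) (fun X => (fun n : ℕ => ENNReal.ofReal (Real.exp ((ν - A / 2) * n)))
        (Multiset.card X)) := by
    refine GC_mono_fun (measurableSet_box L) (fun n x _ => ?_)
    unfold EG
    refine ENNReal.ofReal_le_ofReal (Real.exp_le_exp.mpr ?_)
    unfold HH
    rw [card_ms, Fintype.card_fin, pairSum_pot]
    have h2 : (n : ℝ) ≤ ∑ i, ∑ j, near (dist (x i) (x j)) := by
      calc (n : ℝ) = ∑ _i : Fin n, (1 : ℝ) := by simp
        _ ≤ ∑ i, ∑ j, near (dist (x i) (x j)) := by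
          refine Finset.sum_le_sum (fun i _ => ?_)
          have h3 := Finset.single_le_sum (f := fun j => near (dist (x i) (x j)))
            (fun j _ => near_nonneg _) (Finset.mem_univ i)
          refine le_trans (le_of_eq ?_) h3
          simp [near]
    have h4 : A * n ≤ A * ∑ i, ∑ j, near (dist (x i) (x j)) := mul_le_mul_of_nonneg_left h2 hA.le
    simp only [Finset.sum_const_zero, sub_zero]
    linarith
  refine h1.trans ?_
  rw [GC_card' (fun n : ℕ => ENNReal.ofReal (Real.exp ((ν - A / 2) * n)))]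
  rw [← tsum_exp (by positivity)]
  refine ENNReal.tsum_le_tsum (fun n => mul_le_mul_right ?_ _)
  rw [volume_box, mul_pow, ENNReal.ofReal_mul (by positivity), ← Real.exp_nat_mul,
    ENNReal.ofReal_pow (by positivity), ENNReal.ofReal_pow hL]
  rw [mul_comm (ν - A / 2) (n : ℝ)]

lemma XiE_zero_lower {A ν : ℝ} :
    ENNReal.ofReal (1 + Real.exp (ν - A / 2)) ≤ XiE A (fun _ => 0) 1 ν := by
  unfold XiE GC
  have h := ENNReal.sum_le_tsum (f := fun n : ℕ => ((n.factorial : ℝ≥0∞))⁻¹ *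
    II (box 1) (EG (HH ν 0 (pot A (fun _ => 0)))) n) (Finset.range 2)
  refine le_trans (le_of_eq ?_) h
  rw [Finset.sum_range_succ, Finset.sum_range_one, II_zero]
  have h1 : II (box 1) (EG (HH ν 0 (pot A (fun _ => 0)))) 1 =
      ENNReal.ofReal (Real.exp (ν - A / 2)) := by
    unfold II
    have : ∀ x : Fin 1 → E, EG (HH ν 0 (pot A (fun _ => 0))) (ms x) =
        ENNReal.ofReal (Real.exp (ν - A / 2)) := by
      intro x
      unfold EG HH
      rw [card_ms, Fintype.card_fin, pairSum_pot]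
      simp only [Nat.cast_one, mul_one, Finset.univ_unique, Fin.default_eq_zero,
        Finset.sum_singleton, dist_self]
      congr 2
      simp [near]
      ring
    simp_rw [this]
    rw [setLIntegral_const, volume_pi_pi]
    simp [volume_box]
  rw [h1, ENNReal.ofReal_add zero_le_one (Real.exp_pos _).le]
  simp [EG, HH, pairSum]

lemma PP_zero_upper {A : ℝ} (hA : 0 < A) (ν : ℝ) :
    PP A (fun _ => 0) ν ≤ Real.exp (ν - A / 2) := by
  have hok : Ok A (fun _ => 0) := ⟨hA, att_zero (by linarith)⟩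
  refine PP_le (fun L hL => ?_)
  have h1 : lnXi A (fun _ => 0) L ν ≤ Real.exp (ν - A / 2) * L ^ 3 := by
    rw [lnXi_le_iff hok hL]
    exact XiE_zero_upper hA hL
  refine h1.trans (mul_le_mul_of_nonneg_left ?_ (Real.exp_pos _).le)
  exact pow_le_pow_left₀ hL (by linarith) 3

lemma PP_zero_lower {A : ℝ} (hA : 0 < A) (ν : ℝ) :
    Real.log (1 + Real.exp (ν - A / 2)) / 27 ≤ PP A (fun _ => 0) ν := by
  have hok : Ok A (fun _ => 0) := ⟨hA, att_zero (by linarith)⟩
  have h1 := lnXi_le_PP hok zero_le_one ν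
  have h2 : Real.log (1 + Real.exp (ν - A / 2)) ≤ lnXi A (fun _ => 0) 1 ν := by
    rw [le_lnXi_iff hok zero_le_one, Real.exp_log (by positivity)]
    exact XiE_zero_lower
  norm_num at h1
  linarith

lemma exp_neg_five : Real.exp (-5) ≤ 9 / 1000 := by
  have h := Real.exp_one_gt_d9
  have h5 : Real.exp (-5) = (Real.exp 1 ^ 5)⁻¹ := by
    rw [← Real.exp_nat_mul, ← Real.exp_neg]
    norm_num
  rw [h5]
  have h1 : (2.7182818283 : ℝ) ^ 5 ≤ Real.exp 1 ^ 5 := pow_le_pow_left₀ (by norm_num) h.le 5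
  have h2 : (1000 / 9 : ℝ) ≤ Real.exp 1 ^ 5 := le_trans (by norm_num) h1
  calc (Real.exp 1 ^ 5)⁻¹ ≤ (1000 / 9 : ℝ)⁻¹ := inv_anti₀ (by norm_num) h2
    _ = 9 / 1000 := by norm_num

lemma exp_neg_seven : Real.exp (-7) ≤ 1 / 1000 := by
  have h := Real.exp_one_gt_d9
  have h5 : Real.exp (-7) = (Real.exp 1 ^ 7)⁻¹ := by
    rw [← Real.exp_nat_mul, ← Real.exp_neg]
    norm_num
  rw [h5]
  have h1 : (2.7182818283 : ℝ) ^ 7 ≤ Real.exp 1 ^ 7 := pow_le_pow_left₀ (by norm_num) h.le 7
  have h2 : (1000 : ℝ) ≤ Real.exp 1 ^ 7 := le_trans (by norm_num) h1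
  calc (Real.exp 1 ^ 7)⁻¹ ≤ (1000 : ℝ)⁻¹ := inv_anti₀ (by norm_num) h2
    _ = 1 / 1000 := by norm_num

/-- base jump -/
theorem jump_base {A : ℝ} (hA : 0 < A) :
    JumpAt (PP A (fun _ => 0)) (1 / 1000) (1 / 300) (A / 2 - 8) (A / 2) := by
  have hok : Ok A (fun _ => 0) := ⟨hA, att_zero (by linarith)⟩
  have hconv := PP_convexOn hok
  refine ⟨by linarith, ?_, ?_⟩
  · intro t y hty hy
    have h := convex_left hconv hty hy (show A / 2 - 8 < A / 2 - 7 by linarith)
    refine h.trans (mul_le_mul_of_nonneg_right ?_ (by linarith))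
    have h1 := PP_zero_upper hA (A / 2 - 7)
    have h2 := PP_nonneg hok (A / 2 - 8)
    have h3 : Real.exp (A / 2 - 7 - A / 2) = Real.exp (-7) := by ring_nf
    rw [h3] at h1
    have h4 := exp_neg_seven
    rw [show A / 2 - 7 - (A / 2 - 8) = 1 by ring, div_one]
    linarith
  · intro y t hy hyt
    have h := convex_right hconv hyt hy (show A / 2 - 5 < A / 2 by linarith)
    refine le_trans (mul_le_mul_of_nonneg_right ?_ (by linarith)) h
    have h1 := PP_zero_upper hA (A / 2 - 5)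
    have h2 := PP_zero_lower hA (A / 2)
    have h3 : Real.exp (A / 2 - 5 - A / 2) = Real.exp (-5) := by ring_nf
    rw [h3] at h1
    have h4 := exp_neg_five
    rw [sub_self, Real.exp_zero] at h2
    norm_num at h2
    have h5 := Real.log_two_gt_d9
    rw [show A / 2 - (A / 2 - 5) = 5 by ring, le_div_iff₀ (by norm_num)]
    linarith

/-- the recursion step -/
theorem step {A a : ℝ} {χ : ℝ → ℝ} (hA : 0 < A) (hχ : Att χ (A / 4)) (ha : 0 < a)
    (hA32 : 32 * a ≤ A) {D : ℝ} (hD : 0 ≤ D) (hrange : ∀ r, D < r → χ r = 0)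
    {rm rp ym yp w δ κ w' : ℝ} (hJ : JumpAt (PP A χ) rm rp ym yp) (hw : yp - ym ≤ w)
    (hδ : 0 < δ) (hrm : 0 ≤ rm) (hgap : rm < rp - δ) (h1 : 2 * rp * w ≤ a * δ ^ 2)
    (h2 : w ≤ a * δ) (hκ : 0 < κ) (hw' : 0 < w') :
    ∃ R, 20 ≤ R ∧ ∃ ym' yp', JumpAt (PP A (fun r => χ r + psi a R r)) (rm + κ) (rp - δ - κ) ym' yp'
      ∧ yp' - ym' ≤ w' := by
  have hok : Ok A χ := ok_of_att hA hχ (by linarith)
  obtain ⟨ν, T, m1, m2, hm1, hm2, e1, e2, hmax⟩ := mf_coexist (PP_convexOn hok) (PP_mono hok)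
    (PP_nonneg hok) (PP_le_exp hok) hA (PP_le_BB hok) hJ hw ha hA32 hδ hrm hgap h1 h2
  -- choice of s
  set s := min (w' / 2) (κ / (1 + 1 / (2 * a))) with hs
  have hs0 : 0 < s := lt_min (by positivity) (by positivity)
  have hs1 : 2 * s ≤ w' := by
    have : s ≤ w' / 2 := min_le_left _ _
    linarith
  have hs2 : s + s / (2 * a) ≤ κ := by
    have : s ≤ κ / (1 + 1 / (2 * a)) := min_le_right _ _
    rw [le_div_iff₀ (by positivity)] at this
    have e : s * (1 + 1 / (2 * a)) = s + s / (2 * a) := by ring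
    linarith
  obtain ⟨R0, hR0, hup⟩ := PP_add_upper hA hχ ha hA32 hD hrange (ν := ν) (T := T)
    (fun m hm => hmax m hm) (show 0 < s ^ 2 by positivity)
  refine ⟨R0, hR0, ν - s, ν + s, ?_, by linarith⟩
  have hnew : Ok A (fun r => χ r + psi a R0 r) :=
    ok_of_att hA (hχ.add (psi_att ha.le hR0)) (by linarith)
  have hj := jump_step (P := PP A χ) (PP_convexOn hnew) ha hs0
    (fun ν m => PP_add_lower hok hnew ha.le (by linarith) ν m) (hup R0 le_rfl) e1 e2
  exact hj.weaken (by linarith) (by linarith)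

end Vale.Agent.P171
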