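import Mathlib

/-!
Grand canonical integrals over finite configurations in `ℝ³`, written as functionals of the
multiset of particle positions, and their factorization over disjoint regions.
-/

open MeasureTheory Set
open scoped ENNReal

namespace Vale.Agent.P171

abbrev E := EuclideanSpace ℝ (Fin 3)

/-- the multiset of values of a finite family of points -/
def ms {ι : Type*} [Fintype ι] (x : ι → E) : Multiset E := Finset.univ.val.map x

/-- integral of the functional `G` over `n` particles in `S` -/
noncomputable def II (S : Set E) (G : Multiset E → ℝ≥0∞) (n : ℕ) : ℝ≥0∞ :=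
  ∫⁻ x in (Set.univ.pi fun _ : Fin n => S), G (ms x)

/-- grand canonical integral of the functional `G` over the region `S` -/
noncomputable def GC (S : Set E) (G : Multiset E → ℝ≥0∞) : ℝ≥0∞ :=
  ∑' n : ℕ, ((n.factorial : ℝ≥0∞))⁻¹ * II S G n

/-- measurability of a functional -/
def MeasG (G : Multiset E → ℝ≥0∞) : Prop := ∀ n : ℕ, Measurable fun x : Fin n → E => G (ms x)

lemma card_ms {ι : Type*} [Fintype ι] (x : ι → E) : Multiset.card (ms x) = Fintype.card ι := by
  simp [ms]

lemma ms_comp_equiv {ι κ : Type*} [Fintype ι] [Fintype κ] (e : ι ≃ κ) (x : κ → E) :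
    ms (fun i => x (e i)) = ms x := by
  unfold ms
  have h : (Finset.univ : Finset κ) = (Finset.univ : Finset ι).map e.toEmbedding := by
    simp
  rw [h, Finset.map_val, Multiset.map_map]
  rfl

lemma mem_ms {ι : Type*} [Fintype ι] (x : ι → E) (a : E) : a ∈ ms x ↔ ∃ i, x i = a := by
  simp [ms]

/-- the filtered multiset is the multiset of the subfamily -/
lemma filter_ms {n : ℕ} (x : Fin n → E) (s : Finset (Fin n)) (S : Set E) [DecidablePred (· ∈ S)]
    (h : ∀ i, x i ∈ S ↔ i ∈ s) :
    (ms x).filter (· ∈ S) = ms (fun i : {i // i ∈ s} => x i) := by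
  classical
  unfold ms
  rw [Multiset.filter_map]
  have h1 : Multiset.filter ((fun a => a ∈ S) ∘ x) (Finset.univ : Finset (Fin n)).val = s.val := by
    have : Finset.univ.filter (fun i => x i ∈ S) = s := by
      ext i; simp [h i]
    rw [← this]
    rfl
  rw [h1]
  have h2 : s.val = ((Finset.univ : Finset {i // i ∈ s}).val.map Subtype.val) := by
    have := Finset.attach_map_val (s := s)
    conv_lhs => rw [← this]
    rw [Finset.map_val]
    rfl
  conv_lhs => rw [h2]
  rw [Multiset.map_map]
  rfl

lemma filter_ms_not {n : ℕ} (x : Fin n → E) (s : Finset (Fin n)) (S : Set E)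
    [DecidablePred (· ∈ S)]
    (h : ∀ i, x i ∈ S ↔ ¬ i ∈ s) :
    (ms x).filter (· ∈ S) = ms (fun i : {i // ¬ i ∈ s} => x i) := by
  classical
  have h' : ∀ i, x i ∈ S ↔ i ∈ sᶜ := by intro i; rw [h i, Finset.mem_compl]
  rw [filter_ms x sᶜ S h']
  let e : {i // ¬ i ∈ s} ≃ {i // i ∈ sᶜ} := Equiv.subtypeEquivRight (fun i => by simp)
  exact (ms_comp_equiv e (fun i : {i // i ∈ sᶜ} => x i)).symm

lemma lintegral_reindex {ι : Type*} [Fintype ι] (S : Set E) (G : Multiset E → ℝ≥0∞) {n : ℕ}
    (hn : Fintype.card ι = n) :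
    ∫⁻ x in (Set.univ.pi fun _ : ι => S), G (ms x) = II S G n := by
  classical
  let e : ι ≃ Fin n := Fintype.equivFinOfCardEq hn
  have mp := volume_measurePreserving_piCongrLeft (fun _ : Fin n => E) e
  have h := mp.setLIntegral_comp_preimage_emb
    (MeasurableEquiv.piCongrLeft (fun _ : Fin n => E) e).measurableEmbedding
    (fun x => G (ms x)) (Set.univ.pi fun _ : Fin n => S)
  unfold II
  rw [← h]
  have hpre : (MeasurableEquiv.piCongrLeft (fun _ : Fin n => E) e) ⁻¹'
      (Set.univ.pi fun _ : Fin n => S) = (Set.univ.pi fun _ : ι => S) := by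
    ext x
    simp only [Set.mem_preimage, Set.mem_pi, Set.mem_univ, true_imp_iff]
    constructor
    · intro hx i
      have := hx (e i)
      rwa [show (MeasurableEquiv.piCongrLeft (fun _ : Fin n => E) e) x (e i) = x i from
        Equiv.piCongrLeft_apply_apply (fun _ : Fin n => E) e x i] at this
    · intro hx j
      obtain ⟨i, rfl⟩ := e.surjective j
      rw [show (MeasurableEquiv.piCongrLeft (fun _ : Fin n => E) e) x (e i) = x i from
        Equiv.piCongrLeft_apply_apply (fun _ : Fin n => E) e x i]
      exact hx i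
  rw [hpre]
  congr 1
  funext x
  congr 1
  have := ms_comp_equiv e ((MeasurableEquiv.piCongrLeft (fun _ : Fin n => E) e) x)
  rw [← this]
  congr 1
  funext i
  exact (Equiv.piCongrLeft_apply_apply (fun _ : Fin n => E) e x i).symm

lemma measurable_ms_of_measG {G : Multiset E → ℝ≥0∞} (hG : MeasG G) {ι : Type*} [Fintype ι] :
    Measurable fun x : ι → E => G (ms x) := by
  classical
  let e : Fin (Fintype.card ι) ≃ ι := (Fintype.equivFin ι).symm
  have h := hG (Fintype.card ι)
  have : (fun x : ι → E => G (ms x)) =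
      (fun y : Fin (Fintype.card ι) → E => G (ms y)) ∘ (fun x : ι → E => fun i => x (e i)) := by
    funext x
    simp only [Function.comp]
    rw [ms_comp_equiv e x]
  rw [this]
  refine h.comp ?_
  fun_prop

/-- set of configurations whose points in `S1` are exactly those indexed by `s` -/
lemma piece_integral {N : ℕ} (s : Finset (Fin N)) {S1 S2 : Set E}
    (hS1 : MeasurableSet S1) (hS2 : MeasurableSet S2) (hd : Disjoint S1 S2)
    [DecidablePred (· ∈ S1)] [DecidablePred (· ∈ S2)]
    {G1 G2 : Multiset E → ℝ≥0∞} (h1 : MeasG G1) (h2 : MeasG G2) :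
    ∫⁻ x in (Set.univ.pi fun i : Fin N => if i ∈ s then S1 else S2),
      G1 ((ms x).filter (· ∈ S1)) * G2 ((ms x).filter (· ∈ S2)) =
    II S1 G1 s.card * II S2 G2 (N - s.card) := by
  classical
  have hC : MeasurableSet (Set.univ.pi fun i : Fin N => if i ∈ s then S1 else S2) := by
    refine MeasurableSet.univ_pi (fun i => ?_)
    split_ifs
    · exact hS1
    · exact hS2
  rw [← lintegral_indicator hC]
  let f : ({i // i ∈ s} → E) → ℝ≥0∞ :=
    (Set.univ.pi fun _ : {i // i ∈ s} => S1).indicator (fun y => G1 (ms y))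
  let g : ({i // ¬ i ∈ s} → E) → ℝ≥0∞ :=
    (Set.univ.pi fun _ : {i // ¬ i ∈ s} => S2).indicator (fun y => G2 (ms y))
  let e := MeasurableEquiv.piEquivPiSubtypeProd (fun _ : Fin N => E) (fun i => i ∈ s)
  have hpt : ∀ x : Fin N → E,
      (Set.univ.pi fun i : Fin N => if i ∈ s then S1 else S2).indicator
        (fun x => G1 ((ms x).filter (· ∈ S1)) * G2 ((ms x).filter (· ∈ S2))) x =
      f (e x).1 * g (e x).2 := by
    intro x
    by_cases hx : x ∈ (Set.univ.pi fun i : Fin N => if i ∈ s then S1 else S2)
    · rw [Set.indicator_of_mem hx]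
      have hx' : ∀ i, x i ∈ (if i ∈ s then S1 else S2) := fun i => hx i (Set.mem_univ i)
      have hm1 : ∀ i, x i ∈ S1 ↔ i ∈ s := by
        intro i
        have := hx' i
        by_cases hi : i ∈ s
        · simp only [hi, if_true] at this
          simp [hi, this]
        · simp only [hi, if_false] at this
          simp only [hi, iff_false]
          exact fun hc => Set.disjoint_left.mp hd hc this
      have hm2 : ∀ i, x i ∈ S2 ↔ ¬ i ∈ s := by
        intro i
        have := hx' i
        by_cases hi : i ∈ s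
        · simp only [hi, if_true] at this
          simp only [hi, not_true, iff_false]
          exact fun hc => Set.disjoint_left.mp hd this hc
        · simp only [hi, if_false] at this
          simp [hi, this]
      rw [filter_ms x s S1 hm1, filter_ms_not x s S2 hm2]
      have hf : f (e x).1 = G1 (ms fun i : {i // i ∈ s} => x i) := by
        have hmem : (e x).1 ∈ (Set.univ.pi fun _ : {i // i ∈ s} => S1) := by
          intro i _
          exact (hm1 i).2 i.2
        simp only [f]
        rw [Set.indicator_of_mem hmem]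
        rfl
      have hg : g (e x).2 = G2 (ms fun i : {i // ¬ i ∈ s} => x i) := by
        have hmem : (e x).2 ∈ (Set.univ.pi fun _ : {i // ¬ i ∈ s} => S2) := by
          intro i _
          exact (hm2 i).2 i.2
        simp only [g]
        rw [Set.indicator_of_mem hmem]
        rfl
      rw [hf, hg]
    · rw [Set.indicator_of_notMem hx]
      have : ∃ i, x i ∉ (if i ∈ s then S1 else S2) := by
        by_contra hcon
        simp only [not_exists, not_not] at hcon
        exact hx (fun i _ => hcon i)
      obtain ⟨i, hi⟩ := this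
      by_cases his : i ∈ s
      · simp only [his, if_true] at hi
        have : f (e x).1 = 0 := by
          simp only [f]
          refine Set.indicator_of_notMem ?_ _
          intro hc
          exact hi (hc ⟨i, his⟩ (Set.mem_univ _))
        rw [this, zero_mul]
      · simp only [his, if_false] at hi
        have : g (e x).2 = 0 := by
          simp only [g]
          refine Set.indicator_of_notMem ?_ _
          intro hc
          exact hi (hc ⟨i, his⟩ (Set.mem_univ _))
        rw [this, mul_zero]
  rw [lintegral_congr hpt]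
  have hmf : Measurable f :=
    (measurable_ms_of_measG h1).indicator (MeasurableSet.univ_pi fun _ => hS1)
  have hmg : Measurable g :=
    (measurable_ms_of_measG h2).indicator (MeasurableSet.univ_pi fun _ => hS2)
  have mp := volume_preserving_piEquivPiSubtypeProd (fun _ : Fin N => E) (fun i => i ∈ s)
  have hcomp : ∫⁻ x, f (e x).1 * g (e x).2 =
      ∫⁻ p : ({i // i ∈ s} → E) × ({i // ¬ i ∈ s} → E), f p.1 * g p.2 := by
    have h := mp.lintegral_comp (f := fun p : ({i // i ∈ s} → E) × ({i // ¬ i ∈ s} → E) =>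
      f p.1 * g p.2) (by fun_prop)
    have hi : (Subtype.fintype (fun i : Fin N => i ∈ s)) =
        (Finset.Subtype.fintype s : Fintype {i // i ∈ s}) := Subsingleton.elim _ _
    rw [hi] at h
    exact h
  rw [hcomp]
  have hprod : ∫⁻ p : ({i // i ∈ s} → E) × ({i // ¬ i ∈ s} → E), f p.1 * g p.2 =
      (∫⁻ y, f y) * ∫⁻ z, g z := by
    exact lintegral_prod_mul (μ := (volume : Measure ({i // i ∈ s} → E)))
      (ν := (volume : Measure ({i // ¬ i ∈ s} → E))) hmf.aemeasurable hmg.aemeasurable
  rw [hprod]
  congr 1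
  · simp only [f]
    rw [lintegral_indicator (MeasurableSet.univ_pi fun _ => hS1)]
    exact lintegral_reindex S1 G1 (by simp)
  · simp only [g]
    rw [lintegral_indicator (MeasurableSet.univ_pi fun _ => hS2)]
    refine lintegral_reindex S2 G2 ?_
    rw [Fintype.card_subtype_compl]
    simp

lemma ennreal_cauchy (f g : ℕ → ℝ≥0∞) :
    (∑' n, f n) * (∑' n, g n) = ∑' n, ∑ kl ∈ Finset.HasAntidiagonal.antidiagonal n, f kl.1 * g kl.2 := by
  have h1 : (∑' n, f n) * (∑' n, g n) = ∑' p : ℕ × ℕ, f p.1 * g p.2 := by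
    rw [ENNReal.tsum_prod (f := fun a b => f a * g b)]
    rw [← ENNReal.tsum_mul_right]
    congr 1
    funext n
    rw [ENNReal.tsum_mul_left]
  rw [h1, ← Finset.HasAntidiagonal.sigmaAntidiagonalEquivProd.tsum_eq, ENNReal.tsum_sigma']
  congr 1
  funext n
  rw [tsum_fintype]
  exact Finset.sum_coe_sort (Finset.HasAntidiagonal.antidiagonal n)
    (fun kl : ℕ × ℕ => f kl.1 * g kl.2)

/-- Factorization over two disjoint regions. -/
theorem GC_two {S1 S2 : Set E} (hS1 : MeasurableSet S1) (hS2 : MeasurableSet S2)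
    (hd : Disjoint S1 S2) [DecidablePred (· ∈ S1)] [DecidablePred (· ∈ S2)]
    {G1 G2 : Multiset E → ℝ≥0∞} (h1 : MeasG G1) (h2 : MeasG G2) :
    GC (S1 ∪ S2) (fun X => G1 (X.filter (· ∈ S1)) * G2 (X.filter (· ∈ S2))) =
      GC S1 G1 * GC S2 G2 := by
  classical
  unfold GC
  rw [ennreal_cauchy]
  congr 1
  funext N
  have hset : (Set.univ.pi fun _ : Fin N => S1 ∪ S2) =
      ⋃ s ∈ (Finset.univ : Finset (Finset (Fin N))),
        (Set.univ.pi fun i : Fin N => if i ∈ s then S1 else S2) := by
    ext x
    simp only [Set.mem_pi, Set.mem_univ, true_imp_iff, Set.mem_iUnion, Finset.mem_univ,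
      exists_prop, true_and]
    constructor
    · intro hx
      refine ⟨Finset.univ.filter (fun i => x i ∈ S1), fun i => ?_⟩
      by_cases hi : x i ∈ S1
      · simp [hi]
      · rcases hx i with h | h
        · exact absurd h hi
        · simp [hi, h]
    · rintro ⟨s, hs⟩ i
      have := hs i
      split_ifs at this
      · exact Or.inl this
      · exact Or.inr this
  have hdis : Set.PairwiseDisjoint (↑(Finset.univ : Finset (Finset (Fin N))))
      (fun s : Finset (Fin N) => (Set.univ.pi fun i : Fin N => if i ∈ s then S1 else S2)) := by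
    intro s _ t _ hst
    rw [Function.onFun, Set.disjoint_left]
    intro x hxs hxt
    apply hst
    ext i
    have a := hxs i (Set.mem_univ i)
    have b := hxt i (Set.mem_univ i)
    by_cases hi : i ∈ s <;> by_cases hj : i ∈ t
    · simp [hi, hj]
    · simp only [hi, if_true] at a
      simp only [hj, if_false] at b
      exact absurd b (Set.disjoint_left.mp hd a)
    · simp only [hi, if_false] at a
      simp only [hj, if_true] at b
      exact absurd a (Set.disjoint_left.mp hd b)
    · simp [hi, hj]
  have hII : II (S1 ∪ S2) (fun X => G1 (X.filter (· ∈ S1)) * G2 (X.filter (· ∈ S2))) N =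
      ∑ s : Finset (Fin N), II S1 G1 s.card * II S2 G2 (N - s.card) := by
    unfold II
    rw [hset, lintegral_biUnion_finset hdis]
    · refine Finset.sum_congr rfl (fun s _ => ?_)
      exact piece_integral s hS1 hS2 hd h1 h2
    · intro s _
      refine MeasurableSet.univ_pi (fun i => ?_)
      split_ifs
      · exact hS1
      · exact hS2
  rw [hII]
  have hpow := Finset.sum_powerset_apply_card (fun n => II S1 G1 n * II S2 G2 (N - n))
    (x := (Finset.univ : Finset (Fin N)))
  rw [Finset.powerset_univ] at hpow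
  rw [hpow, Finset.card_univ, Fintype.card_fin, Finset.mul_sum,
    Finset.Nat.sum_antidiagonal_eq_sum_range_succ_mk]
  refine Finset.sum_congr rfl (fun n hn => ?_)
  have hn' : n ≤ N := Nat.lt_succ_iff.mp (Finset.mem_range.mp hn)
  have hfac : ((N.factorial : ℝ≥0∞))⁻¹ * (N.choose n : ℝ≥0∞) =
      ((n.factorial : ℝ≥0∞))⁻¹ * (((N - n).factorial : ℝ≥0∞))⁻¹ := by
    have hN0 : (N.factorial : ℝ≥0∞) ≠ 0 := by exact_mod_cast N.factorial_ne_zero
    have hNt : (N.factorial : ℝ≥0∞) ≠ ⊤ := ENNReal.natCast_ne_top _
    have hn0 : (n.factorial : ℝ≥0∞) ≠ 0 := by exact_mod_cast n.factorial_ne_zero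
    have hnt : (n.factorial : ℝ≥0∞) ≠ ⊤ := ENNReal.natCast_ne_top _
    have hm0 : ((N - n).factorial : ℝ≥0∞) ≠ 0 := by exact_mod_cast (N - n).factorial_ne_zero
    have hmt : ((N - n).factorial : ℝ≥0∞) ≠ ⊤ := ENNReal.natCast_ne_top _
    have hc : (N.factorial : ℝ≥0∞) =
        (N.choose n : ℝ≥0∞) * (n.factorial : ℝ≥0∞) * ((N - n).factorial : ℝ≥0∞) := by
      exact_mod_cast (Nat.choose_mul_factorial_mul_factorial hn').symm
    have hc0 : (N.choose n : ℝ≥0∞) ≠ 0 := by
      exact_mod_cast (Nat.choose_pos hn').ne'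
    have hct : (N.choose n : ℝ≥0∞) ≠ ⊤ := ENNReal.natCast_ne_top _
    rw [hc]
    rw [ENNReal.mul_inv (Or.inl (mul_ne_zero hc0 hn0)) (Or.inr hm0),
      ENNReal.mul_inv (Or.inl hc0) (Or.inr hn0)]
    calc _ = ((N.choose n : ℝ≥0∞))⁻¹ * (N.choose n : ℝ≥0∞) *
        (((n.factorial : ℝ≥0∞))⁻¹ * (((N - n).factorial : ℝ≥0∞))⁻¹) := by ring
      _ = _ := by rw [ENNReal.inv_mul_cancel hc0 hct, one_mul]
  rw [nsmul_eq_mul, ← mul_assoc, hfac]
  ring

end Vale.Agent.P171
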