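import Vale.Agent.P171.GC

/-!
Further properties of grand canonical integrals: monotonicity, factorization over finitely many
disjoint regions, translation invariance, convexity.
-/

open MeasureTheory Set
open scoped ENNReal

namespace Vale.Agent.P171

lemma II_mono_set {S T : Set E} (h : S ⊆ T) (G : Multiset E → ℝ≥0∞) (n : ℕ) :
    II S G n ≤ II T G n := by
  unfold II
  exact lintegral_mono_set (Set.pi_mono fun _ _ => h)

lemma GC_mono_set {S T : Set E} (h : S ⊆ T) (G : Multiset E → ℝ≥0∞) :
    GC S G ≤ GC T G := by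
  unfold GC
  exact ENNReal.tsum_le_tsum fun n => mul_le_mul_right (II_mono_set h G n) _

lemma II_mono_fun {S : Set E} (hS : MeasurableSet S) {G G' : Multiset E → ℝ≥0∞} (n : ℕ)
    (h : ∀ x : Fin n → E, (∀ i, x i ∈ S) → G (ms x) ≤ G' (ms x)) :
    II S G n ≤ II S G' n := by
  unfold II
  refine setLIntegral_mono' (MeasurableSet.univ_pi fun _ => hS) ?_
  intro x hx
  exact h x (fun i => hx i (Set.mem_univ i))

lemma GC_mono_fun {S : Set E} (hS : MeasurableSet S) {G G' : Multiset E → ℝ≥0∞}
    (h : ∀ (n : ℕ) (x : Fin n → E), (∀ i, x i ∈ S) → G (ms x) ≤ G' (ms x)) :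
    GC S G ≤ GC S G' := by
  unfold GC
  exact ENNReal.tsum_le_tsum fun n => mul_le_mul_right (II_mono_fun hS n (h n)) _

lemma GC_const_mul (S : Set E) {G : Multiset E → ℝ≥0∞} (hG : MeasG G) (c : ℝ≥0∞) :
    GC S (fun X => c * G X) = c * GC S G := by
  unfold GC II
  rw [← ENNReal.tsum_mul_left]
  congr 1
  funext n
  rw [lintegral_const_mul c (hG n)]
  ring

lemma GC_add (S : Set E) {G H : Multiset E → ℝ≥0∞} (hG : MeasG G) :
    GC S (fun X => G X + H X) = GC S G + GC S H := by
  unfold GC II
  rw [← ENNReal.tsum_add]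
  congr 1
  funext n
  rw [lintegral_add_left (hG n)]
  ring

lemma measG_finset_sum {κ : Type*} (s : Finset κ) {G : κ → Multiset E → ℝ≥0∞}
    (hG : ∀ k ∈ s, MeasG (G k)) : MeasG (fun X => ∑ k ∈ s, G k X) := by
  intro n
  exact Finset.measurable_fun_sum s (fun k hk => hG k hk n)

lemma GC_finset_sum {κ : Type*} (S : Set E) (s : Finset κ) {G : κ → Multiset E → ℝ≥0∞}
    (hG : ∀ k ∈ s, MeasG (G k)) :
    GC S (fun X => ∑ k ∈ s, G k X) = ∑ k ∈ s, GC S (G k) := by
  classical
  induction s using Finset.induction_on with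
  | empty => simp [GC, II]
  | insert a s ha ih =>
    have h1 : (fun X => ∑ k ∈ insert a s, G k X) = fun X => G a X + ∑ k ∈ s, G k X := by
      funext X
      rw [Finset.sum_insert ha]
    rw [h1, GC_add S (hG a (Finset.mem_insert_self a s)), Finset.sum_insert ha,
      ih (fun k hk => hG k (Finset.mem_insert_of_mem hk))]

lemma measG_mul {G H : Multiset E → ℝ≥0∞} (hG : MeasG G) (hH : MeasG H) :
    MeasG (fun X => G X * H X) := fun n => (hG n).mul (hH n)

lemma measG_finset_prod {κ : Type*} (s : Finset κ) {G : κ → Multiset E → ℝ≥0∞}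
    (hG : ∀ k ∈ s, MeasG (G k)) : MeasG (fun X => ∏ k ∈ s, G k X) := by
  intro n
  exact Finset.measurable_fun_prod s (fun k hk => hG k hk n)

lemma measG_filter {G : Multiset E → ℝ≥0∞} (hG : MeasG G) {S : Set E} (hS : MeasurableSet S)
    [DecidablePred (· ∈ S)] : MeasG (fun X => G (X.filter (· ∈ S))) := by
  classical
  intro n
  have hrep : (fun x : Fin n → E => G ((ms x).filter (· ∈ S))) = fun x =>
      ∑ s : Finset (Fin n), ({x : Fin n → E | ∀ i, x i ∈ S ↔ i ∈ s}).indicator
        (fun x => G (ms (fun i : {i // i ∈ s} => x i))) x := by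
    funext x
    let s0 : Finset (Fin n) := Finset.univ.filter (fun i => x i ∈ S)
    have hs0 : ∀ i, x i ∈ S ↔ i ∈ s0 := by intro i; simp [s0]
    rw [Finset.sum_eq_single s0]
    · rw [Set.indicator_of_mem (show x ∈ {x : Fin n → E | ∀ i, x i ∈ S ↔ i ∈ s0} from hs0)]
      rw [filter_ms x s0 S hs0]
    · intro s _ hs
      refine Set.indicator_of_notMem ?_ _
      intro hx
      apply hs
      ext i
      rw [← hs0 i]
      exact (hx i).symm
    · intro h
      exact absurd (Finset.mem_univ _) h
  rw [hrep]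
  refine Finset.measurable_fun_sum _ (fun s _ => ?_)
  refine Measurable.indicator ?_ ?_
  · have := measurable_ms_of_measG hG (ι := {i // i ∈ s})
    exact this.comp (by fun_prop)
  · have : {x : Fin n → E | ∀ i, x i ∈ S ↔ i ∈ s} =
        ⋂ i, {x : Fin n → E | x i ∈ S ↔ i ∈ s} := by
      ext x; simp
    rw [this]
    refine MeasurableSet.iInter (fun i => ?_)
    by_cases hi : i ∈ s
    · simp only [hi, iff_true]
      exact hS.preimage (measurable_pi_apply i)
    · simp only [hi, iff_false]
      exact (hS.preimage (measurable_pi_apply i)).compl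

lemma GC_empty {G : Multiset E → ℝ≥0∞} : GC (∅ : Set E) G = G 0 := by
  unfold GC
  rw [tsum_eq_single 0]
  · unfold II
    have : (Set.univ.pi fun _ : Fin 0 => (∅ : Set E)) = Set.univ := by
      ext x; simp
    rw [this, Measure.restrict_univ]
    have hv : (volume : Measure (Fin 0 → E)) = Measure.dirac (fun i => i.elim0) := by
      exact Measure.volume_pi_eq_dirac _
    rw [hv, lintegral_dirac]
    simp [ms]
  · intro n hn
    unfold II
    have : (Set.univ.pi fun _ : Fin n => (∅ : Set E)) = ∅ := by
      rw [Set.univ_pi_eq_empty_iff]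
      exact ⟨⟨0, Nat.pos_of_ne_zero hn⟩, rfl⟩
    rw [this]
    simp

/-- Factorization over finitely many disjoint regions. -/
theorem GC_blocks {κ : Type*} (B : Finset κ) {S : κ → Set E}
    (hS : ∀ b ∈ B, MeasurableSet (S b)) (hd : (B : Set κ).PairwiseDisjoint S)
    [∀ b, DecidablePred (· ∈ S b)]
    {G : κ → Multiset E → ℝ≥0∞} (hG : ∀ b ∈ B, MeasG (G b)) :
    GC (⋃ b ∈ B, S b) (fun X => ∏ b ∈ B, G b (X.filter (· ∈ S b))) = ∏ b ∈ B, GC (S b) (G b) := by
  classical
  induction B using Finset.induction_on with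
  | empty =>
    simp only [Finset.notMem_empty, Set.iUnion_of_empty, Set.iUnion_empty, Finset.prod_empty]
    exact GC_empty
  | insert a s ha ih =>
    have hSa : MeasurableSet (S a) := hS a (Finset.mem_insert_self a s)
    have hSs : MeasurableSet (⋃ b ∈ s, S b) :=
      Finset.measurableSet_biUnion s (fun b hb => hS b (Finset.mem_insert_of_mem hb))
    have hdis : Disjoint (S a) (⋃ b ∈ s, S b) := by
      rw [Set.disjoint_iUnion₂_right]
      intro b hb
      exact hd (by simp) (by simp [hb]) (fun h => ha (h ▸ hb))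
    have hG2 : MeasG (fun X => ∏ b ∈ s, G b (X.filter (· ∈ S b))) :=
      measG_finset_prod s (fun b hb => measG_filter (hG b (Finset.mem_insert_of_mem hb))
        (hS b (Finset.mem_insert_of_mem hb)))
    have h2 := GC_two hSa hSs hdis (hG a (Finset.mem_insert_self a s)) hG2
    have hset : (⋃ b ∈ insert a s, S b) = S a ∪ ⋃ b ∈ s, S b := by
      simp
    rw [hset, Finset.prod_insert ha]
    rw [← ih (fun b hb => hS b (Finset.mem_insert_of_mem hb))
      (hd.subset (by simp)) (fun b hb => hG b (Finset.mem_insert_of_mem hb))]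
    rw [← h2]
    congr 1
    funext X
    rw [Finset.prod_insert ha]
    congr 1
    refine Finset.prod_congr rfl (fun b hb => ?_)
    congr 1
    rw [Multiset.filter_filter]
    refine Multiset.filter_congr (fun x _ => ?_)
    constructor
    · intro hx
      exact ⟨hx, Set.mem_biUnion hb hx⟩
    · exact fun hx => hx.1

/-- Translation invariance. -/
lemma GC_translate (v : E) (S : Set E) {G : Multiset E → ℝ≥0∞}
    (hinv : ∀ X : Multiset E, G (X.map (fun a => v + a)) = G X) :
    GC ((fun a => v + a) ⁻¹' S) G = GC S G := by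
  unfold GC II
  congr 1
  funext n
  congr 1
  let e : (Fin n → E) → (Fin n → E) := fun x i => v + x i
  have mp : MeasurePreserving e volume volume := by
    have := measurePreserving_add_left (volume : Measure (Fin n → E)) (fun _ => v)
    exact this
  have hemb : MeasurableEmbedding e := by
    have := measurableEmbedding_addLeft (fun _ : Fin n => v)
    exact this
  have h := mp.setLIntegral_comp_preimage_emb hemb (fun x => G (ms x))
    (Set.univ.pi fun _ : Fin n => S)
  rw [← h]
  have hpre : e ⁻¹' (Set.univ.pi fun _ : Fin n => S) =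
      (Set.univ.pi fun _ : Fin n => (fun a => v + a) ⁻¹' S) := by
    ext x
    simp [e]
  rw [hpre]
  congr 1
  funext x
  have : ms (e x) = (ms x).map (fun a => v + a) := by
    unfold ms
    rw [Multiset.map_map]
    rfl
  rw [this, hinv]

/-- exponential functional -/
noncomputable def EG (H : Multiset E → ℝ) : Multiset E → ℝ≥0∞ :=
  fun X => ENNReal.ofReal (Real.exp (H X))

lemma EG_zero {H : Multiset E → ℝ} (h : H 0 = 0) : EG H 0 = 1 := by
  simp [EG, h]

lemma prod_EG {κ : Type*} (s : Finset κ) (H : κ → Multiset E → ℝ) (X : κ → Multiset E) :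
    ∏ k ∈ s, EG (H k) (X k) = ENNReal.ofReal (Real.exp (∑ k ∈ s, H k (X k))) := by
  unfold EG
  rw [Real.exp_sum, ENNReal.ofReal_prod_of_nonneg]
  intro i _
  exact (Real.exp_pos _).le

/-- log-convexity of grand canonical integrals in the exponent -/
lemma GC_convex (S : Set E) {H1 H2 : Multiset E → ℝ} (hm1 : MeasG (EG H1)) (hm2 : MeasG (EG H2))
    {c1 c2 t : ℝ} (ht0 : 0 ≤ t) (ht1 : t ≤ 1)
    (h1 : GC S (EG H1) ≤ ENNReal.ofReal (Real.exp c1))
    (h2 : GC S (EG H2) ≤ ENNReal.ofReal (Real.exp c2)) :
    GC S (EG fun X => (1 - t) * H1 X + t * H2 X) ≤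
      ENNReal.ofReal (Real.exp ((1 - t) * c1 + t * c2)) := by
  -- pointwise weighted AM-GM
  have hpt : ∀ X, EG (fun X => (1 - t) * H1 X + t * H2 X) X ≤
      ENNReal.ofReal (Real.exp ((1 - t) * c1 + t * c2)) *
        (ENNReal.ofReal ((1 - t) * Real.exp (-c1)) * EG H1 X +
          ENNReal.ofReal (t * Real.exp (-c2)) * EG H2 X) := by
    intro X
    unfold EG
    rw [← ENNReal.ofReal_mul (by positivity), ← ENNReal.ofReal_mul
      (mul_nonneg (by linarith) (Real.exp_pos _).le), ← ENNReal.ofReal_add
      (by have := Real.exp_pos (-c1); have := Real.exp_pos (H1 X); have : 0 ≤ 1 - t := by linarith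
          positivity) (by positivity),
      ← ENNReal.ofReal_mul (by positivity)]
    refine ENNReal.ofReal_le_ofReal ?_
    have hconv := (convexOn_exp).2 (Set.mem_univ (H1 X - c1)) (Set.mem_univ (H2 X - c2))
      (by linarith : (0 : ℝ) ≤ 1 - t) ht0 (by ring)
    simp only [smul_eq_mul] at hconv
    have e1 : Real.exp ((1 - t) * H1 X + t * H2 X) =
        Real.exp ((1 - t) * c1 + t * c2) *
          Real.exp ((1 - t) * (H1 X - c1) + t * (H2 X - c2)) := by
      rw [← Real.exp_add]; congr 1; ring
    rw [e1]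
    refine mul_le_mul_of_nonneg_left ?_ (Real.exp_pos _).le
    calc _ ≤ _ := hconv
      _ = _ := by
        rw [show H1 X - c1 = H1 X + -c1 by ring, show H2 X - c2 = H2 X + -c2 by ring,
          Real.exp_add, Real.exp_add]
        ring
  have hm : MeasG (fun X => ENNReal.ofReal ((1 - t) * Real.exp (-c1)) * EG H1 X) := by
    intro n; exact (hm1 n).const_mul _
  have hm' : MeasG (fun X => ENNReal.ofReal (t * Real.exp (-c2)) * EG H2 X) := by
    intro n; exact (hm2 n).const_mul _
  have hms : MeasG (fun X => ENNReal.ofReal ((1 - t) * Real.exp (-c1)) * EG H1 X +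
      ENNReal.ofReal (t * Real.exp (-c2)) * EG H2 X) := by
    intro n; exact (hm n).add (hm' n)
  have hle : GC S (EG fun X => (1 - t) * H1 X + t * H2 X) ≤
      GC S (fun X => ENNReal.ofReal (Real.exp ((1 - t) * c1 + t * c2)) *
        (ENNReal.ofReal ((1 - t) * Real.exp (-c1)) * EG H1 X +
          ENNReal.ofReal (t * Real.exp (-c2)) * EG H2 X)) := by
    unfold GC II
    exact ENNReal.tsum_le_tsum fun n => mul_le_mul_right (lintegral_mono fun x => hpt _) _
  refine hle.trans ?_
  rw [GC_const_mul S hms, GC_add S hm, GC_const_mul S hm1, GC_const_mul S hm2]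
  calc _ ≤ ENNReal.ofReal (Real.exp ((1 - t) * c1 + t * c2)) *
        (ENNReal.ofReal ((1 - t) * Real.exp (-c1)) * ENNReal.ofReal (Real.exp c1) +
          ENNReal.ofReal (t * Real.exp (-c2)) * ENNReal.ofReal (Real.exp c2)) := by
        gcongr
    _ = ENNReal.ofReal (Real.exp ((1 - t) * c1 + t * c2)) * 1 := by
        congr 1
        rw [← ENNReal.ofReal_mul (mul_nonneg (by linarith) (Real.exp_pos _).le),
          ← ENNReal.ofReal_mul (by positivity), mul_assoc, mul_assoc, ← Real.exp_add,
          ← Real.exp_add]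
        simp only [neg_add_cancel, Real.exp_zero, mul_one]
        rw [← ENNReal.ofReal_add (by linarith) ht0]
        simp
    _ = _ := mul_one _

end Vale.Agent.P171
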