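import Vale.Agent.P171.GC2

/-!
Boxes, cells, pair sums.
-/

open MeasureTheory Set
open scoped ENNReal

namespace Vale.Agent.P171

/-- the closed cube `[0, L]^3` -/
def box (L : ℝ) : Set E := {x | ∀ i, 0 ≤ x i ∧ x i ≤ L}

/-- the half-open cube `[0, L)^3` -/
def hbox (L : ℝ) : Set E := {x | ∀ i, 0 ≤ x i ∧ x i < L}

/-- the closed cube `[a, b]^3` -/
def cube (a b : ℝ) : Set E := {x | ∀ i, a ≤ x i ∧ x i ≤ b}

lemma measurableSet_cube (a b : ℝ) : MeasurableSet (cube a b) := by
  have : cube a b = ⋂ i, {x : E | a ≤ x i} ∩ {x : E | x i ≤ b} := by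
    ext x; simp [cube]
  rw [this]
  refine MeasurableSet.iInter (fun i => MeasurableSet.inter ?_ ?_)
  · exact measurableSet_le measurable_const (by fun_prop)
  · exact measurableSet_le (by fun_prop) measurable_const

lemma measurableSet_box (L : ℝ) : MeasurableSet (box L) := measurableSet_cube 0 L

lemma measurableSet_hbox (L : ℝ) : MeasurableSet (hbox L) := by
  have : hbox L = ⋂ i, {x : E | 0 ≤ x i} ∩ {x : E | x i < L} := by
    ext x; simp [hbox]
  rw [this]
  refine MeasurableSet.iInter (fun i => MeasurableSet.inter ?_ ?_)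
  · exact measurableSet_le measurable_const (by fun_prop)
  · exact measurableSet_lt (by fun_prop) measurable_const

lemma volume_cube (a b : ℝ) : volume (cube a b) = ENNReal.ofReal (b - a) ^ 3 := by
  have mp := PiLp.volume_preserving_toLp (Fin 3)
  have h := mp.measure_preimage (measurableSet_cube a b).nullMeasurableSet
  rw [← h]
  have : (WithLp.toLp 2 : (Fin 3 → ℝ) → E) ⁻¹' (cube a b) = Set.univ.pi fun _ => Set.Icc a b := by
    ext x
    simp only [cube, Set.mem_preimage, Set.mem_ofPred_eq, Set.mem_pi, Set.mem_univ, true_imp_iff,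
      Set.mem_Icc]
  rw [this, volume_pi_pi]
  simp

lemma volume_hbox (L : ℝ) : volume (hbox L) = ENNReal.ofReal L ^ 3 := by
  have mp := PiLp.volume_preserving_toLp (Fin 3)
  have h := mp.measure_preimage (measurableSet_hbox L).nullMeasurableSet
  rw [← h]
  have : (WithLp.toLp 2 : (Fin 3 → ℝ) → E) ⁻¹' (hbox L) = Set.univ.pi fun _ => Set.Ico 0 L := by
    ext x
    simp only [hbox, Set.mem_preimage, Set.mem_ofPred_eq, Set.mem_pi, Set.mem_univ, true_imp_iff,
      Set.mem_Ico]
  rw [this, volume_pi_pi]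
  simp

lemma volume_box (L : ℝ) : volume (box L) = ENNReal.ofReal L ^ 3 := by
  have := volume_cube 0 L
  rw [sub_zero] at this
  exact this

lemma hbox_subset_box (L : ℝ) : hbox L ⊆ box L := fun _ hx i => ⟨(hx i).1, (hx i).2.le⟩

/-- sum of a radial kernel over ordered pairs, diagonal included -/
noncomputable def pairSum (k : ℝ → ℝ) (X : Multiset E) : ℝ :=
  (X.map fun a => (X.map fun b => k (dist a b)).sum).sum

lemma pairSum_ms {ι : Type*} [Fintype ι] (k : ℝ → ℝ) (x : ι → E) :
    pairSum k (ms x) = ∑ i, ∑ j, k (dist (x i) (x j)) := by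
  unfold pairSum ms
  simp only [Multiset.map_map, Function.comp_def, Finset.sum_map_val]

lemma filter_ms_map {n : ℕ} (x : Fin n → E) (p : E → Prop) [DecidablePred p] :
    (ms x).filter p = (Finset.univ.filter (fun i => p (x i))).val.map x := by
  unfold ms
  rw [Multiset.filter_map]
  rfl

lemma pairSum_filter {n : ℕ} (k : ℝ → ℝ) (x : Fin n → E) (p : E → Prop) [DecidablePred p] :
    pairSum k ((ms x).filter p) = ∑ i ∈ Finset.univ.filter (fun i => p (x i)),
      ∑ j ∈ Finset.univ.filter (fun i => p (x i)), k (dist (x i) (x j)) := by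
  rw [filter_ms_map]
  unfold pairSum
  simp only [Multiset.map_map, Function.comp_def, Finset.sum_map_val]

lemma card_filter_ms {n : ℕ} (x : Fin n → E) (p : E → Prop) [DecidablePred p] :
    Multiset.card ((ms x).filter p) = (Finset.univ.filter (fun i => p (x i))).card := by
  rw [filter_ms_map, Multiset.card_map]
  rfl

lemma pairSum_zero (k : ℝ → ℝ) : pairSum k 0 = 0 := by simp [pairSum]

lemma pairSum_translate (k : ℝ → ℝ) (v : E) (X : Multiset E) :
    pairSum k (X.map (fun a => v + a)) = pairSum k X := by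
  unfold pairSum
  simp [Multiset.map_map, dist_add_left]

lemma pairSum_add (k k' : ℝ → ℝ) (X : Multiset E) :
    pairSum (fun r => k r + k' r) X = pairSum k X + pairSum k' X := by
  unfold pairSum
  simp [Multiset.sum_map_add]

lemma pairSum_smul (c : ℝ) (k : ℝ → ℝ) (X : Multiset E) :
    pairSum (fun r => c * k r) X = c * pairSum k X := by
  unfold pairSum
  simp [Multiset.sum_map_mul_left]

lemma measurable_pairSum {k : ℝ → ℝ} (hk : Measurable k) (n : ℕ) :
    Measurable fun x : Fin n → E => pairSum k (ms x) := by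
  simp only [pairSum_ms]
  refine Finset.measurable_fun_sum _ (fun i _ => Finset.measurable_fun_sum _ (fun j _ => ?_))
  exact hk.comp (by fun_prop)

/-- the basic exponent: `ν · card + c · card² - (1/2) · (pair sum of k)` -/
noncomputable def HH (ν c : ℝ) (k : ℝ → ℝ) (X : Multiset E) : ℝ :=
  ν * (Multiset.card X : ℝ) + c * (Multiset.card X : ℝ) ^ 2 - (1 / 2) * pairSum k X

lemma HH_translate (ν c : ℝ) (k : ℝ → ℝ) (v : E) (X : Multiset E) :
    HH ν c k (X.map (fun a => v + a)) = HH ν c k X := by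
  unfold HH
  rw [pairSum_translate, Multiset.card_map]

lemma measG_HH (ν c : ℝ) {k : ℝ → ℝ} (hk : Measurable k) : MeasG (EG (HH ν c k)) := by
  intro n
  unfold EG HH
  have h1 := measurable_pairSum hk n
  simp only [card_ms]
  fun_prop

/-! ### cells -/

/-- index of the cell of side `l` (grid shifted by `t`) containing a point -/
noncomputable def cl (l t : ℝ) (x : E) : Fin 3 → ℤ := fun i => ⌊(x i - t) / l⌋

lemma measurable_cl (l t : ℝ) : Measurable (cl l t) := by
  refine measurable_pi_lambda _ (fun i => ?_)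
  unfold cl
  exact Int.measurable_floor.comp (by fun_prop)

/-- the cell with index `k` -/
def cellSet (l t : ℝ) (k : Fin 3 → ℤ) : Set E := {x | cl l t x = k}

noncomputable instance cellSetDec (l t : ℝ) (k : Fin 3 → ℤ) : DecidablePred (· ∈ cellSet l t k) :=
  fun x => inferInstanceAs (Decidable (cl l t x = k))

lemma measurableSet_cellSet (l t : ℝ) (k : Fin 3 → ℤ) : MeasurableSet (cellSet l t k) :=
  measurable_cl l t (measurableSet_singleton k)

lemma cellSet_disjoint (l t : ℝ) {k k' : Fin 3 → ℤ} (h : k ≠ k') :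
    Disjoint (cellSet l t k) (cellSet l t k') := by
  rw [Set.disjoint_left]
  intro x hx hx'
  exact h (hx.symm.trans hx')

lemma cellSet_eq_preimage {l : ℝ} (hl : 0 < l) (t : ℝ) (k : Fin 3 → ℤ) :
    cellSet l t k = (fun a => (WithLp.toLp 2 (fun i => -(t + l * k i)) : E) + a) ⁻¹' (hbox l) := by
  ext x
  simp only [cellSet, hbox, Set.mem_ofPred_eq, Set.mem_preimage, PiLp.add_apply]
  rw [funext_iff]
  refine forall_congr' (fun i => ?_)
  unfold cl
  rw [Int.floor_eq_iff, le_div_iff₀ hl, div_lt_iff₀ hl]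
  constructor
  · rintro ⟨h1, h2⟩
    constructor <;> nlinarith
  · rintro ⟨h1, h2⟩
    constructor <;> nlinarith

lemma GC_cell_le {l : ℝ} (hl : 0 < l) (t : ℝ) (k : Fin 3 → ℤ) {H : Multiset E → ℝ}
    (hinv : ∀ (v : E) (X : Multiset E), H (X.map (fun a => v + a)) = H X) :
    GC (cellSet l t k) (EG H) ≤ GC (box l) (EG H) := by
  rw [cellSet_eq_preimage hl t k, GC_translate]
  · exact GC_mono_set (hbox_subset_box l) _
  · intro X
    unfold EG
    rw [hinv]

lemma GC_cell_eq {l : ℝ} (hl : 0 < l) (t : ℝ) (k : Fin 3 → ℤ) {H : Multiset E → ℝ}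
    (hinv : ∀ (v : E) (X : Multiset E), H (X.map (fun a => v + a)) = H X) :
    GC (cellSet l t k) (EG H) = GC (hbox l) (EG H) := by
  rw [cellSet_eq_preimage hl t k, GC_translate]
  intro X
  unfold EG
  rw [hinv]

/-- number of ordered pairs in the same cell -/
noncomputable def sc {n : ℕ} (l t : ℝ) (x : Fin n → E) : ℝ :=
  ∑ i, ∑ j, if cl l t (x i) = cl l t (x j) then (1 : ℝ) else 0

/-- grouping of a same-cell double sum by cells -/
lemma group_cells {n : ℕ} (l t : ℝ) (x : Fin n → E) (B : Finset (Fin 3 → ℤ))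
    (hB : ∀ i, cl l t (x i) ∈ B) (f : Fin n → Fin n → ℝ) :
    ∑ i, ∑ j, (if cl l t (x i) = cl l t (x j) then f i j else 0) =
      ∑ k ∈ B, ∑ i ∈ Finset.univ.filter (fun i => x i ∈ cellSet l t k),
        ∑ j ∈ Finset.univ.filter (fun i => x i ∈ cellSet l t k), f i j := by
  classical
  have h1 : ∀ i, ∑ j, (if cl l t (x i) = cl l t (x j) then f i j else 0) =
      ∑ j ∈ Finset.univ.filter (fun j => cl l t (x j) = cl l t (x i)), f i j := by
    intro i
    rw [Finset.sum_filter]
    refine Finset.sum_congr rfl (fun j _ => ?_)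
    simp only [eq_comm]
  simp_rw [h1]
  rw [← Finset.sum_fiberwise_of_maps_to (s := Finset.univ) (t := B) (g := fun i => cl l t (x i))
    (fun i _ => hB i)]
  refine Finset.sum_congr rfl (fun k _ => ?_)
  refine Finset.sum_congr ?_ (fun i hi => ?_)
  · ext i
    simp only [Finset.mem_filter, Finset.mem_univ, true_and]
    exact Iff.rfl
  · have hik : cl l t (x i) = k := by
      simp only [Finset.mem_filter, Finset.mem_univ, true_and] at hi
      exact hi
    refine Finset.sum_congr ?_ (fun _ _ => rfl)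
    ext j
    simp only [Finset.mem_filter, Finset.mem_univ, true_and, hik]
    exact Iff.rfl

lemma sc_eq {n : ℕ} (l t : ℝ) (x : Fin n → E) (B : Finset (Fin 3 → ℤ))
    (hB : ∀ i, cl l t (x i) ∈ B) :
    sc l t x = ∑ k ∈ B, ((Finset.univ.filter (fun i => x i ∈ cellSet l t k)).card : ℝ) ^ 2 := by
  unfold sc
  rw [group_cells l t x B hB (fun _ _ => 1)]
  refine Finset.sum_congr rfl (fun k _ => ?_)
  simp [sq]

lemma card_eq_cells {n : ℕ} (l t : ℝ) (x : Fin n → E) (B : Finset (Fin 3 → ℤ))
    (hB : ∀ i, cl l t (x i) ∈ B) :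
    (n : ℝ) = ∑ k ∈ B, ((Finset.univ.filter (fun i => x i ∈ cellSet l t k)).card : ℝ) := by
  classical
  have h := Finset.card_eq_sum_card_fiberwise (s := (Finset.univ : Finset (Fin n))) (t := B)
    (f := fun i => cl l t (x i)) (fun i _ => hB i)
  rw [Finset.card_univ, Fintype.card_fin] at h
  have h' : (n : ℝ) = ∑ k ∈ B, ((Finset.univ.filter (fun i => cl l t (x i) = k)).card : ℝ) := by
    exact_mod_cast h
  rw [h']
  refine Finset.sum_congr rfl (fun k _ => ?_)
  congr 2

/-- two points of the same cell of side `l` are at distance less than `2 l` -/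
lemma dist_lt_of_cl_eq {l t : ℝ} (hl : 0 < l) {x y : E} (h : cl l t x = cl l t y) :
    dist x y < 2 * l := by
  have hc : ∀ i, |x i - y i| < l := by
    intro i
    have hi := congrFun h i
    simp only [cl] at hi
    have := Int.abs_sub_lt_one_of_floor_eq_floor hi
    rw [← sub_div, abs_div, abs_of_pos hl, div_lt_one hl] at this
    have e : x i - t - (y i - t) = x i - y i := by ring
    rwa [e] at this
  rw [EuclideanSpace.dist_eq, Real.sqrt_lt' (by positivity), Fin.sum_univ_three]
  have hh : ∀ i, dist (x i) (y i) ^ 2 < l ^ 2 := by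
    intro i
    rw [Real.dist_eq]
    exact pow_lt_pow_left₀ (hc i) (abs_nonneg _) two_ne_zero
  have h0 := hh 0
  have h1 := hh 1
  have h2 := hh 2
  nlinarith

lemma abs_coord_le_dist (x y : E) (i : Fin 3) : |x i - y i| ≤ dist x y := by
  have := PiLp.norm_apply_le (x - y) i
  rw [Real.norm_eq_abs] at this
  rw [dist_eq_norm]
  simpa using this

/-- Counting the shifts for which two nearby reals are separated by the grid. -/
lemma cut_count_one (K : ℕ) (hK : 0 < K) {u v : ℝ} (huv : u ≤ v) :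
    (((Finset.range K).filter
      (fun j : ℕ => ⌊v - ((j : ℝ) + 1) / K⌋ ≠ ⌊u - ((j : ℝ) + 1) / K⌋)).card : ℝ) ≤ K * (v - u) + 1 := by
  classical
  have hKr : (0 : ℝ) < K := by exact_mod_cast hK
  let f : ℕ → ℤ := fun j => K * ⌊v - ((j : ℝ) + 1) / K⌋ + (j + 1)
  have hcard : ((Finset.range K).filter
      (fun j : ℕ => ⌊v - ((j : ℝ) + 1) / K⌋ ≠ ⌊u - ((j : ℝ) + 1) / K⌋)).card ≤
      (Finset.Ioc ⌊K * u⌋ ⌊K * v⌋).card := by
    refine Finset.card_le_card_of_injOn f ?_ ?_
    · intro j hj
      simp only [Finset.coe_filter, Finset.mem_range, Set.mem_ofPred_eq] at hj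
      obtain ⟨_, hne⟩ := hj
      have hle : ⌊u - ((j : ℝ) + 1) / K⌋ ≤ ⌊v - ((j : ℝ) + 1) / K⌋ :=
        Int.floor_le_floor (by linarith)
      have hlt : ⌊u - ((j : ℝ) + 1) / K⌋ < ⌊v - ((j : ℝ) + 1) / K⌋ :=
        lt_of_le_of_ne hle (Ne.symm hne)
      have h1 : u - ((j : ℝ) + 1) / K < ⌊v - ((j : ℝ) + 1) / K⌋ := by
        rwa [Int.floor_lt] at hlt
      have h2 : (⌊v - ((j : ℝ) + 1) / K⌋ : ℝ) ≤ v - ((j : ℝ) + 1) / K := Int.floor_le _
      rw [Finset.mem_coe, Finset.mem_Ioc, Int.floor_lt, Int.le_floor]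
      simp only [f]
      push_cast
      have e : ((j : ℝ) + 1) / K * K = j + 1 := by field_simp
      constructor
      · have := mul_lt_mul_of_pos_left h1 hKr
        have e2 : (K : ℝ) * (u - ((j : ℝ) + 1) / K) = K * u - (j + 1) := by
          rw [mul_sub]; rw [mul_comm (K : ℝ) (((j : ℝ) + 1) / K), e]
        linarith
      · have := mul_le_mul_of_nonneg_left h2 hKr.le
        have e2 : (K : ℝ) * (v - ((j : ℝ) + 1) / K) = K * v - (j + 1) := by
          rw [mul_sub]; rw [mul_comm (K : ℝ) (((j : ℝ) + 1) / K), e]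
        linarith
    · intro j hj j' hj' hff
      simp only [Finset.coe_filter, Finset.mem_range, Set.mem_ofPred_eq] at hj hj'
      simp only [f] at hff
      have hmod : ((j : ℤ)) % K = (j' : ℤ) % K := by
        have h3 : (j : ℤ) - j' = K * (⌊v - ((j' : ℝ) + 1) / K⌋ - ⌊v - ((j : ℝ) + 1) / K⌋) := by
          linarith
        have : (K : ℤ) ∣ (j : ℤ) - j' := ⟨_, h3⟩
        exact ((Int.modEq_iff_dvd).2 this).symm
      have hj1 : (j : ℤ) % K = j := Int.emod_eq_of_lt (by positivity) (by exact_mod_cast hj.1)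
      have hj2 : (j' : ℤ) % K = j' := Int.emod_eq_of_lt (by positivity) (by exact_mod_cast hj'.1)
      rw [hj1, hj2] at hmod
      exact_mod_cast hmod
  have hIoc : ((Finset.Ioc ⌊K * u⌋ ⌊K * v⌋).card : ℝ) ≤ K * (v - u) + 1 := by
    rw [Int.card_Ioc]
    have hfl : ⌊K * u⌋ ≤ ⌊K * v⌋ := Int.floor_le_floor (mul_le_mul_of_nonneg_left huv hKr.le)
    have h1 : (((⌊K * v⌋ - ⌊K * u⌋).toNat : ℤ) : ℝ) = ((⌊K * v⌋ - ⌊K * u⌋ : ℤ) : ℝ) := by
      rw [Int.toNat_of_nonneg (by linarith)]
    have h2 : ((⌊K * v⌋ - ⌊K * u⌋).toNat : ℝ) = ((⌊K * v⌋ - ⌊K * u⌋ : ℤ) : ℝ) := by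
      exact_mod_cast h1
    rw [h2]
    push_cast
    have a := Int.floor_le (K * v)
    have b := Int.lt_floor_add_one (K * u)
    nlinarith
  calc _ ≤ ((Finset.Ioc ⌊K * u⌋ ⌊K * v⌋).card : ℝ) := by exact_mod_cast hcard
    _ ≤ _ := hIoc

/-- Counting the shifts for which two nearby points are separated by the grid. -/
lemma cut_count (K : ℕ) (hK : 0 < K) {l D : ℝ} (hl : 0 < l) (hD : 0 ≤ D) {x y : E}
    (hxy : dist x y ≤ D) :
    (((Finset.range K).filter
      (fun j : ℕ => cl l (l * ((j : ℝ) + 1) / K) x ≠ cl l (l * ((j : ℝ) + 1) / K) y)).card : ℝ) ≤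
      3 * (K * (D / l) + 1) := by
  classical
  have hone : ∀ i : Fin 3, (((Finset.range K).filter
      (fun j : ℕ => cl l (l * ((j : ℝ) + 1) / K) x i ≠ cl l (l * ((j : ℝ) + 1) / K) y i)).card : ℝ) ≤
      K * (D / l) + 1 := by
    intro i
    have hco : |x i - y i| ≤ D := (abs_coord_le_dist x y i).trans hxy
    have he : ∀ (z : E) (j : ℕ), cl l (l * ((j : ℝ) + 1) / K) z i =
        ⌊z i / l - ((j : ℝ) + 1) / K⌋ := by
      intro z j
      simp only [cl]
      congr 1
      field_simp
    simp only [he]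
    rcases le_total (x i) (y i) with h | h
    · have h1 := cut_count_one K hK (u := x i / l) (v := y i / l)
        (div_le_div_of_nonneg_right h hl.le)
      have h2 : (Finset.range K).filter
          (fun j : ℕ => ⌊x i / l - ((j : ℝ) + 1) / K⌋ ≠ ⌊y i / l - ((j : ℝ) + 1) / K⌋) =
          (Finset.range K).filter
          (fun j : ℕ => ⌊y i / l - ((j : ℝ) + 1) / K⌋ ≠ ⌊x i / l - ((j : ℝ) + 1) / K⌋) := by
        refine Finset.filter_congr (fun j _ => ?_)
        exact ne_comm
      rw [h2]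
      refine h1.trans ?_
      have h3 : y i / l - x i / l ≤ D / l := by
        rw [← sub_div]
        refine div_le_div_of_nonneg_right ?_ hl.le
        rw [abs_sub_comm] at hco
        exact (le_abs_self _).trans hco
      have : (0 : ℝ) ≤ K := by positivity
      nlinarith
    · have h1 := cut_count_one K hK (u := y i / l) (v := x i / l)
        (div_le_div_of_nonneg_right h hl.le)
      refine h1.trans ?_
      have h3 : x i / l - y i / l ≤ D / l := by
        rw [← sub_div]
        refine div_le_div_of_nonneg_right ?_ hl.le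
        exact (le_abs_self _).trans hco
      have : (0 : ℝ) ≤ K := by positivity
      nlinarith
  have hsub : (Finset.range K).filter
      (fun j : ℕ => cl l (l * ((j : ℝ) + 1) / K) x ≠ cl l (l * ((j : ℝ) + 1) / K) y) ⊆
      (Finset.univ : Finset (Fin 3)).biUnion (fun i => (Finset.range K).filter
      (fun j : ℕ => cl l (l * ((j : ℝ) + 1) / K) x i ≠ cl l (l * ((j : ℝ) + 1) / K) y i)) := by
    intro j hj
    rw [Finset.mem_filter] at hj
    obtain ⟨hj1, hj2⟩ := hj
    obtain ⟨i, hi⟩ := Function.ne_iff.mp hj2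
    rw [Finset.mem_biUnion]
    exact ⟨i, Finset.mem_univ i, Finset.mem_filter.2 ⟨hj1, hi⟩⟩
  have hc := (Finset.card_le_card hsub).trans Finset.card_biUnion_le
  calc _ ≤ ((∑ i : Fin 3, ((Finset.range K).filter
      (fun j : ℕ => cl l (l * ((j : ℝ) + 1) / K) x i ≠ cl l (l * ((j : ℝ) + 1) / K) y i)).card : ℕ) : ℝ)
      := by exact_mod_cast hc
    _ = ∑ i : Fin 3, (((Finset.range K).filter
      (fun j : ℕ => cl l (l * ((j : ℝ) + 1) / K) x i ≠ cl l (l * ((j : ℝ) + 1) / K) y i)).card : ℝ) :=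
      by push_cast; rfl
    _ ≤ ∑ i : Fin 3, ((K : ℝ) * (D / l) + 1) := Finset.sum_le_sum (fun i _ => hone i)
    _ = 3 * (K * (D / l) + 1) := by
        rw [Finset.sum_const, Finset.card_univ, Fintype.card_fin, nsmul_eq_mul]
        norm_num

end Vale.Agent.P171
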