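import Vale.Agent.P171.Geom

/-!
The attractive kernel: normalized overlap volume of two balls.
-/

open MeasureTheory Set Metric
open scoped ENNReal

namespace Vale.Agent.P171

/-- volume of a ball of radius `R` -/
noncomputable def VR (R : ℝ) : ℝ := (volume (closedBall (0 : E) R)).toReal

/-- overlap volume of two balls of radius `R` -/
noncomputable def ov (R : ℝ) (x y : E) : ℝ := (volume (closedBall x R ∩ closedBall y R)).toReal

/-- a unit vector -/
noncomputable def e0 : E := EuclideanSpace.single 0 1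

lemma norm_e0 : ‖e0‖ = 1 := by simp [e0]

/-- the radial kernel of strength `a` and radius `R` -/
noncomputable def psi (a R : ℝ) (r : ℝ) : ℝ := a / (VR R) ^ 2 * ov R 0 (r • e0)

lemma vball (x : E) (R : ℝ) : volume (closedBall x R) = volume (closedBall (0 : E) R) :=
  Measure.addHaar_closedBall_center volume x R

lemma vball_ne_top (x : E) (R : ℝ) : volume (closedBall x R) ≠ ⊤ :=
  measure_closedBall_lt_top.ne

lemma VR_eq {R : ℝ} (hR : 0 ≤ R) : VR R = R ^ 3 * VR 1 := by
  unfold VR
  rw [Measure.addHaar_closedBall' volume (0 : E) hR]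
  rw [ENNReal.toReal_mul, ENNReal.toReal_ofReal (by positivity)]
  simp

lemma VR_one_pos : 0 < VR 1 := by
  unfold VR
  rw [ENNReal.toReal_pos_iff]
  exact ⟨measure_closedBall_pos _ _ one_pos, measure_closedBall_lt_top⟩

lemma VR_pos {R : ℝ} (hR : 0 < R) : 0 < VR R := by
  rw [VR_eq hR.le]
  have := VR_one_pos
  positivity

lemma ov_nonneg (R : ℝ) (x y : E) : 0 ≤ ov R x y := ENNReal.toReal_nonneg

lemma ov_le (R : ℝ) (x y : E) : ov R x y ≤ VR R := by
  unfold ov VR
  rw [← vball x R]
  exact ENNReal.toReal_mono (vball_ne_top x R) (measure_mono Set.inter_subset_left)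

lemma ov_isometry (R : ℝ) (f : E ≃ᵢ E) (hf : MeasurePreserving f volume volume) (x y : E) :
    ov R (f x) (f y) = ov R x y := by
  unfold ov
  have h : f ⁻¹' (closedBall (f x) R ∩ closedBall (f y) R) = closedBall x R ∩ closedBall y R := by
    ext z
    simp [mem_closedBall]
  rw [← h, hf.measure_preimage]
  exact (isClosed_closedBall.inter isClosed_closedBall).measurableSet.nullMeasurableSet

lemma ov_eq (R : ℝ) (x y : E) : ov R x y = ov R 0 (dist x y • e0) := by
  -- translate so that the first center is the origin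
  have h1 : ov R x y = ov R 0 (y - x) := by
    have := ov_isometry R (IsometryEquiv.addRight (-x)) (measurePreserving_add_right volume (-x)) x y
    rw [← this]
    simp [sub_eq_add_neg]
  rw [h1]
  -- reflect
  have hn : ‖y - x‖ = ‖dist x y • e0‖ := by
    rw [norm_smul, norm_e0, mul_one, Real.norm_of_nonneg dist_nonneg, dist_comm, dist_eq_norm]
  let f := (ℝ ∙ ((y - x) - dist x y • e0))ᗮ.reflection
  have hf : f (y - x) = dist x y • e0 := Submodule.reflection_sub hn
  have hmp : MeasurePreserving f volume volume := f.measurePreserving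
  have h2 := ov_isometry R f.toIsometryEquiv hmp 0 (y - x)
  rw [← h2]
  simp only [LinearIsometryEquiv.coe_toIsometryEquiv, map_zero, hf]

lemma psi_dist (a R : ℝ) (x y : E) : psi a R (dist x y) = a / (VR R) ^ 2 * ov R x y := by
  unfold psi
  rw [← ov_eq]

lemma psi_nonneg {a : ℝ} (ha : 0 ≤ a) (R r : ℝ) : 0 ≤ psi a R r := by
  unfold psi
  have := ov_nonneg R 0 (r • e0)
  positivity

lemma psi_le {a R : ℝ} (ha : 0 ≤ a) (hR : 0 < R) (r : ℝ) : psi a R r ≤ a / VR R := by
  unfold psi
  have h := ov_le R 0 (r • e0)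
  have hV := VR_pos hR
  calc _ ≤ a / (VR R) ^ 2 * VR R := mul_le_mul_of_nonneg_left h (by positivity)
    _ = _ := by field_simp

lemma psi_eq_zero (a : ℝ) {R r : ℝ} (hR : 0 ≤ R) (hr : 2 * R < r) : psi a R r = 0 := by
  unfold psi ov
  have : closedBall (0 : E) R ∩ closedBall (r • e0) R = ∅ := by
    rw [← Set.disjoint_iff_inter_eq_empty]
    apply closedBall_disjoint_closedBall
    rw [dist_comm, dist_zero_right, norm_smul, norm_e0, mul_one, Real.norm_eq_abs]
    have := le_abs_self r
    linarith
  rw [this]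
  simp

lemma measurable_psi (a R : ℝ) : Measurable (psi a R) := by
  unfold psi ov
  refine Measurable.const_mul ?_ _
  refine Measurable.ennreal_toReal ?_
  let S : Set (ℝ × E) := {p | p.2 ∈ closedBall (0 : E) R ∧ dist p.2 (p.1 • e0) ≤ R}
  have hS : MeasurableSet S := by
    have h1 : IsClosed {p : ℝ × E | p.2 ∈ closedBall (0 : E) R} :=
      isClosed_closedBall.preimage continuous_snd
    have h2 : IsClosed {p : ℝ × E | dist p.2 (p.1 • e0) ≤ R} := by
      refine isClosed_le ?_ continuous_const
      fun_prop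
    exact (h1.inter h2).measurableSet
  have h := measurable_measure_prodMk_left (ν := (volume : Measure E)) hS
  exact h

/-! ### lower bound for the pair sum -/

/-- indicator function of a ball -/
noncomputable def bi (R : ℝ) (x u : E) : ℝ := (closedBall x R).indicator (fun _ => (1 : ℝ)) u

lemma bi_mul (R : ℝ) (x y u : E) :
    bi R x u * bi R y u = (closedBall x R ∩ closedBall y R).indicator (fun _ => (1 : ℝ)) u := by
  unfold bi
  by_cases hx : u ∈ closedBall x R <;> by_cases hy : u ∈ closedBall y R <;>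
    simp [Set.indicator, hx, hy]

lemma integrable_ind {S : Set E} (hS : MeasurableSet S) (hv : volume S ≠ ⊤) :
    Integrable (S.indicator (fun _ => (1 : ℝ))) := by
  rw [integrable_indicator_iff hS]
  exact integrableOn_const hv

lemma integrable_bi (R : ℝ) (x : E) : Integrable (bi R x) :=
  integrable_ind isClosed_closedBall.measurableSet (vball_ne_top x R)

lemma integrable_bi_mul (R : ℝ) (x y : E) : Integrable (fun u => bi R x u * bi R y u) := by
  simp_rw [bi_mul]
  refine integrable_ind (isClosed_closedBall.inter isClosed_closedBall).measurableSet ?_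
  exact ne_top_of_le_ne_top (vball_ne_top x R) (measure_mono Set.inter_subset_left)

lemma integral_ind {S : Set E} (hS : MeasurableSet S) :
    ∫ u, S.indicator (fun _ => (1 : ℝ)) u = (volume S).toReal := by
  rw [integral_indicator hS]
  simp [Measure.real]

lemma integral_bi (R : ℝ) (x : E) : ∫ u, bi R x u = VR R := by
  have := integral_ind (S := closedBall x R) isClosed_closedBall.measurableSet
  rw [vball] at this
  exact this

lemma integral_bi_mul (R : ℝ) (x y : E) : ∫ u, bi R x u * bi R y u = ov R x y := by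
  simp_rw [bi_mul]
  exact integral_ind (isClosed_closedBall.inter isClosed_closedBall).measurableSet

lemma integral_sq_bi {n : ℕ} (R : ℝ) (x : Fin n → E) :
    ∫ u, (∑ i, bi R (x i) u) ^ 2 = ∑ i, ∑ j, ov R (x i) (x j) := by
  have h : ∀ u, (∑ i, bi R (x i) u) ^ 2 = ∑ i, ∑ j, bi R (x i) u * bi R (x j) u := by
    intro u
    rw [sq, Finset.sum_mul_sum]
  simp_rw [h]
  rw [integral_finsetSum _ (fun i _ => integrable_finsetSum _ (fun j _ =>
    integrable_bi_mul R (x i) (x j)))]
  refine Finset.sum_congr rfl (fun i _ => ?_)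
  rw [integral_finsetSum _ (fun j _ => integrable_bi_mul R (x i) (x j))]
  refine Finset.sum_congr rfl (fun j _ => integral_bi_mul R (x i) (x j))

lemma integrable_sq_bi {n : ℕ} (R : ℝ) (x : Fin n → E) :
    Integrable (fun u => (∑ i, bi R (x i) u) ^ 2) := by
  have h : ∀ u, (∑ i, bi R (x i) u) ^ 2 = ∑ i, ∑ j, bi R (x i) u * bi R (x j) u := by
    intro u
    rw [sq, Finset.sum_mul_sum]
  simp_rw [h]
  exact integrable_finsetSum _ (fun i _ => integrable_finsetSum _ (fun j _ =>
    integrable_bi_mul R (x i) (x j)))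

lemma ball_subset_cube {R L : ℝ} {x : E} (hx : x ∈ box L) :
    closedBall x R ⊆ cube (-R) (L + R) := by
  intro u hu i
  have h := (abs_coord_le_dist u x i).trans (mem_closedBall.mp hu)
  rw [abs_le] at h
  have := hx i
  constructor <;> linarith [this.1, this.2, h.1, h.2]

lemma ov_sum_lower {R L c : ℝ} (hR : 0 < R) (hL : 0 ≤ L) {n : ℕ} (x : Fin n → E)
    (hx : ∀ i, x i ∈ box L) :
    2 * c * (VR R * n) - c ^ 2 * (L + 2 * R) ^ 3 ≤ ∑ i, ∑ j, ov R (x i) (x j) := by
  set S := cube (-R) (L + R) with hSdef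
  have hSm : MeasurableSet S := measurableSet_cube _ _
  have hvol : volume S = ENNReal.ofReal ((L + 2 * R) ^ 3) := by
    rw [hSdef, volume_cube, ENNReal.ofReal_pow (by linarith)]
    congr 2
    ring
  have hvt : volume S ≠ ⊤ := by rw [hvol]; exact ENNReal.ofReal_ne_top
  let g : E → ℝ := fun u => ∑ i, bi R (x i) u - c * S.indicator (fun _ => (1 : ℝ)) u
  have hpos : 0 ≤ ∫ u, (g u) ^ 2 := integral_nonneg (fun u => sq_nonneg _)
  have hexp : ∀ u, (g u) ^ 2 = (∑ i, bi R (x i) u) ^ 2 - 2 * c * ∑ i, bi R (x i) u +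
      c ^ 2 * S.indicator (fun _ => (1 : ℝ)) u := by
    intro u
    simp only [g]
    by_cases hu : u ∈ S
    · rw [Set.indicator_of_mem hu]; ring
    · rw [Set.indicator_of_notMem hu]
      have hz : ∑ i, bi R (x i) u = 0 := by
        refine Finset.sum_eq_zero (fun i _ => ?_)
        unfold bi
        refine Set.indicator_of_notMem ?_ _
        exact fun hc => hu (ball_subset_cube (hx i) hc)
      rw [hz]; ring
  simp_rw [hexp] at hpos
  have i1 := integrable_sq_bi R x
  have i2 : Integrable (fun u => ∑ i, bi R (x i) u) :=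
    integrable_finsetSum _ (fun i _ => integrable_bi R (x i))
  have i3 := integrable_ind hSm hvt
  have hkey : ∫ u, ((∑ i, bi R (x i) u) ^ 2 - 2 * c * ∑ i, bi R (x i) u +
      c ^ 2 * S.indicator (fun _ => (1 : ℝ)) u) =
      (∫ u, (∑ i, bi R (x i) u) ^ 2) - 2 * c * (∫ u, ∑ i, bi R (x i) u) +
      c ^ 2 * ∫ u, S.indicator (fun _ => (1 : ℝ)) u := by
    rw [← integral_const_mul, ← integral_const_mul, ← integral_sub i1 (i2.const_mul _)]
    exact integral_add (i1.sub (i2.const_mul _)) (i3.const_mul _)
  rw [hkey, integral_sq_bi, integral_ind hSm,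
    integral_finsetSum _ (fun i _ => integrable_bi R (x i))] at hpos
  simp only [integral_bi, Finset.sum_const, Finset.card_univ, Fintype.card_fin,
    nsmul_eq_mul] at hpos
  rw [hvol, ENNReal.toReal_ofReal (by positivity)] at hpos
  nlinarith

/-- **(L)** lower bound for the pair sum of `psi`. -/
theorem psi_lower {a R L m : ℝ} (ha : 0 ≤ a) (hR : 0 < R) (hL : 0 ≤ L) {n : ℕ} (x : Fin n → E)
    (hx : ∀ i, x i ∈ box L) :
    2 * a * m * n - a * m ^ 2 * (L + 2 * R) ^ 3 ≤ ∑ i, ∑ j, psi a R (dist (x i) (x j)) := by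
  have hV := VR_pos hR
  have h := ov_sum_lower (c := m * VR R) hR hL x hx
  have h2 : ∑ i, ∑ j, psi a R (dist (x i) (x j)) =
      a / (VR R) ^ 2 * ∑ i, ∑ j, ov R (x i) (x j) := by
    simp_rw [psi_dist, Finset.mul_sum]
  rw [h2]
  have h3 := mul_le_mul_of_nonneg_left h (show 0 ≤ a / (VR R) ^ 2 by positivity)
  refine le_trans (le_of_eq ?_) h3
  field_simp

/-! ### upper bound for the pair sum -/

/-- overlap of a cell with a ball, normalized -/
noncomputable def tk (l t R' : ℝ) (k : Fin 3 → ℤ) (u : E) : ℝ :=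
  (l ^ 3)⁻¹ * (volume (cellSet l t k ∩ closedBall u R')).toReal

lemma volume_cellSet {l : ℝ} (hl : 0 < l) (t : ℝ) (k : Fin 3 → ℤ) :
    volume (cellSet l t k) = ENNReal.ofReal (l ^ 3) := by
  rw [cellSet_eq_preimage hl t k, measure_preimage_add, volume_hbox, ENNReal.ofReal_pow hl.le]

lemma tk_nonneg {l : ℝ} (hl : 0 < l) (t R' : ℝ) (k : Fin 3 → ℤ) (u : E) : 0 ≤ tk l t R' k u := by
  unfold tk
  positivity

lemma bi_le_tk {l t R : ℝ} (hl : 0 < l) (x u : E) :
    bi R x u ≤ tk l t (R + 2 * l) (cl l t x) u := by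
  unfold bi
  by_cases hu : u ∈ closedBall x R
  · rw [Set.indicator_of_mem hu]
    have hsub : cellSet l t (cl l t x) ⊆ closedBall u (R + 2 * l) := by
      intro z hz
      have h1 := dist_lt_of_cl_eq hl (x := z) (y := x) hz
      have h2 : dist x u ≤ R := by rw [dist_comm]; exact mem_closedBall.mp hu
      rw [mem_closedBall]
      have := dist_triangle z x u
      linarith
    unfold tk
    rw [Set.inter_eq_left.mpr hsub, volume_cellSet hl, ENNReal.toReal_ofReal (by positivity),
      inv_mul_cancel₀ (by positivity)]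
  · rw [Set.indicator_of_notMem hu]
    exact tk_nonneg hl _ _ _ _

lemma sum_tk_le {l : ℝ} (hl : 0 < l) (t R' : ℝ) (B : Finset (Fin 3 → ℤ)) (u : E) :
    ∑ k ∈ B, tk l t R' k u ≤ (l ^ 3)⁻¹ * VR R' := by
  unfold tk
  rw [← Finset.mul_sum]
  refine mul_le_mul_of_nonneg_left ?_ (by positivity)
  rw [← ENNReal.toReal_sum (fun k _ => ne_top_of_le_ne_top (vball_ne_top u R')
    (measure_mono Set.inter_subset_right))]
  unfold VR
  rw [← vball u R']
  refine ENNReal.toReal_mono (vball_ne_top u R') ?_
  rw [← measure_biUnion_finset]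
  · exact measure_mono (Set.iUnion₂_subset (fun k _ => Set.inter_subset_right))
  · intro k _ k' _ hkk
    exact (cellSet_disjoint l t hkk).mono Set.inter_subset_left Set.inter_subset_left
  · intro k _
    exact (measurableSet_cellSet l t k).inter isClosed_closedBall.measurableSet

lemma lintegral_cell_ball {l : ℝ} (hl : 0 < l) (t R' : ℝ) (k : Fin 3 → ℤ) :
    ∫⁻ u, volume (cellSet l t k ∩ closedBall u R') =
      ENNReal.ofReal (l ^ 3) * volume (closedBall (0 : E) R') := by
  have hm : Measurable (Function.uncurry fun (u z : E) =>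
      (cellSet l t k).indicator (fun z => (closedBall u R').indicator (fun _ => (1 : ℝ≥0∞)) z) z) := by
    have hS : MeasurableSet {p : E × E | p.2 ∈ cellSet l t k ∧ dist p.2 p.1 ≤ R'} := by
      have h1 : MeasurableSet {p : E × E | p.2 ∈ cellSet l t k} :=
        measurable_snd (measurableSet_cellSet l t k)
      have h2 : MeasurableSet {p : E × E | dist p.2 p.1 ≤ R'} := by
        have hm : Measurable fun p : E × E => dist p.2 p.1 := by fun_prop
        exact measurableSet_le hm measurable_const
      exact h1.inter h2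
    have : (Function.uncurry fun (u z : E) =>
      (cellSet l t k).indicator (fun z => (closedBall u R').indicator (fun _ => (1 : ℝ≥0∞)) z) z) =
      ({p : E × E | p.2 ∈ cellSet l t k ∧ dist p.2 p.1 ≤ R'}).indicator (fun _ => 1) := by
      funext p
      simp only [Function.uncurry, Set.indicator, mem_closedBall, Set.mem_ofPred_eq]
      by_cases h1 : p.2 ∈ cellSet l t k <;> by_cases h2 : dist p.2 p.1 ≤ R' <;> simp [h1, h2]
    rw [this]
    exact measurable_const.indicator hS
  have h1 : ∀ u, volume (cellSet l t k ∩ closedBall u R') =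
      ∫⁻ z, (cellSet l t k).indicator (fun z =>
        (closedBall u R').indicator (fun _ => (1 : ℝ≥0∞)) z) z := by
    intro u
    rw [lintegral_indicator (measurableSet_cellSet l t k),
      lintegral_indicator isClosed_closedBall.measurableSet, lintegral_one,
      Measure.restrict_restrict isClosed_closedBall.measurableSet,
      Measure.restrict_apply_univ, Set.inter_comm]
  simp_rw [h1]
  rw [lintegral_lintegral_swap hm.aemeasurable]
  have h2 : ∀ z, ∫⁻ u, (cellSet l t k).indicator (fun z =>
        (closedBall u R').indicator (fun _ => (1 : ℝ≥0∞)) z) z =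
      (cellSet l t k).indicator (fun _ => volume (closedBall (0 : E) R')) z := by
    intro z
    by_cases hz : z ∈ cellSet l t k
    · simp only [Set.indicator_of_mem hz]
      have : ∀ u, (closedBall u R').indicator (fun _ => (1 : ℝ≥0∞)) z =
          (closedBall z R').indicator (fun _ => (1 : ℝ≥0∞)) u := by
        intro u
        simp only [Set.indicator, mem_closedBall, dist_comm]
      simp_rw [this]
      rw [lintegral_indicator isClosed_closedBall.measurableSet, lintegral_one,
        Measure.restrict_apply_univ, vball]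
    · simp only [Set.indicator_of_notMem hz, lintegral_zero]
  simp_rw [h2]
  rw [lintegral_indicator (measurableSet_cellSet l t k), setLIntegral_const, volume_cellSet hl,
    mul_comm]

lemma measurable_cell_ball (l t R' : ℝ) (k : Fin 3 → ℤ) :
    Measurable fun u => volume (cellSet l t k ∩ closedBall u R') := by
  have hS : MeasurableSet {p : E × E | p.2 ∈ cellSet l t k ∧ dist p.2 p.1 ≤ R'} := by
    have h1 : MeasurableSet {p : E × E | p.2 ∈ cellSet l t k} :=
      measurable_snd (measurableSet_cellSet l t k)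
    have h2 : MeasurableSet {p : E × E | dist p.2 p.1 ≤ R'} := by
      have hm : Measurable fun p : E × E => dist p.2 p.1 := by fun_prop
      exact measurableSet_le hm measurable_const
    exact h1.inter h2
  exact measurable_measure_prodMk_left (ν := (volume : Measure E)) hS

lemma cell_ball_ne_top {l : ℝ} (hl : 0 < l) (t R' : ℝ) (k : Fin 3 → ℤ) (u : E) :
    volume (cellSet l t k ∩ closedBall u R') ≠ ⊤ :=
  ne_top_of_le_ne_top (vball_ne_top u R') (measure_mono Set.inter_subset_right)

lemma integrable_tk {l : ℝ} (hl : 0 < l) (t R' : ℝ) (k : Fin 3 → ℤ) :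
    Integrable (tk l t R' k) := by
  unfold tk
  refine Integrable.const_mul ?_ _
  refine integrable_toReal_of_lintegral_ne_top (measurable_cell_ball l t R' k).aemeasurable ?_
  rw [lintegral_cell_ball hl]
  exact ENNReal.mul_ne_top ENNReal.ofReal_ne_top (vball_ne_top 0 R')

lemma integral_tk {l : ℝ} (hl : 0 < l) (t R' : ℝ) (k : Fin 3 → ℤ) :
    ∫ u, tk l t R' k u = VR R' := by
  unfold tk
  rw [integral_const_mul, integral_toReal (measurable_cell_ball l t R' k).aemeasurable
    (Filter.Eventually.of_forall fun u => (cell_ball_ne_top hl t R' k u).lt_top),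
    lintegral_cell_ball hl, ENNReal.toReal_mul, ENNReal.toReal_ofReal (by positivity)]
  unfold VR
  field_simp

lemma ov_sum_upper {l R : ℝ} (hl : 0 < l) (hR : 0 < R) (t : ℝ) {n : ℕ} (x : Fin n → E) :
    ∑ i, ∑ j, ov R (x i) (x j) ≤ (l ^ 3)⁻¹ * (VR (R + 2 * l)) ^ 2 * sc l t x := by
  classical
  set R' := R + 2 * l with hR'
  let B : Finset (Fin 3 → ℤ) := Finset.univ.image (fun i => cl l t (x i))
  have hB : ∀ i, cl l t (x i) ∈ B := fun i => Finset.mem_image_of_mem _ (Finset.mem_univ i)
  let nk : (Fin 3 → ℤ) → ℝ := fun k =>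
    ((Finset.univ.filter (fun i => x i ∈ cellSet l t k)).card : ℝ)
  have hpt : ∀ u, (∑ i, bi R (x i) u) ^ 2 ≤
      (l ^ 3)⁻¹ * VR R' * ∑ k ∈ B, nk k ^ 2 * tk l t R' k u := by
    intro u
    have h0 : 0 ≤ ∑ i, bi R (x i) u :=
      Finset.sum_nonneg (fun i _ => Set.indicator_nonneg (fun _ _ => zero_le_one) _)
    have h1 : ∑ i, bi R (x i) u ≤ ∑ k ∈ B, nk k * tk l t R' k u := by
      calc ∑ i, bi R (x i) u ≤ ∑ i, tk l t R' (cl l t (x i)) u :=
            Finset.sum_le_sum (fun i _ => bi_le_tk hl (x i) u)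
        _ = ∑ k ∈ B, ∑ i ∈ Finset.univ.filter (fun i => cl l t (x i) = k),
              tk l t R' (cl l t (x i)) u :=
            (Finset.sum_fiberwise_of_maps_to (fun i _ => hB i) _).symm
        _ = ∑ k ∈ B, nk k * tk l t R' k u := by
            refine Finset.sum_congr rfl (fun k _ => ?_)
            have : ∀ i ∈ Finset.univ.filter (fun i => cl l t (x i) = k),
                tk l t R' (cl l t (x i)) u = tk l t R' k u := by
              intro i hi
              rw [(Finset.mem_filter.mp hi).2]
            rw [Finset.sum_congr rfl this, Finset.sum_const, nsmul_eq_mul]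
            rfl
    have h2 : (∑ k ∈ B, nk k * tk l t R' k u) ^ 2 ≤
        (∑ k ∈ B, tk l t R' k u) * ∑ k ∈ B, nk k ^ 2 * tk l t R' k u := by
      refine Finset.sum_sq_le_sum_mul_sum_of_sq_le_mul B (fun k _ => tk_nonneg hl _ _ _ _)
        (fun k _ => mul_nonneg (sq_nonneg _) (tk_nonneg hl _ _ _ _))
        (fun k _ => le_of_eq (by ring))
    have h3 : 0 ≤ ∑ k ∈ B, nk k ^ 2 * tk l t R' k u :=
      Finset.sum_nonneg (fun k _ => mul_nonneg (sq_nonneg _) (tk_nonneg hl _ _ _ _))
    calc _ ≤ (∑ k ∈ B, nk k * tk l t R' k u) ^ 2 := pow_le_pow_left₀ h0 h1 2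
      _ ≤ _ := h2
      _ ≤ _ := mul_le_mul_of_nonneg_right (sum_tk_le hl t R' B u) h3
  have hint : Integrable (fun u => (l ^ 3)⁻¹ * VR R' * ∑ k ∈ B, nk k ^ 2 * tk l t R' k u) :=
    (integrable_finsetSum _ (fun k _ => (integrable_tk hl t R' k).const_mul _)).const_mul _
  have := integral_mono (integrable_sq_bi R x) hint hpt
  rw [integral_sq_bi, integral_const_mul, integral_finsetSum _
    (fun k _ => (integrable_tk hl t R' k).const_mul _)] at this
  simp_rw [integral_const_mul, integral_tk hl] at this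
  refine this.trans (le_of_eq ?_)
  rw [sc_eq l t x B hB, ← Finset.sum_mul]
  ring

/-- **(U)** upper bound for the pair sum of `psi`. -/
theorem psi_upper {a l R : ℝ} (ha : 0 ≤ a) (hl : 0 < l) (hR : 0 < R) (t : ℝ) {n : ℕ}
    (x : Fin n → E) :
    ∑ i, ∑ j, psi a R (dist (x i) (x j)) ≤ a * ((R + 2 * l) / R) ^ 6 / l ^ 3 * sc l t x := by
  have hV := VR_pos hR
  have h := ov_sum_upper hl hR t x
  have h2 : ∑ i, ∑ j, psi a R (dist (x i) (x j)) =
      a / (VR R) ^ 2 * ∑ i, ∑ j, ov R (x i) (x j) := by
    simp_rw [psi_dist, Finset.mul_sum]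
  rw [h2]
  have h3 := mul_le_mul_of_nonneg_left h (show 0 ≤ a / (VR R) ^ 2 by positivity)
  refine h3.trans (le_of_eq ?_)
  rw [VR_eq (show 0 ≤ R + 2 * l by linarith), VR_eq hR.le]
  have := VR_one_pos
  field_simp

end Vale.Agent.P171
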