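import Vale.Agent.P171.Seq2

/-!
The limiting potential of the explicit recursion, its kink and its two-sided power bound.
-/

open MeasureTheory Set Filter Topology
open scoped ENNReal

namespace Vale.Agent.P171

/-- attractive parts of the explicit recursion -/
noncomputable def ff : ℕ → ℝ → ℝ
  | 0 => psi 60000 (yy 0 ^ 16)
  | (k + 1) => fun r => ff k r + psi (ap k) (Rr k) r

lemma ff_succ (k : ℕ) : ff (k + 1) = fun r => ff k r + psi (ap k) (Rr k) r := rfl

lemma inv_ff (k : ℕ) : Inv2 k (ff k) := by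
  induction k with
  | zero => exact inv2_zero
  | succ k ih => exact inv2_step k _ ih

lemma att_diff2 (k m : ℕ) :
    Att (fun r => ff (k + m) r - ff k r) (cc (k + m) - cc k) := by
  induction m with
  | zero =>
    have : (fun r => ff (k + 0) r - ff k r) = fun _ => (0 : ℝ) := by funext r; simp
    rw [this]
    exact (att_zero le_rfl).mono (by simp)
  | succ m ih =>
    have e : (fun r => ff (k + (m + 1)) r - ff k r) =
        fun r => (ff (k + m) r - ff k r) + psi (ap (k + m)) (Rr (k + m)) r := by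
      funext r
      rw [show k + (m + 1) = (k + m) + 1 by ring, ff_succ (k + m)]
      ring
    rw [e]
    refine (ih.add (psi_att (ap_pos _).le (rr20 _))).mono ?_
    have h1 := ap_le (k + m)
    have h2 : cc (k + m) - cc k + 2 * aa (k + m) = cc (k + (m + 1)) - cc k := by
      unfold cc aa
      rw [show (2 : ℝ) ^ (k + (m + 1)) = 2 * 2 ^ (k + m) by ring]
      field_simp
      ring
    linarith

lemma ff_mono (r : ℝ) : Monotone (fun k => ff k r) := by
  refine monotone_nat_of_le_succ (fun k => ?_)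
  simp only [ff_succ k]
  have := psi_nonneg (ap_pos k).le (Rr k) r
  linarith

/-- the limiting attractive part -/
noncomputable def chi2 (r : ℝ) : ℝ := ⨆ k, ff k r

lemma tendsto_chi2 (r : ℝ) : Tendsto (fun k => ff k r) atTop (𝓝 (chi2 r)) := by
  refine tendsto_atTop_ciSup (ff_mono r) ⟨120000 / VR 20, ?_⟩
  rintro _ ⟨k, rfl⟩
  exact ((inv_ff k).bound r).trans (bk_le k)

lemma chi2_le (r : ℝ) : chi2 r ≤ 120000 / VR 20 :=
  ciSup_le (fun k => ((inv_ff k).bound r).trans (bk_le k))

lemma le_chi2 (k : ℕ) (r : ℝ) : ff k r ≤ chi2 r := by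
  refine le_ciSup (f := fun k => ff k r) ⟨120000 / VR 20, ?_⟩ k
  rintro _ ⟨k, rfl⟩
  exact ((inv_ff k).bound r).trans (bk_le k)

/-- **Two-sided temperedness**: the power bound on the attractive tail. -/
lemma chi2_decay {r : ℝ} (hr : 2 * yy 0 ^ 16 < r) :
    chi2 r ≤ 60000 / VR 1 * (r / 2) ^ (-(3 + 1 / 32) : ℝ) := by
  refine ciSup_le (fun k => ((inv_ff k).decay r hr).trans ?_)
  have hr0 : 0 < r := by
    have : 0 < yy 0 ^ 16 := by have := yy_pos 0; positivity
    linarith
  refine mul_le_mul_of_nonneg_right ?_ (Real.rpow_nonneg (by linarith) _)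
  refine div_le_div_of_nonneg_right ?_ VR_one_pos.le
  have : (0 : ℝ) ≤ 60000 / 2 ^ k := by positivity
  linarith

lemma att_tail2 (k : ℕ) : Att (fun r => chi2 r - ff k r) (120000 / 2 ^ k) where
  meas := by
    refine Measurable.sub ?_ (inv_ff k).att.meas
    exact measurable_of_tendsto_metrizable (fun m => (inv_ff m).att.meas)
      (tendsto_pi_nhds.mpr (fun r => tendsto_chi2 r))
  nonneg := fun r => sub_nonneg.mpr (le_chi2 k r)
  strength := by
    intro n x
    have hlim : Tendsto (fun m => ∑ i, ∑ j, (ff (k + m) (dist (x i) (x j)) -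
        ff k (dist (x i) (x j)))) atTop
        (𝓝 (∑ i, ∑ j, (chi2 (dist (x i) (x j)) - ff k (dist (x i) (x j))))) := by
      refine tendsto_finsetSum _ (fun i _ => tendsto_finsetSum _ (fun j _ => ?_))
      refine Tendsto.sub ?_ tendsto_const_nhds
      have h1 := tendsto_chi2 (dist (x i) (x j))
      exact h1.comp (tendsto_add_atTop_nat k |>.congr (fun m => by ring))
    refine le_of_tendsto hlim (Eventually.of_forall (fun m => ?_))
    have h1 := (att_diff2 k m).strength n x
    refine h1.trans (mul_le_mul_of_nonneg_right ?_ (sc_nonneg 1 0 x))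
    unfold cc
    have : (0 : ℝ) ≤ 120000 / 2 ^ (k + m) := by positivity
    linarith

lemma ok_ff (k : ℕ) : Ok AA (ff k) :=
  ok_of_att AA_pos ((inv_ff k).att.mono (cc_le k)) (by have := AA_pos; linarith)

lemma att_chi2 : Att chi2 (AA / 4) := by
  have h := (inv_ff 0).att.add (att_tail2 0)
  have e : (fun r => ff 0 r + (chi2 r - ff 0 r)) = chi2 := by funext r; ring
  rw [e] at h
  refine h.mono ?_
  unfold cc AA
  norm_num

lemma ok_chi2 : Ok AA chi2 := ok_of_att AA_pos att_chi2 (by have := AA_pos; linarith)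

/-- pressures converge -/
lemma tendsto_PP_ff (ν : ℝ) : Tendsto (fun k => PP AA (ff k) ν) atTop (𝓝 (PP AA chi2 ν)) := by
  have hok := ok_chi2
  have hup : ∀ k, PP AA chi2 ν - BB AA ν * (1 / 2) ^ k ≤ PP AA (ff k) ν := by
    intro k
    have h2k := two_pow_pos' k
    set t : ℝ := (1 / 2) ^ k with ht
    have ht0 : 0 < t := by positivity
    have ht1 : t ≤ 1 := pow_le_one₀ (by norm_num) (by norm_num)
    have htk : t * 2 ^ k = 1 := by
      rw [ht, ← mul_pow]; norm_num
    have hatt2 : Att (fun r => ff k r + 2 ^ k * (chi2 r - ff k r)) (AA / 2) := by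
      refine ((inv_ff k).att.add ((att_tail2 k).smul h2k.le)).mono ?_
      have e : (2 : ℝ) ^ k * (120000 / 2 ^ k) = 120000 := by field_simp
      rw [e]
      unfold cc AA
      have : (0 : ℝ) ≤ 120000 / 2 ^ k := by positivity
      linarith
    have hok2 : Ok AA (fun r => ff k r + 2 ^ k * (chi2 r - ff k r)) := ⟨AA_pos, hatt2⟩
    have e : (fun r => (1 - t) * ff k r + t * (ff k r + 2 ^ k * (chi2 r - ff k r))) =
        chi2 := by
      funext r
      have : (1 - t) * ff k r + t * (ff k r + 2 ^ k * (chi2 r - ff k r)) =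
        ff k r + (t * 2 ^ k) * (chi2 r - ff k r) := by ring
      rw [this, htk]
      ring
    have h := PP_convex2 (ok_ff k) hok2 ht0.le ht1 (by rw [e]; exact hok) ν ν
    rw [e] at h
    have eν : (1 - t) * ν + t * ν = ν := by ring
    rw [eν] at h
    have h3 := PP_le_BB hok2 ν
    have h4 := PP_nonneg (ok_ff k) ν
    nlinarith
  have hlow : ∀ k, PP AA (ff k) ν ≤ PP AA chi2 ν := fun k =>
    PP_mono_chi (ok_ff k) hok (fun r => le_chi2 k r) ν
  refine tendsto_of_tendsto_of_tendsto_of_le_of_le ?_ tendsto_const_nhds hup hlow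
  have h1 : Tendsto (fun k : ℕ => PP AA chi2 ν - BB AA ν * (1 / 2 : ℝ) ^ k) atTop
      (𝓝 (PP AA chi2 ν - BB AA ν * 0)) :=
    tendsto_const_nhds.sub ((tendsto_pow_atTop_nhds_zero_of_lt_one (by norm_num)
      (by norm_num)).const_mul _)
  simpa using h1

lemma tendsto_w2 : Tendsto w2 atTop (𝓝 0) :=
  squeeze_zero (fun k => (w2_pos k).le) w2_le tendsto_wk

/-- the limiting pressure has a kink -/
theorem exists_kink2 :
    ∃ ν, (∀ t y, t ≤ y → y < ν → PP AA chi2 y - PP AA chi2 t ≤
        12 / 10000 * (y - t)) ∧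
      (∀ y t, ν < y → y ≤ t → 20 / 10000 * (t - y) ≤
        PP AA chi2 t - PP AA chi2 y) := by
  choose ym yp hJ hw using fun k => (inv_ff k).jump
  have hJ' : ∀ k, JumpAt (PP AA (ff k)) (12 / 10000) (20 / 10000) (ym k) (yp k) := by
    intro k
    refine (hJ k).weaken ?_ ?_
    · unfold rmk
      have : (0 : ℝ) ≤ (1 / 10000) / 2 ^ k := by positivity
      linarith
    · unfold rpk
      have : (0 : ℝ) ≤ (2 / 10000) / 2 ^ k := by positivity
      linarith
  have hw1 : ∀ k, yp k - ym k ≤ 1 := by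
    intro k
    refine (hw k).trans ((w2_le k).trans ?_)
    unfold wk
    have hd := dk_pos k
    have hd1 : dk k ≤ 1 / 10000 := by
      unfold dk
      exact div_le_self (by norm_num) (one_le_pow₀ (by norm_num))
    have hd2 : dk k ^ 2 ≤ 1 / 100000000 := by nlinarith
    have : aa k * dk k ^ 2 ≤ 30000 * (1 / 100000000) :=
      mul_le_mul (aa_le k) hd2 (by positivity) (by norm_num)
    linarith
  have hcompact : IsCompact (Icc (-1000 : ℝ) 2000000) := isCompact_Icc
  obtain ⟨ν, _, φ, hφ, hlim⟩ := hcompact.tendsto_subseq (x := ym)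
    (fun k => jump_loc (ok_ff k) (inv_ff k).att (hJ' k) (hw1 k))
  have hlimp : Tendsto (yp ∘ φ) atTop (𝓝 ν) := by
    have h1 : Tendsto (fun n => ym (φ n) + w2 (φ n)) atTop (𝓝 (ν + 0)) :=
      hlim.add (tendsto_w2.comp hφ.tendsto_atTop)
    rw [add_zero] at h1
    refine tendsto_of_tendsto_of_tendsto_of_le_of_le hlim h1 ?_ ?_
    · intro n; exact (hJ (φ n)).le
    · intro n
      have := hw (φ n)
      simp only [Function.comp]
      linarith
  refine ⟨ν, ?_, ?_⟩
  · intro t y hty hy
    have hev : ∀ᶠ n in atTop, y < ym (φ n) := (tendsto_order.mp hlim).1 y hy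
    have h1 := ((tendsto_PP_ff y).comp hφ.tendsto_atTop).sub
      ((tendsto_PP_ff t).comp hφ.tendsto_atTop)
    refine le_of_tendsto h1 ?_
    filter_upwards [hev] with n hn
    exact (hJ' (φ n)).left t y hty hn.le
  · intro y t hy hyt
    have hev : ∀ᶠ n in atTop, yp (φ n) < y := (tendsto_order.mp hlimp).2 y hy
    have h1 := ((tendsto_PP_ff t).comp hφ.tendsto_atTop).sub
      ((tendsto_PP_ff y).comp hφ.tendsto_atTop)
    refine ge_of_tendsto h1 ?_
    filter_upwards [hev] with n hn
    exact (hJ' (φ n)).right y t hn.le hyt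

end Vale.Agent.P171
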