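import Vale.Agent.P171.Press2

/-!
Adding one long-range attractive term: the two mean-field bounds.
-/

open MeasureTheory Set Filter Topology
open scoped ENNReal

namespace Vale.Agent.P171

lemma psi_att {a R : ℝ} (ha : 0 ≤ a) (hR : 20 ≤ R) : Att (psi a R) (2 * a) where
  meas := measurable_psi a R
  nonneg := psi_nonneg ha R
  strength := by
    intro n x
    have hR0 : 0 < R := by linarith
    have h := psi_upper ha one_pos hR0 0 x
    refine h.trans ?_
    have hs := sc_nonneg 1 0 x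
    refine mul_le_mul_of_nonneg_right ?_ hs
    have h1 : (R + 2 * 1) / R ≤ 11 / 10 := by
      rw [div_le_iff₀ hR0]
      linarith
    have h0 : 0 ≤ (R + 2 * 1) / R := by positivity
    have h2 : ((R + 2 * 1) / R) ^ 6 ≤ (11 / 10) ^ 6 := pow_le_pow_left₀ h0 h1 6
    have h3 : ((11 : ℝ) / 10) ^ 6 ≤ 2 := by norm_num
    rw [one_pow, div_one]
    nlinarith

lemma Att.add {χ χ' : ℝ → ℝ} {c c' : ℝ} (h : Att χ c) (h' : Att χ' c') :
    Att (fun r => χ r + χ' r) (c + c') where
  meas := h.meas.add h'.meas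
  nonneg := fun r => add_nonneg (h.nonneg r) (h'.nonneg r)
  strength := by
    intro n x
    have h1 := h.strength n x
    have h2 := h'.strength n x
    simp only [Finset.sum_add_distrib]
    linarith

lemma Att.smul {χ : ℝ → ℝ} {c s : ℝ} (h : Att χ c) (hs : 0 ≤ s) :
    Att (fun r => s * χ r) (s * c) where
  meas := h.meas.const_mul s
  nonneg := fun r => mul_nonneg hs (h.nonneg r)
  strength := by
    intro n x
    have h1 := h.strength n x
    simp only [← Finset.mul_sum]
    rw [mul_assoc]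
    exact mul_le_mul_of_nonneg_left h1 hs

lemma Att.mono {χ : ℝ → ℝ} {c c' : ℝ} (h : Att χ c) (hc : c ≤ c') : Att χ c' where
  meas := h.meas
  nonneg := h.nonneg
  strength := fun n x => (h.strength n x).trans
    (mul_le_mul_of_nonneg_right hc (sc_nonneg 1 0 x))

/-! ### the lower bound -/

lemma lnXi_add_lower {A a R : ℝ} {χ : ℝ → ℝ} (h : Ok A χ)
    (h' : Ok A (fun r => χ r + psi a R r)) (ha : 0 ≤ a) (hR : 0 < R) {L : ℝ} (hL : 0 ≤ L)
    (ν m : ℝ) :
    lnXi A χ L (ν + a * m) - a * m ^ 2 / 2 * (L + 2 * R) ^ 3 ≤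
      lnXi A (fun r => χ r + psi a R r) L ν := by
  rw [le_lnXi_iff h' hL, sub_eq_add_neg, add_comm, Real.exp_add,
    ENNReal.ofReal_mul (Real.exp_pos _).le, ← XiE_eq_exp h hL]
  unfold XiE
  rw [← GC_const_mul (box L) (measG_HH _ _ (measurable_pot h.att.meas A))]
  refine GC_mono_fun (measurableSet_box L) (fun n x hx => ?_)
  unfold EG
  rw [← ENNReal.ofReal_mul (Real.exp_pos _).le, ← Real.exp_add]
  refine ENNReal.ofReal_le_ofReal (Real.exp_le_exp.mpr ?_)
  unfold HH
  rw [pairSum_pot, pairSum_pot, card_ms, Fintype.card_fin]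
  simp only [Finset.sum_add_distrib]
  have := psi_lower (m := m) ha hR hL x hx
  linarith

theorem PP_add_lower {A a R : ℝ} {χ : ℝ → ℝ} (h : Ok A χ)
    (h' : Ok A (fun r => χ r + psi a R r)) (ha : 0 ≤ a) (hR : 0 < R) (ν m : ℝ) :
    PP A χ (ν + a * m) - a * m ^ 2 / 2 ≤ PP A (fun r => χ r + psi a R r) ν := by
  have h1 := tendsto_PP h (ν + a * m)
  have h2 := tendsto_PP h' ν
  have h3 : Tendsto (fun L : ℝ => a * m ^ 2 / 2 * ((L + 2 * R) / L) ^ 3) atTop
      (𝓝 (a * m ^ 2 / 2 * 1 ^ 3)) := by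
    refine Tendsto.const_mul _ (Tendsto.pow ?_ 3)
    have h1 : Tendsto (fun L : ℝ => 1 + (2 * R) / L) atTop (𝓝 (1 + 0)) :=
      tendsto_const_nhds.add (tendsto_const_nhds.div_atTop tendsto_id)
    rw [add_zero] at h1
    refine h1.congr' ?_
    filter_upwards [eventually_gt_atTop (0 : ℝ)] with L hL
    field_simp
  rw [one_pow, mul_one] at h3
  refine le_of_tendsto_of_tendsto (h1.sub h3) h2 ?_
  filter_upwards [eventually_gt_atTop (0 : ℝ)] with L hL
  have := lnXi_add_lower h h' ha hR hL.le ν m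
  have h4 := mul_le_mul_of_nonneg_left this (show 0 ≤ (L ^ 3)⁻¹ by positivity)
  refine le_trans (le_of_eq ?_) h4
  field_simp

/-! ### the upper bound -/

/-- pigeonhole over the shifts of the grid -/
lemma exists_good_shift {χ : ℝ → ℝ} (hχ : ∀ r, 0 ≤ χ r) {D : ℝ} (hD : 0 ≤ D)
    (hrange : ∀ r, D < r → χ r = 0) {l lam : ℝ} (hl : 0 < l) {K : ℕ} (hK : 0 < K)
    (hp : 3 * (D / l + 1 / K) ≤ lam / 2) {n : ℕ} (x : Fin n → E) :
    ∃ j ∈ Finset.range K,
      ∑ i, ∑ i', (if cl l (l * ((j : ℝ) + 1) / K) (x i) = cl l (l * ((j : ℝ) + 1) / K) (x i')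
        then 0 else χ (dist (x i) (x i'))) ≤ lam / 2 * ∑ i, ∑ i', χ (dist (x i) (x i')) := by
  classical
  have hKr : (0 : ℝ) < K := by exact_mod_cast hK
  set Sx := ∑ i, ∑ i', χ (dist (x i) (x i')) with hSx
  have hSx0 : 0 ≤ Sx := Finset.sum_nonneg (fun i _ => Finset.sum_nonneg (fun j _ => hχ _))
  have hsum : ∑ j ∈ Finset.range K, ∑ i, ∑ i',
      (if cl l (l * ((j : ℝ) + 1) / K) (x i) = cl l (l * ((j : ℝ) + 1) / K) (x i')
        then 0 else χ (dist (x i) (x i'))) ≤ ∑ _j ∈ Finset.range K, lam / 2 * Sx := by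
    rw [Finset.sum_const, Finset.card_range, nsmul_eq_mul, Finset.sum_comm]
    have h1 : ∀ i ∈ (Finset.univ : Finset (Fin n)), ∑ j ∈ Finset.range K, ∑ i',
        (if cl l (l * ((j : ℝ) + 1) / K) (x i) = cl l (l * ((j : ℝ) + 1) / K) (x i')
          then 0 else χ (dist (x i) (x i'))) ≤
        ∑ i', (K * (lam / 2)) * χ (dist (x i) (x i')) := by
      intro i _
      rw [Finset.sum_comm]
      refine Finset.sum_le_sum (fun i' _ => ?_)
      have h2 : ∑ j ∈ Finset.range K,
          (if cl l (l * ((j : ℝ) + 1) / K) (x i) = cl l (l * ((j : ℝ) + 1) / K) (x i')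
            then 0 else χ (dist (x i) (x i'))) =
          (((Finset.range K).filter (fun j : ℕ => cl l (l * ((j : ℝ) + 1) / K) (x i) ≠
            cl l (l * ((j : ℝ) + 1) / K) (x i'))).card : ℝ) * χ (dist (x i) (x i')) := by
        rw [Finset.card_filter]
        push_cast
        rw [Finset.sum_mul]
        refine Finset.sum_congr rfl (fun j _ => ?_)
        by_cases hc : cl l (l * ((j : ℝ) + 1) / K) (x i) = cl l (l * ((j : ℝ) + 1) / K) (x i')
        · simp [hc]
        · simp [hc]
      rw [h2]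
      by_cases hdist : dist (x i) (x i') ≤ D
      · refine mul_le_mul_of_nonneg_right ?_ (hχ _)
        refine (cut_count K hK hl hD hdist).trans ?_
        have h3 : 3 * ((K : ℝ) * (D / l) + 1) = K * (3 * (D / l + 1 / K)) := by
          field_simp
        rw [h3]
        exact mul_le_mul_of_nonneg_left hp hKr.le
      · rw [hrange _ (not_le.mp hdist)]
        simp
    refine (Finset.sum_le_sum h1).trans (le_of_eq ?_)
    simp only [← Finset.mul_sum]
    rw [← hSx]
    ring
  exact Finset.exists_le_of_sum_le (Finset.nonempty_range_iff.mpr hK.ne') hsum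

/-- covering of the box by the cells of a shifted grid -/
lemma cl_mem_shift {l : ℝ} (hl : 0 < l) {K : ℕ} (hK : 0 < K) {M j : ℕ} (hj : j < K) {x : E}
    (hx : x ∈ box (M * l)) :
    cl l (l * ((j : ℝ) + 1) / K) x ∈
      Fintype.piFinset (fun _ : Fin 3 => Finset.Icc (-1 : ℤ) ((M : ℤ) - 1)) := by
  rw [Fintype.mem_piFinset]
  intro i
  rw [Finset.mem_Icc]
  have hKr : (0 : ℝ) < K := by exact_mod_cast hK
  have hj1 : ((j : ℝ) + 1) ≤ K := by exact_mod_cast hj
  have ht0 : 0 < l * ((j : ℝ) + 1) / K := by positivity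
  have ht1 : l * ((j : ℝ) + 1) / K ≤ l := by
    rw [div_le_iff₀ hKr]
    exact mul_le_mul_of_nonneg_left hj1 hl.le
  have := hx i
  unfold cl
  constructor
  · rw [Int.le_floor, le_div_iff₀ hl]
    push_cast
    linarith [this.1]
  · have h2 : ⌊(x i - l * ((j : ℝ) + 1) / K) / l⌋ < (M : ℤ) := by
      rw [Int.floor_lt, div_lt_iff₀ hl]
      push_cast
      linarith [this.2]
    linarith

/-- block bound for the finite-volume partition function with the long-range term -/
lemma XiE_add_upper {A a R : ℝ} {χ : ℝ → ℝ} (hA : 0 < A) (hχ : Att χ (A / 4)) (ha : 0 ≤ a)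
    (hR : 0 < R)
    {D : ℝ} (hD : 0 ≤ D) (hrange : ∀ r, D < r → χ r = 0) {l lam : ℝ} (hl : 0 < l)
    (hlam0 : 0 < lam) (hlam1 : lam ≤ 1) {K : ℕ} (hK : 0 < K)
    (hp : 3 * (D / l + 1 / K) ≤ lam / 2) (ν : ℝ) (M : ℕ) :
    XiE A (fun r => χ r + psi a R r) (M * l) ν ≤ (K : ℝ≥0∞) *
      (GC (hbox l) (EG (HH ν (a * ((R + 2 * l) / R) ^ 6 / (2 * l ^ 3))
        (pot A (fun r => (1 + lam) * χ r))))) ^ ((M + 1) ^ 3) := by
  classical
  set B := Fintype.piFinset (fun _ : Fin 3 => Finset.Icc (-1 : ℤ) ((M : ℤ) - 1)) with hB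
  have hcard : B.card = (M + 1) ^ 3 := by
    rw [hB, Fintype.card_piFinset]
    simp
  set c2 := a * ((R + 2 * l) / R) ^ 6 / (2 * l ^ 3) with hc2
  have hmpot := measurable_pot (hχ.meas.const_mul (1 + lam)) A
  have hb := block_upper hl (J := Finset.range K) (fun j => l * ((j : ℝ) + 1) / K) B
    (measurableSet_box (M * l))
    (fun j hj x hx => cl_mem_shift hl hK (Finset.mem_range.mp hj) hx)
    (H := HH ν 0 (pot A (fun r => χ r + psi a R r)))
    (H' := HH ν c2 (pot A (fun r => (1 + lam) * χ r)))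
    (measG_HH ν _ hmpot) (fun v X => HH_translate _ _ _ v X) ?_
  · rw [Finset.card_range, hcard] at hb
    exact hb
  · intro n x hx
    obtain ⟨j, hj, hgood⟩ := exists_good_shift hχ.nonneg hD hrange hl hK hp x
    refine ⟨j, hj, ?_⟩
    set t := l * ((j : ℝ) + 1) / K with ht
    have hmem : ∀ i, cl l t (x i) ∈ B := fun i =>
      cl_mem_shift hl hK (Finset.mem_range.mp hj) (hx i)
    have h1 : ∀ k, HH ν c2 (pot A (fun r => (1 + lam) * χ r))
        ((ms x).filter (· ∈ cellSet l t k)) =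
        ν * ((Finset.univ.filter (fun i => x i ∈ cellSet l t k)).card : ℝ) +
        c2 * ((Finset.univ.filter (fun i => x i ∈ cellSet l t k)).card : ℝ) ^ 2 -
        (1 / 2) * ∑ i ∈ Finset.univ.filter (fun i => x i ∈ cellSet l t k),
          ∑ i' ∈ Finset.univ.filter (fun i => x i ∈ cellSet l t k),
            pot A (fun r => (1 + lam) * χ r) (dist (x i) (x i')) := by
      intro k
      unfold HH
      rw [card_filter_ms, pairSum_filter]
    simp only [h1]
    rw [Finset.sum_sub_distrib, Finset.sum_add_distrib, ← Finset.mul_sum, ← Finset.mul_sum,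
      ← Finset.mul_sum, ← sc_eq l t x B hmem, ← card_eq_cells l t x B hmem,
      ← group_cells l t x B hmem
        (fun i i' => pot A (fun r => (1 + lam) * χ r) (dist (x i) (x i')))]
    unfold HH
    rw [card_ms, Fintype.card_fin, pairSum_pot]
    have hpsi := psi_upper ha hl hR t x
    -- same-cell sums
    have hsplit : ∑ i, ∑ i', (if cl l t (x i) = cl l t (x i') then
        pot A (fun r => (1 + lam) * χ r) (dist (x i) (x i')) else 0) =
        A * (∑ i, ∑ i', (if cl l t (x i) = cl l t (x i') then near (dist (x i) (x i')) else 0)) -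
        (1 + lam) * (∑ i, ∑ i', (if cl l t (x i) = cl l t (x i') then
          χ (dist (x i) (x i')) else 0)) := by
      rw [Finset.mul_sum, Finset.mul_sum, ← Finset.sum_sub_distrib]
      refine Finset.sum_congr rfl (fun i _ => ?_)
      rw [Finset.mul_sum, Finset.mul_sum, ← Finset.sum_sub_distrib]
      refine Finset.sum_congr rfl (fun i' _ => ?_)
      unfold pot
      split_ifs <;> ring
    rw [hsplit]
    have hnear : ∑ i, ∑ i', (if cl l t (x i) = cl l t (x i') then near (dist (x i) (x i')) else 0)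
        ≤ ∑ i, ∑ i', near (dist (x i) (x i')) := by
      refine Finset.sum_le_sum (fun i _ => Finset.sum_le_sum (fun i' _ => ?_))
      split_ifs
      · exact le_refl _
      · exact near_nonneg _
    have hχsplit : ∑ i, ∑ i', χ (dist (x i) (x i')) =
        (∑ i, ∑ i', (if cl l t (x i) = cl l t (x i') then χ (dist (x i) (x i')) else 0)) +
        ∑ i, ∑ i', (if cl l t (x i) = cl l t (x i') then 0 else χ (dist (x i) (x i'))) := by
      rw [← Finset.sum_add_distrib]
      refine Finset.sum_congr rfl (fun i _ => ?_)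
      rw [← Finset.sum_add_distrib]
      refine Finset.sum_congr rfl (fun i' _ => ?_)
      split_ifs <;> ring
    have hsame0 : 0 ≤ ∑ i, ∑ i', (if cl l t (x i) = cl l t (x i') then
        χ (dist (x i) (x i')) else 0) := by
      refine Finset.sum_nonneg (fun i _ => Finset.sum_nonneg (fun i' _ => ?_))
      split_ifs
      · exact hχ.nonneg _
      · exact le_refl _
    set Sx := ∑ i, ∑ i', χ (dist (x i) (x i')) with hSx
    set Ss := ∑ i, ∑ i', (if cl l t (x i) = cl l t (x i') then χ (dist (x i) (x i')) else 0)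
      with hSs
    have hkey : Sx ≤ (1 + lam) * Ss := by
      have h2 : (1 - lam / 2) * Sx ≤ Ss := by linarith
      have h3 : 0 < 1 - lam / 2 := by linarith
      have h4 : 0 ≤ Sx := by
        rw [hSx]
        exact Finset.sum_nonneg (fun i _ => Finset.sum_nonneg (fun j _ => hχ.nonneg _))
      have h5 : (1 + lam) * ((1 - lam / 2) * Sx) ≤ (1 + lam) * Ss :=
        mul_le_mul_of_nonneg_left h2 (by linarith)
      have h6 : Sx ≤ (1 + lam) * ((1 - lam / 2) * Sx) := by
        have : 0 ≤ lam / 2 * (1 - lam) * Sx := by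
          have : 0 ≤ 1 - lam := by linarith
          positivity
        nlinarith
      linarith
    have hsum : ∑ i, ∑ i', (χ (dist (x i) (x i')) + psi a R (dist (x i) (x i'))) =
        Sx + ∑ i, ∑ i', psi a R (dist (x i) (x i')) := by
      simp only [Finset.sum_add_distrib]
      rw [← hSx]
    rw [hsum]
    have hpsi' : ∑ i, ∑ i', psi a R (dist (x i) (x i')) ≤ 2 * c2 * sc l t x := by
      refine hpsi.trans (le_of_eq ?_)
      rw [hc2]
      field_simp
    have hAn := mul_le_mul_of_nonneg_left hnear hA.le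
    linarith

lemma tsum_gauss {κ : ℝ} (hκ : 0 < κ) :
    ∑' n : ℕ, ENNReal.ofReal (Real.exp (-(κ * (n : ℝ) ^ 2))) ≤ ENNReal.ofReal (1 + 1 / κ) := by
  have h1 : ∀ n : ℕ, ENNReal.ofReal (Real.exp (-(κ * (n : ℝ) ^ 2))) ≤
      ENNReal.ofReal ((Real.exp (-κ)) ^ n) := by
    intro n
    refine ENNReal.ofReal_le_ofReal ?_
    rw [← Real.exp_nat_mul]
    refine Real.exp_le_exp.mpr ?_
    have : (n : ℝ) ≤ (n : ℝ) ^ 2 := by
      rcases Nat.eq_zero_or_pos n with h | h
      · subst h; simp
      · have : (1 : ℝ) ≤ n := by exact_mod_cast h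
        nlinarith
    nlinarith
  refine (ENNReal.tsum_le_tsum h1).trans ?_
  have hr0 : 0 ≤ Real.exp (-κ) := (Real.exp_pos _).le
  have hr1 : Real.exp (-κ) < 1 := by
    rw [Real.exp_lt_one_iff]
    linarith
  rw [← ENNReal.ofReal_tsum_of_nonneg (fun n => by positivity)
    (summable_geometric_of_lt_one hr0 hr1), tsum_geometric_of_lt_one hr0 hr1]
  refine ENNReal.ofReal_le_ofReal ?_
  have h2 : Real.exp (-κ) ≤ 1 / (1 + κ) := by
    rw [Real.exp_neg, ← one_div]
    exact one_div_le_one_div_of_le (by linarith) (by linarith [Real.add_one_le_exp κ])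
  have h3 : κ / (1 + κ) ≤ 1 - Real.exp (-κ) := by
    have : κ / (1 + κ) = 1 - 1 / (1 + κ) := by field_simp; ring
    rw [this]
    linarith
  calc (1 - Real.exp (-κ))⁻¹ ≤ (κ / (1 + κ))⁻¹ := by
        exact inv_anti₀ (by positivity) h3
    _ = 1 + 1 / κ := by field_simp; ring

end Vale.Agent.P171
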