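import Vale.Agent.P171.Mean

/-!
The mean-field upper bound for the pressure after adding a very long-range attractive term.
-/

open MeasureTheory Set Filter Topology
open scoped ENNReal

namespace Vale.Agent.P171

lemma ok_of_att {A c : ℝ} {χ : ℝ → ℝ} (hA : 0 < A) (h : Att χ c) (hc : c ≤ A / 2) : Ok A χ :=
  ⟨hA, h.mono hc⟩

lemma exponent_bound {A a rho l lam ν T P Pt n : ℝ} (hA : 0 < A) (ha : 0 < a)
    (hA32 : 32 * a ≤ A) (hl : 0 < l) (hlam0 : 0 < lam) (hlam1 : lam ≤ 1)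
    (hrho1 : 1 ≤ rho) (hrho2 : rho - 1 ≤ lam / 4) (htau : ((l + 2) / l) ^ 3 - 1 ≤ lam / 2)
    (hT0 : 0 ≤ T) (hn : 0 ≤ n)
    (hP : P - a * (rho * n / l ^ 3) ^ 2 / 2 ≤ T)
    (hPt : Pt ≤ (1 - lam) * P + lam * BB A (ν + a * (rho * n / l ^ 3)))
    (hPt2 : Pt ≤ BB A (ν + a * (rho * n / l ^ 3))) :
    -(a * rho / (2 * l ^ 3) * n ^ 2) + Pt * (l + 2) ^ 3 ≤
      l ^ 3 * (T + 3 / 2 * lam * (1 + 2 * ν ^ 2 / A)) - lam * a / (4 * l ^ 3) * n ^ 2 := by
  set m := rho * n / l ^ 3 with hm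
  set b := BB A (ν + a * m) with hb
  set τ := ((l + 2) / l) ^ 3 - 1 with hτ
  have hl3 : 0 < l ^ 3 := by positivity
  have hτ0 : 0 ≤ τ := by
    rw [hτ]
    have : 1 ≤ (l + 2) / l := by
      rw [le_div_iff₀ hl]; linarith
    have := one_le_pow₀ (n := 3) this
    linarith
  have hb0 : 0 < b := BB_pos hA _
  have hm0 : 0 ≤ m := by positivity
  have e1 : (l + 2) ^ 3 = l ^ 3 * (1 + τ) := by
    rw [hτ]; field_simp; ring
  -- bound for b
  have hbC : b ≤ (1 + 2 * ν ^ 2 / A) + a * m ^ 2 / 16 := by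
    rw [hb]
    unfold BB
    have h1 : (ν + a * m) ^ 2 / A ≤ 2 * ν ^ 2 / A + a * m ^ 2 / 16 := by
      rw [div_add_div _ _ hA.ne' (by norm_num : (16 : ℝ) ≠ 0), div_le_div_iff₀ hA (by positivity)]
      have h2 : (ν + a * m) ^ 2 ≤ 2 * ν ^ 2 + 2 * (a * m) ^ 2 := by
        nlinarith [sq_nonneg (ν - a * m)]
      have h3 : 32 * (a * m) ^ 2 ≤ A * (a * m ^ 2) := by
        have : 0 ≤ a * m ^ 2 := by positivity
        nlinarith
      nlinarith [mul_nonneg hA.le (sub_nonneg.mpr h2), mul_nonneg hA.le (sub_nonneg.mpr h3)]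
    linarith
  -- the quadratic term
  have e2 : a * rho / (2 * l ^ 3) * n ^ 2 = l ^ 3 * (a * m ^ 2 / (2 * rho)) := by
    rw [hm]; field_simp
  have h3 : a * m ^ 2 / 2 * (1 - lam / 4) ≤ a * m ^ 2 / (2 * rho) := by
    have h4 : 1 - lam / 4 ≤ 1 / rho := by
      rw [le_div_iff₀ (by linarith)]
      nlinarith
    have h5 : 0 ≤ a * m ^ 2 / 2 := by positivity
    calc _ ≤ a * m ^ 2 / 2 * (1 / rho) := mul_le_mul_of_nonneg_left h4 h5
      _ = _ := by field_simp
  have h6 : (n / l ^ 3) ^ 2 ≤ m ^ 2 := by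
    refine pow_le_pow_left₀ (by positivity) ?_ 2
    rw [hm]
    refine div_le_div_of_nonneg_right ?_ hl3.le
    nlinarith
  have e3 : lam * a / (4 * l ^ 3) * n ^ 2 = l ^ 3 * (lam * a / 4 * (n / l ^ 3) ^ 2) := by
    field_simp
  rw [e1, e2, e3]
  have hmain : -(a * m ^ 2 / (2 * rho)) + Pt * (1 + τ) ≤
      T + 3 / 2 * lam * (1 + 2 * ν ^ 2 / A) - lam * a / 4 * (n / l ^ 3) ^ 2 := by
    have h7 : Pt * (1 + τ) ≤ (1 - lam) * P + lam * b + τ * b := by
      have : τ * Pt ≤ τ * b := mul_le_mul_of_nonneg_left hPt2 hτ0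
      linarith
    have h8 : (1 - lam) * P ≤ (1 - lam) * (T + a * m ^ 2 / 2) :=
      mul_le_mul_of_nonneg_left (by linarith) (by linarith)
    have h9 : lam * b + τ * b ≤ 3 / 2 * lam * ((1 + 2 * ν ^ 2 / A) + a * m ^ 2 / 16) := by
      have : (lam + τ) * b ≤ 3 / 2 * lam * b := mul_le_mul_of_nonneg_right (by linarith) hb0.le
      have h10 : 3 / 2 * lam * b ≤ 3 / 2 * lam * ((1 + 2 * ν ^ 2 / A) + a * m ^ 2 / 16) :=
        mul_le_mul_of_nonneg_left hbC (by positivity)
      linarith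
    have h11 : lam * a / 4 * (n / l ^ 3) ^ 2 ≤ lam * a / 4 * m ^ 2 :=
      mul_le_mul_of_nonneg_left h6 (by positivity)
    have h12 : 0 ≤ lam * (a * m ^ 2) := by positivity
    nlinarith
  have := mul_le_mul_of_nonneg_left hmain hl3.le
  linarith

lemma Y_bound {A a R : ℝ} {χ : ℝ → ℝ} (hA : 0 < A) (hχ : Att χ (A / 4)) (ha : 0 < a)
    (hA32 : 32 * a ≤ A) (hR : 0 < R) {l lam ν T : ℝ} (hl : 0 < l)
    (hlam0 : 0 < lam) (hlam1 : lam ≤ 1)
    (hT : ∀ m : ℝ, 0 ≤ m → PP A χ (ν + a * m) - a * m ^ 2 / 2 ≤ T)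
    (htau : ((l + 2) / l) ^ 3 - 1 ≤ lam / 2)
    (hxi : ((R + 2 * l) / R) ^ 6 - 1 ≤ lam / 4) :
    GC (hbox l) (EG (HH ν (a * ((R + 2 * l) / R) ^ 6 / (2 * l ^ 3))
        (pot A (fun r => (1 + lam) * χ r)))) ≤
      ENNReal.ofReal (Real.exp (l ^ 3 * (T + 3 / 2 * lam * (1 + 2 * ν ^ 2 / A)))
        * (1 + 1 / (lam * a / (4 * l ^ 3)))) := by
  have h1 : Ok A χ := ok_of_att hA hχ (by linarith)
  have h2 : Ok A (fun r => 2 * χ r) := ok_of_att hA (hχ.smul (by norm_num)) (by linarith)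
  have hth : Ok A (fun r => (1 + lam) * χ r) :=
    ok_of_att hA (hχ.smul (by linarith)) (by nlinarith)
  have hT0 : 0 ≤ T := by
    have := hT 0 le_rfl
    have := PP_nonneg h1 (ν + a * 0)
    simp at *
    linarith
  set rho := ((R + 2 * l) / R) ^ 6 with hrho
  have hrho1 : 1 ≤ rho := by
    rw [hrho]
    refine one_le_pow₀ ?_
    rw [le_div_iff₀ hR]
    linarith
  set κ := lam * a / (4 * l ^ 3) with hκ
  have hκ0 : 0 < κ := by positivity
  set k := pot A (fun r => (1 + lam) * χ r) with hk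
  have hkm : Measurable k := measurable_pot hth.att.meas A
  set Q := l ^ 3 * (T + 3 / 2 * lam * (1 + 2 * ν ^ 2 / A)) with hQ
  have hterm : ∀ n : ℕ, ((n.factorial : ℝ≥0∞))⁻¹ *
      II (hbox l) (EG (HH ν (a * rho / (2 * l ^ 3)) k)) n ≤
      ENNReal.ofReal (Real.exp Q) * ENNReal.ofReal (Real.exp (-(κ * (n : ℝ) ^ 2))) := by
    intro n
    set ν' := ν + a * (rho * n / l ^ 3) with hν'
    have e1 : II (hbox l) (EG (HH ν (a * rho / (2 * l ^ 3)) k)) n =
        ENNReal.ofReal (Real.exp (-(a * rho / (2 * l ^ 3) * (n : ℝ) ^ 2))) *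
          II (hbox l) (EG (HH ν' 0 k)) n := by
      unfold II
      rw [← lintegral_const_mul _ (measG_HH ν' 0 hkm n)]
      congr 1
      funext x
      unfold EG
      rw [← ENNReal.ofReal_mul (Real.exp_pos _).le, ← Real.exp_add]
      congr 2
      unfold HH
      rw [card_ms, Fintype.card_fin, hν']
      field_simp
      ring
    rw [e1]
    have e2 : ((n.factorial : ℝ≥0∞))⁻¹ * II (hbox l) (EG (HH ν' 0 k)) n ≤
        ENNReal.ofReal (Real.exp (PP A (fun r => (1 + lam) * χ r) ν' * (l + 2) ^ 3)) := by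
      have a1 : ((n.factorial : ℝ≥0∞))⁻¹ * II (hbox l) (EG (HH ν' 0 k)) n ≤
          XiE A (fun r => (1 + lam) * χ r) l ν' := by
        unfold XiE GC
        refine le_trans (mul_le_mul_right (II_mono_set (hbox_subset_box l) _ n) _) ?_
        exact ENNReal.le_tsum (f := fun n : ℕ => ((n.factorial : ℝ≥0∞))⁻¹ *
          II (box l) (EG (HH ν' 0 k)) n) n
      refine a1.trans ?_
      rw [← lnXi_le_iff hth hl.le]
      exact lnXi_le_PP hth hl.le ν'
    calc _ = ENNReal.ofReal (Real.exp (-(a * rho / (2 * l ^ 3) * (n : ℝ) ^ 2))) *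
          (((n.factorial : ℝ≥0∞))⁻¹ * II (hbox l) (EG (HH ν' 0 k)) n) := by ring
      _ ≤ ENNReal.ofReal (Real.exp (-(a * rho / (2 * l ^ 3) * (n : ℝ) ^ 2))) *
          ENNReal.ofReal (Real.exp (PP A (fun r => (1 + lam) * χ r) ν' * (l + 2) ^ 3)) :=
          mul_le_mul_right e2 _
      _ ≤ _ := by
          rw [← ENNReal.ofReal_mul (Real.exp_pos _).le, ← ENNReal.ofReal_mul (Real.exp_pos _).le,
            ← Real.exp_add, ← Real.exp_add]
          refine ENNReal.ofReal_le_ofReal (Real.exp_le_exp.mpr ?_)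
          have hm0 : 0 ≤ rho * (n : ℝ) / l ^ 3 := by positivity
          have hP := hT (rho * n / l ^ 3) hm0
          have hconv := PP_convex2 h1 h2 hlam0.le hlam1 (ν1 := ν') (ν2 := ν') (by
            have : (fun r => (1 - lam) * χ r + lam * (2 * χ r)) = fun r => (1 + lam) * χ r := by
              funext r; ring
            rw [this]; exact hth)
          have efun : (fun r => (1 - lam) * χ r + lam * (2 * χ r)) =
              fun r => (1 + lam) * χ r := by
            funext r; ring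
          rw [efun] at hconv
          have eν : (1 - lam) * ν' + lam * ν' = ν' := by ring
          rw [eν] at hconv
          have hPt : PP A (fun r => (1 + lam) * χ r) ν' ≤
              (1 - lam) * PP A χ ν' + lam * BB A ν' := by
            have := mul_le_mul_of_nonneg_left (PP_le_BB h2 ν') hlam0.le
            linarith
          have hPt2 : PP A (fun r => (1 + lam) * χ r) ν' ≤ BB A ν' := PP_le_BB hth ν'
          have := exponent_bound (A := A) (a := a) (rho := rho) (l := l) (lam := lam) (ν := ν)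
            (T := T) (P := PP A χ ν') (Pt := PP A (fun r => (1 + lam) * χ r) ν') (n := n)
            hA ha hA32 hl hlam0 hlam1 hrho1 hxi htau hT0 (by positivity) hP hPt hPt2
          rw [hQ, hκ]
          linarith
  unfold GC
  refine (ENNReal.tsum_le_tsum hterm).trans ?_
  rw [ENNReal.tsum_mul_left, ENNReal.ofReal_mul (Real.exp_pos _).le]
  exact mul_le_mul_right (tsum_gauss hκ0) _

lemma tendsto_shift_div (c : ℝ) : Tendsto (fun L : ℝ => (L + c) / L) atTop (𝓝 1) := by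
  have h1 : Tendsto (fun L : ℝ => 1 + c / L) atTop (𝓝 (1 + 0)) :=
    tendsto_const_nhds.add (tendsto_const_nhds.div_atTop tendsto_id)
  rw [add_zero] at h1
  refine h1.congr' ?_
  filter_upwards [eventually_gt_atTop (0 : ℝ)] with L hL
  field_simp

lemma tendsto_log_div {c : ℝ} (hc : 0 < c) :
    Tendsto (fun y : ℝ => Real.log (1 + c * y) / y) atTop (𝓝 0) := by
  have h1 : Tendsto (fun y : ℝ => 1 + c * y) atTop atTop :=
    tendsto_atTop_add_const_left _ _ (tendsto_id.const_mul_atTop hc)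
  have h2 : Tendsto (fun x : ℝ => Real.log x / x) atTop (𝓝 0) := by
    have := Real.isLittleO_log_id_atTop.tendsto_div_nhds_zero
    exact this
  have h3 := h2.comp h1
  have h4 : Tendsto (fun y : ℝ => (1 + c * y) / y) atTop (𝓝 c) := by
    have h5 : Tendsto (fun y : ℝ => 1 / y + c) atTop (𝓝 (0 + c)) :=
      (tendsto_const_nhds.div_atTop tendsto_id).add tendsto_const_nhds
    rw [zero_add] at h5
    refine h5.congr' ?_
    filter_upwards [eventually_gt_atTop (0 : ℝ)] with y hy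
    field_simp
  have h6 := h3.mul h4
  rw [zero_mul] at h6
  refine h6.congr' ?_
  filter_upwards [eventually_gt_atTop (0 : ℝ)] with y hy
  simp only [Function.comp]
  have : 0 < 1 + c * y := by positivity
  field_simp

/-- **Mean-field upper bound.** -/
theorem PP_add_upper {A a : ℝ} {χ : ℝ → ℝ} (hA : 0 < A) (hχ : Att χ (A / 4)) (ha : 0 < a)
    (hA32 : 32 * a ≤ A) {D : ℝ} (hD : 0 ≤ D) (hrange : ∀ r, D < r → χ r = 0) {ν T : ℝ}
    (hT : ∀ m : ℝ, 0 ≤ m → PP A χ (ν + a * m) - a * m ^ 2 / 2 ≤ T) {ε : ℝ} (hε : 0 < ε) :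
    ∃ R0 : ℝ, 20 ≤ R0 ∧ ∀ R, R0 ≤ R → PP A (fun r => χ r + psi a R r) ν ≤ T + ε := by
  set C := 1 + 2 * ν ^ 2 / A with hC
  have hC0 : 0 < C := by positivity
  set lam := min 1 (ε / (4 * C)) with hlam
  have hlam0 : 0 < lam := lt_min one_pos (by positivity)
  have hlam1 : lam ≤ 1 := min_le_left _ _
  have hlamC : 3 / 2 * lam * C ≤ 3 / 8 * ε := by
    have : lam ≤ ε / (4 * C) := min_le_right _ _
    rw [le_div_iff₀ (by positivity)] at this
    linarith
  obtain ⟨K, hKbig⟩ := exists_nat_gt (12 / lam)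
  have hKr : (0 : ℝ) < K := lt_trans (by positivity) hKbig
  have hK : 0 < K := by exact_mod_cast hKr
  have hK1 : 1 / (K : ℝ) ≤ lam / 12 := by
    rw [div_le_iff₀ hKr]
    rw [div_lt_iff₀ hlam0] at hKbig
    linarith
  -- choice of l
  have ev1 : ∀ᶠ l : ℝ in atTop, D / l ≤ lam / 12 := by
    have : Tendsto (fun l : ℝ => D / l) atTop (𝓝 0) := tendsto_const_nhds.div_atTop tendsto_id
    filter_upwards [(tendsto_order.mp this).2 (lam / 12) (by positivity)] with l hl
    exact hl.le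
  have ev2 : ∀ᶠ l : ℝ in atTop, ((l + 2) / l) ^ 3 - 1 ≤ lam / 2 := by
    have : Tendsto (fun l : ℝ => ((l + 2) / l) ^ 3 - 1) atTop (𝓝 (1 ^ 3 - 1)) :=
      ((tendsto_shift_div 2).pow 3).sub tendsto_const_nhds
    rw [one_pow, sub_self] at this
    filter_upwards [(tendsto_order.mp this).2 (lam / 2) (by positivity)] with l hl
    exact hl.le
  have ev3 : ∀ᶠ l : ℝ in atTop, Real.log (1 + (4 / (lam * a)) * l ^ 3) / l ^ 3 ≤ ε / 2 := by
    have h1 := (tendsto_log_div (c := 4 / (lam * a)) (by positivity)).comp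
      (tendsto_pow_atTop (α := ℝ) (n := 3) (by norm_num))
    filter_upwards [(tendsto_order.mp h1).2 (ε / 2) (by positivity)] with l hl
    exact hl.le
  obtain ⟨l, hl1, hl2, hl3, hlpos⟩ :=
    (ev1.and (ev2.and (ev3.and (eventually_gt_atTop (0 : ℝ))))).exists
  have ev4 : ∀ᶠ R : ℝ in atTop, ((R + 2 * l) / R) ^ 6 - 1 ≤ lam / 4 := by
    have : Tendsto (fun R : ℝ => ((R + 2 * l) / R) ^ 6 - 1) atTop (𝓝 (1 ^ 6 - 1)) :=
      ((tendsto_shift_div (2 * l)).pow 6).sub tendsto_const_nhds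
    rw [one_pow, sub_self] at this
    filter_upwards [(tendsto_order.mp this).2 (lam / 4) (by positivity)] with R hR
    exact hR.le
  obtain ⟨R1, hR1⟩ := eventually_atTop.mp ev4
  refine ⟨max R1 20, le_max_right _ _, fun R hR => ?_⟩
  have hR20 : 20 ≤ R := le_trans (le_max_right _ _) hR
  have hR0 : 0 < R := by linarith
  have hxi := hR1 R (le_trans (le_max_left _ _) hR)
  have hnew : Ok A (fun r => χ r + psi a R r) :=
    ok_of_att hA (hχ.add (psi_att ha.le hR20)) (by linarith)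
  have hY := Y_bound hA hχ ha hA32 hR0 hlpos hlam0 hlam1 hT hl2 hxi
  set Y := GC (hbox l) (EG (HH ν (a * ((R + 2 * l) / R) ^ 6 / (2 * l ^ 3))
        (pot A (fun r => (1 + lam) * χ r)))) with hYdef
  set y := l ^ 3 * (T + 3 / 2 * lam * C) + Real.log (1 + 1 / (lam * a / (4 * l ^ 3))) with hy
  have hYy : Y ≤ ENNReal.ofReal (Real.exp y) := by
    refine hY.trans (le_of_eq ?_)
    rw [hy, Real.exp_add, Real.exp_log (by positivity)]
  have hT0 : 0 ≤ T := by
    have h0 := hT 0 le_rfl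
    have h1 := PP_nonneg (ok_of_att hA hχ (by linarith)) (ν + a * 0)
    simp at h0 h1
    linarith
  have hfin : ∀ M : ℕ, lnXi A (fun r => χ r + psi a R r) (M * l) ν ≤
      Real.log K + ((M : ℝ) + 1) ^ 3 * y := by
    intro M
    rw [lnXi_le_iff hnew (by positivity)]
    refine (XiE_add_upper hA hχ ha.le hR0 hD hrange hlpos hlam0 hlam1 hK (by linarith) ν M).trans ?_
    calc (K : ℝ≥0∞) * Y ^ ((M + 1) ^ 3)
        ≤ (K : ℝ≥0∞) * (ENNReal.ofReal (Real.exp y)) ^ ((M + 1) ^ 3) := by gcongr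
      _ = _ := by
          rw [← ENNReal.ofReal_pow (Real.exp_pos _).le, ← Real.exp_nat_mul,
            ← ENNReal.ofReal_natCast, ← ENNReal.ofReal_mul hKr.le, Real.exp_add,
            Real.exp_log hKr]
          push_cast
          rfl
  -- pass to the limit
  have hlimL : Tendsto (fun M : ℕ => ((M : ℝ) * l)) atTop atTop :=
    tendsto_natCast_atTop_atTop.atTop_mul_const hlpos
  have h1 := (tendsto_PP hnew ν).comp hlimL
  have h2 : Tendsto (fun M : ℕ => Real.log K / ((M : ℝ) * l) ^ 3 +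
      (((M : ℝ) + 1) / M) ^ 3 * (y / l ^ 3)) atTop (𝓝 (0 + 1 ^ 3 * (y / l ^ 3))) := by
    refine Tendsto.add ?_ ?_
    · refine tendsto_const_nhds.div_atTop ?_
      exact (tendsto_pow_atTop (α := ℝ) (n := 3) (by norm_num)).comp hlimL
    · refine Tendsto.mul_const _ (Tendsto.pow ?_ 3)
      exact (tendsto_shift_div 1).comp tendsto_natCast_atTop_atTop
  have h3 : PP A (fun r => χ r + psi a R r) ν ≤ 0 + 1 ^ 3 * (y / l ^ 3) := by
    refine le_of_tendsto_of_tendsto h1 h2 ?_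
    filter_upwards [eventually_gt_atTop 0] with M hM
    have hMr : (0 : ℝ) < M := by exact_mod_cast hM
    simp only [Function.comp]
    have h4 := mul_le_mul_of_nonneg_left (hfin M)
      (show 0 ≤ (((M : ℝ) * l) ^ 3)⁻¹ by positivity)
    refine h4.trans (le_of_eq ?_)
    field_simp
  rw [zero_add, one_pow, one_mul] at h3
  refine h3.trans ?_
  have e : y / l ^ 3 = T + 3 / 2 * lam * C +
      Real.log (1 + (4 / (lam * a)) * l ^ 3) / l ^ 3 := by
    rw [hy]
    have : 1 / (lam * a / (4 * l ^ 3)) = (4 / (lam * a)) * l ^ 3 := by field_simp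
    rw [this]
    field_simp
  rw [e]
  linarith

end Vale.Agent.P171
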