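import Vale.Agent.P171.Kernel

/-!
Finite-volume partition functions, block decompositions, superadditivity and the pressure.
-/

open MeasureTheory Set
open scoped ENNReal

namespace Vale.Agent.P171

/-- the repulsive step -/
noncomputable def near (r : ℝ) : ℝ := if r < 2 then 1 else 0

/-- step repulsion of height `A` minus the attractive part `χ` -/
noncomputable def pot (A : ℝ) (χ : ℝ → ℝ) (r : ℝ) : ℝ := A * near r - χ r

lemma near_nonneg (r : ℝ) : 0 ≤ near r := by unfold near; split_ifs <;> norm_num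

lemma measurable_near : Measurable near := by
  unfold near
  exact Measurable.ite measurableSet_Iio measurable_const measurable_const

/-- admissible attractive parts, of strength at most `c` -/
structure Att (χ : ℝ → ℝ) (c : ℝ) : Prop where
  meas : Measurable χ
  nonneg : ∀ r, 0 ≤ χ r
  strength : ∀ (n : ℕ) (x : Fin n → E), ∑ i, ∑ j, χ (dist (x i) (x j)) ≤ c * sc 1 0 x

lemma measurable_pot {χ : ℝ → ℝ} (h : Measurable χ) (A : ℝ) : Measurable (pot A χ) := by
  unfold pot
  exact (measurable_near.const_mul A).sub h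

/-- finite-volume grand partition function (diagonal included in the pair sum) -/
noncomputable def XiE (A : ℝ) (χ : ℝ → ℝ) (L ν : ℝ) : ℝ≥0∞ :=
  GC (box L) (EG (HH ν 0 (pot A χ)))

/-- its logarithm -/
noncomputable def lnXi (A : ℝ) (χ : ℝ → ℝ) (L ν : ℝ) : ℝ := Real.log (XiE A χ L ν).toReal

lemma II_zero (S : Set E) (G : Multiset E → ℝ≥0∞) : II S G 0 = G 0 := by
  unfold II
  have : (Set.univ.pi fun _ : Fin 0 => S) = Set.univ := by
    ext x; simp
  rw [this, Measure.restrict_univ]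
  have hv : (volume : Measure (Fin 0 → E)) = Measure.dirac (fun i => i.elim0) :=
    Measure.volume_pi_eq_dirac _
  rw [hv, lintegral_dirac]
  simp [ms]

lemma one_le_XiE (A : ℝ) (χ : ℝ → ℝ) (L ν : ℝ) : 1 ≤ XiE A χ L ν := by
  unfold XiE GC
  have h := ENNReal.le_tsum (f := fun n : ℕ => ((n.factorial : ℝ≥0∞))⁻¹ *
    II (box L) (EG (HH ν 0 (pot A χ))) n) 0
  refine le_trans ?_ h
  rw [II_zero]
  simp [EG, HH, pairSum]

/-- block decomposition, upper bound with finitely many admissible grids -/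
theorem block_upper {l : ℝ} (hl : 0 < l) {J : Finset ℕ} (t : ℕ → ℝ) (B : Finset (Fin 3 → ℤ))
    {S : Set E} (hSm : MeasurableSet S) (hS : ∀ j ∈ J, ∀ x ∈ S, cl l (t j) x ∈ B)
    {H H' : Multiset E → ℝ} (hm : MeasG (EG H'))
    (hinv : ∀ (v : E) (X : Multiset E), H' (X.map (fun a => v + a)) = H' X)
    (h : ∀ (n : ℕ) (x : Fin n → E), (∀ i, x i ∈ S) → ∃ j ∈ J,
      H (ms x) ≤ ∑ k ∈ B, H' ((ms x).filter (· ∈ cellSet l (t j) k))) :
    GC S (EG H) ≤ (J.card : ℝ≥0∞) * (GC (hbox l) (EG H')) ^ B.card := by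
  classical
  let F : ℕ → Multiset E → ℝ≥0∞ := fun j X =>
    ∏ k ∈ B, EG H' (X.filter (· ∈ cellSet l (t j) k))
  have hF : ∀ j ∈ J, MeasG (F j) := fun j _ =>
    measG_finset_prod B (fun k _ => measG_filter hm (measurableSet_cellSet l (t j) k))
  have h1 : GC S (EG H) ≤ GC S (fun X => ∑ j ∈ J, F j X) := by
    refine GC_mono_fun hSm (fun n x hx => ?_)
    obtain ⟨j, hj, hle⟩ := h n x hx
    calc EG H (ms x) ≤ F j (ms x) := by
          simp only [F]
          rw [prod_EG B (fun _ => H') (fun k => (ms x).filter (· ∈ cellSet l (t j) k))]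
          unfold EG
          exact ENNReal.ofReal_le_ofReal (Real.exp_le_exp.mpr hle)
      _ ≤ ∑ j ∈ J, F j (ms x) := Finset.single_le_sum (f := fun j => F j (ms x))
          (fun _ _ => zero_le) hj
  refine h1.trans ?_
  rw [GC_finset_sum S J hF]
  calc ∑ j ∈ J, GC S (F j) ≤ ∑ _j ∈ J, (GC (hbox l) (EG H')) ^ B.card := by
        refine Finset.sum_le_sum (fun j hj => ?_)
        have hsub : S ⊆ ⋃ k ∈ B, cellSet l (t j) k := by
          intro x hx
          exact Set.mem_biUnion (hS j hj x hx) rfl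
        refine (GC_mono_set hsub (F j)).trans ?_
        have hb := GC_blocks B (S := fun k => cellSet l (t j) k)
          (fun k _ => measurableSet_cellSet l (t j) k)
          (fun k _ k' _ hkk => cellSet_disjoint l (t j) hkk) (G := fun _ => EG H')
          (fun k _ => hm)
        rw [hb]
        refine le_of_eq ?_
        rw [Finset.prod_congr rfl (fun k _ => GC_cell_eq hl (t j) k hinv), Finset.prod_const]
    _ = _ := by rw [Finset.sum_const, nsmul_eq_mul]

/-- evaluation of a functional depending only on the number of particles -/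
lemma GC_card {S : Set E} (hv : volume S = 1) (f : ℕ → ℝ≥0∞) :
    GC S (fun X => f (Multiset.card X)) = ∑' n : ℕ, ((n.factorial : ℝ≥0∞))⁻¹ * f n := by
  unfold GC
  congr 1
  funext n
  congr 1
  unfold II
  simp only [card_ms, Fintype.card_fin]
  rw [setLIntegral_const, volume_pi_pi]
  simp [hv]

lemma tsum_exp {x : ℝ} (hx : 0 ≤ x) :
    ∑' n : ℕ, ((n.factorial : ℝ≥0∞))⁻¹ * ENNReal.ofReal (x ^ n) =
      ENNReal.ofReal (Real.exp x) := by
  have h : ∀ n : ℕ, ((n.factorial : ℝ≥0∞))⁻¹ * ENNReal.ofReal (x ^ n) =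
      ENNReal.ofReal (x ^ n / n.factorial) := by
    intro n
    rw [ENNReal.ofReal_div_of_pos (by positivity), ENNReal.ofReal_natCast, mul_comm]
    rfl
  simp_rw [h]
  rw [← ENNReal.ofReal_tsum_of_nonneg (fun n => by positivity) (Real.summable_pow_div_factorial x)]
  congr 1
  rw [Real.exp_eq_exp_ℝ, NormedSpace.exp_eq_tsum_div]

/-- one-cell bound -/
lemma cell_bound {A ν : ℝ} (hA : 0 < A) :
    GC (hbox 1) (EG (HH ν (-(A / 4)) 0)) ≤ ENNReal.ofReal (Real.exp (Real.exp ν)) ∧
    GC (hbox 1) (EG (HH ν (-(A / 4)) 0)) ≤ ENNReal.ofReal (Real.exp (1 + ν ^ 2 / A)) := by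
  have hv : volume (hbox 1) = 1 := by rw [volume_hbox]; simp
  have hrep : EG (HH ν (-(A / 4)) 0) = fun X : Multiset E =>
      (fun n : ℕ => ENNReal.ofReal (Real.exp (ν * n + -(A / 4) * (n : ℝ) ^ 2)))
        (Multiset.card X) := by
    funext X
    simp [EG, HH, pairSum]
  rw [hrep, GC_card hv (fun n : ℕ => ENNReal.ofReal (Real.exp (ν * n + -(A / 4) * (n : ℝ) ^ 2)))]
  constructor
  · rw [← tsum_exp (Real.exp_pos ν).le]
    refine ENNReal.tsum_le_tsum (fun n => mul_le_mul_right ?_ _)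
    refine ENNReal.ofReal_le_ofReal ?_
    rw [← Real.exp_nat_mul]
    refine Real.exp_le_exp.mpr ?_
    nlinarith [sq_nonneg (n : ℝ)]
  · have h1 : ENNReal.ofReal (Real.exp (1 + ν ^ 2 / A)) =
        ∑' n : ℕ, ((n.factorial : ℝ≥0∞))⁻¹ * (ENNReal.ofReal ((1 : ℝ) ^ n) *
          ENNReal.ofReal (Real.exp (ν ^ 2 / A))) := by
      rw [Real.exp_add, ENNReal.ofReal_mul (Real.exp_pos _).le, ← tsum_exp zero_le_one,
        ← ENNReal.tsum_mul_right]
      congr 1
      funext n
      ring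
    rw [h1]
    refine ENNReal.tsum_le_tsum (fun n => mul_le_mul_right ?_ _)
    rw [one_pow, ENNReal.ofReal_one, one_mul]
    refine ENNReal.ofReal_le_ofReal (Real.exp_le_exp.mpr ?_)
    have h2 : ν * n + -(A / 4) * (n : ℝ) ^ 2 = ν ^ 2 / A - A / 4 * ((n : ℝ) - 2 * ν / A) ^ 2 := by
      field_simp
      ring
    rw [h2]
    have : 0 ≤ A / 4 * ((n : ℝ) - 2 * ν / A) ^ 2 := by positivity
    linarith

lemma sum_near_ge {n : ℕ} (x : Fin n → E) :
    sc 1 0 x ≤ ∑ i, ∑ j, near (dist (x i) (x j)) := by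
  unfold sc
  refine Finset.sum_le_sum (fun i _ => Finset.sum_le_sum (fun j _ => ?_))
  split_ifs with h
  · have := dist_lt_of_cl_eq one_pos h
    unfold near
    rw [if_pos (by linarith)]
  · exact near_nonneg _

lemma pairSum_pot {n : ℕ} (A : ℝ) (χ : ℝ → ℝ) (x : Fin n → E) :
    pairSum (pot A χ) (ms x) =
      A * (∑ i, ∑ j, near (dist (x i) (x j))) - ∑ i, ∑ j, χ (dist (x i) (x j)) := by
  rw [pairSum_ms]
  unfold pot
  simp only [Finset.sum_sub_distrib, ← Finset.mul_sum]

lemma sc_nonneg {n : ℕ} (l t : ℝ) (x : Fin n → E) : 0 ≤ sc l t x := by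
  unfold sc
  refine Finset.sum_nonneg (fun i _ => Finset.sum_nonneg (fun j _ => ?_))
  split_ifs <;> norm_num

lemma pairSum_pot_ge {A c : ℝ} {χ : ℝ → ℝ} (hχ : Att χ c) (hA : 0 < A) (hc : c ≤ A / 2)
    {n : ℕ} (x : Fin n → E) : A / 2 * sc 1 0 x ≤ pairSum (pot A χ) (ms x) := by
  rw [pairSum_pot]
  have h1 := sum_near_ge x
  have h2 := hχ.strength n x
  have h3 := sc_nonneg 1 0 x
  nlinarith

lemma cl_mem_box {L : ℝ} (hL : 0 ≤ L) {x : E} (hx : x ∈ box L) :
    cl 1 0 x ∈ Fintype.piFinset (fun _ : Fin 3 => Finset.Icc (0 : ℤ) ⌊L⌋) := by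
  rw [Fintype.mem_piFinset]
  intro i
  rw [Finset.mem_Icc]
  unfold cl
  have := hx i
  constructor
  · exact Int.floor_nonneg.mpr (by simpa using this.1)
  · exact Int.floor_le_floor (by simpa using this.2)

lemma XiE_le {A c : ℝ} {χ : ℝ → ℝ} (hχ : Att χ c) (hA : 0 < A) (hc : c ≤ A / 2) {L : ℝ}
    (hL : 0 ≤ L) {ν b : ℝ} (hb : 0 ≤ b)
    (hcell : GC (hbox 1) (EG (HH ν (-(A / 4)) 0)) ≤ ENNReal.ofReal (Real.exp b)) :
    XiE A χ L ν ≤ ENNReal.ofReal (Real.exp (b * (L + 1) ^ 3)) := by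
  classical
  set B := Fintype.piFinset (fun _ : Fin 3 => Finset.Icc (0 : ℤ) ⌊L⌋) with hB
  have h := block_upper one_pos (J := {0}) (fun _ => 0) B (measurableSet_box L)
    (fun _ _ x hx => cl_mem_box hL hx)
    (H := HH ν 0 (pot A χ)) (H' := HH ν (-(A / 4)) 0)
    (measG_HH ν _ measurable_const) (fun v X => HH_translate _ _ _ v X) ?_
  · refine h.trans ?_
    rw [Finset.card_singleton, Nat.cast_one, one_mul]
    calc (GC (hbox 1) (EG (HH ν (-(A / 4)) 0))) ^ B.card
        ≤ (ENNReal.ofReal (Real.exp b)) ^ B.card := by gcongr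
      _ = ENNReal.ofReal (Real.exp (B.card * b)) := by
          rw [← ENNReal.ofReal_pow (Real.exp_pos _).le, ← Real.exp_nat_mul]
      _ ≤ _ := by
          refine ENNReal.ofReal_le_ofReal (Real.exp_le_exp.mpr ?_)
          rw [mul_comm]
          refine mul_le_mul_of_nonneg_left ?_ hb
          rw [hB, Fintype.card_piFinset]
          simp only [Int.card_Icc, Finset.prod_const, Finset.card_univ, Fintype.card_fin]
          push_cast
          have hfl : 0 ≤ ⌊L⌋ := Int.floor_nonneg.mpr hL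
          have h1 : ((⌊L⌋ + 1 - 0).toNat : ℝ) = (⌊L⌋ : ℝ) + 1 := by
            have : (((⌊L⌋ + 1 - 0).toNat : ℤ) : ℝ) = ((⌊L⌋ + 1 : ℤ) : ℝ) := by
              rw [Int.toNat_of_nonneg (by linarith)]
              simp
            push_cast at this
            exact_mod_cast this
          rw [h1]
          have h2 : (⌊L⌋ : ℝ) + 1 ≤ L + 1 := by
            have := Int.floor_le L
            linarith
          have h3 : (0 : ℝ) ≤ (⌊L⌋ : ℝ) + 1 := by
            have : (0 : ℝ) ≤ (⌊L⌋ : ℝ) := by exact_mod_cast hfl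
            linarith
          exact pow_le_pow_left₀ h3 h2 3
  · intro n x hx
    refine ⟨0, Finset.mem_singleton_self 0, ?_⟩
    have hmem : ∀ i, cl 1 0 (x i) ∈ B := fun i => cl_mem_box hL (hx i)
    have h1 : ∀ k, HH ν (-(A / 4)) 0 ((ms x).filter (· ∈ cellSet 1 0 k)) =
        ν * ((Finset.univ.filter (fun i => x i ∈ cellSet 1 0 k)).card : ℝ) +
        -(A / 4) * ((Finset.univ.filter (fun i => x i ∈ cellSet 1 0 k)).card : ℝ) ^ 2 := by
      intro k
      unfold HH
      rw [card_filter_ms, pairSum_filter]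
      simp
    simp only [h1]
    rw [Finset.sum_add_distrib, ← Finset.mul_sum, ← Finset.mul_sum, ← sc_eq 1 0 x B hmem,
      ← card_eq_cells 1 0 x B hmem]
    unfold HH
    rw [card_ms, Fintype.card_fin]
    have := pairSum_pot_ge hχ hA hc x
    linarith

end Vale.Agent.P171
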