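import Vale.Agent.P171.Press

/-!
Superadditivity, existence of the thermodynamic limit, elementary properties of the pressure.
-/

open MeasureTheory Set Filter Topology
open scoped ENNReal

namespace Vale.Agent.P171

/-- well separated cubes of side `l` at spacing `l + 2` -/
def sepCube (l : ℝ) (k : Fin 3 → ℤ) : Set E :=
  (fun a => (WithLp.toLp 2 (fun i => -((l + 2) * k i)) : E) + a) ⁻¹' (box l)

lemma mem_sepCube {l : ℝ} {k : Fin 3 → ℤ} {x : E} :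
    x ∈ sepCube l k ↔ ∀ i, (l + 2) * k i ≤ x i ∧ x i ≤ (l + 2) * k i + l := by
  simp only [sepCube, box, Set.mem_preimage, Set.mem_ofPred_eq, PiLp.add_apply]
  refine forall_congr' (fun i => ?_)
  constructor
  · rintro ⟨h1, h2⟩
    constructor <;> linarith
  · rintro ⟨h1, h2⟩
    constructor <;> linarith

lemma measurableSet_sepCube (l : ℝ) (k : Fin 3 → ℤ) : MeasurableSet (sepCube l k) := by
  refine (measurableSet_box l).preimage ?_
  fun_prop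

lemma sepCube_subset_cell {l : ℝ} (hl : 0 ≤ l) (k : Fin 3 → ℤ) :
    sepCube l k ⊆ cellSet (l + 2) 0 k := by
  intro x hx
  rw [mem_sepCube] at hx
  show cl (l + 2) 0 x = k
  funext i
  unfold cl
  rw [Int.floor_eq_iff, sub_zero, le_div_iff₀ (by linarith), div_lt_iff₀ (by linarith)]
  have := hx i
  constructor
  · linarith [this.1]
  · nlinarith [this.2]

lemma sepCube_far {l : ℝ} (hl : 0 ≤ l) {k k' : Fin 3 → ℤ} (hk : k ≠ k') {x y : E}
    (hx : x ∈ sepCube l k) (hy : y ∈ sepCube l k') : 2 ≤ dist x y := by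
  obtain ⟨i, hi⟩ := Function.ne_iff.mp hk
  rw [mem_sepCube] at hx hy
  have h1 := hx i
  have h2 := hy i
  refine le_trans ?_ (abs_coord_le_dist x y i)
  rcases lt_or_gt_of_ne hi with h | h
  · have : (k i : ℝ) + 1 ≤ k' i := by exact_mod_cast h
    rw [abs_sub_comm]
    refine le_trans ?_ (le_abs_self _)
    nlinarith [h1.2, h2.1]
  · have : (k' i : ℝ) + 1 ≤ k i := by exact_mod_cast h
    refine le_trans ?_ (le_abs_self _)
    nlinarith [h1.1, h2.2]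

lemma pot_nonpos_of_far {A : ℝ} {χ : ℝ → ℝ} (hχ : ∀ r, 0 ≤ χ r) {r : ℝ} (hr : 2 ≤ r) :
    pot A χ r ≤ 0 := by
  unfold pot near
  rw [if_neg (by linarith)]
  have := hχ r
  linarith

/-- superadditivity -/
theorem XiE_super {A : ℝ} {χ : ℝ → ℝ} (hχm : Measurable χ) (hχ : ∀ r, 0 ≤ χ r) {l L ν : ℝ}
    (hl : 0 ≤ l) (M : ℕ) (hL : M * (l + 2) ≤ L) :
    (XiE A χ l ν) ^ (M ^ 3) ≤ XiE A χ L ν := by
  classical
  set B := Fintype.piFinset (fun _ : Fin 3 => Finset.Ico (0 : ℤ) M) with hB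
  have hcard : B.card = M ^ 3 := by
    rw [hB, Fintype.card_piFinset]
    simp
  have hmem : ∀ k ∈ B, sepCube l k ⊆ box L := by
    intro k hk x hx i
    rw [mem_sepCube] at hx
    have hki := Fintype.mem_piFinset.mp hk i
    rw [Finset.mem_Ico] at hki
    have h1 : (0 : ℝ) ≤ k i := by exact_mod_cast hki.1
    have h2 : (k i : ℝ) + 1 ≤ M := by exact_mod_cast hki.2
    have h3 := hx i
    constructor
    · nlinarith [h3.1]
    · nlinarith [h3.2]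
  have hd : (B : Set (Fin 3 → ℤ)).PairwiseDisjoint (fun k => sepCube l k) := by
    intro k _ k' _ hkk
    exact (cellSet_disjoint (l + 2) 0 hkk).mono (sepCube_subset_cell hl k)
      (sepCube_subset_cell hl k')
  have hm := measG_HH ν 0 (measurable_pot hχm A)
  have hb := GC_blocks B (S := fun k => sepCube l k) (fun k _ => measurableSet_sepCube l k) hd
    (G := fun _ => EG (HH ν 0 (pot A χ))) (fun _ _ => hm)
  have hprod : ∏ k ∈ B, GC (sepCube l k) (EG (HH ν 0 (pot A χ))) = (XiE A χ l ν) ^ (M ^ 3) := by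
    have : ∀ k ∈ B, GC (sepCube l k) (EG (HH ν 0 (pot A χ))) = XiE A χ l ν := by
      intro k _
      unfold sepCube XiE
      refine GC_translate _ _ (fun X => ?_)
      unfold EG
      rw [HH_translate]
    rw [Finset.prod_congr rfl this, Finset.prod_const, hcard]
  rw [← hprod, ← hb]
  have hsub : (⋃ k ∈ B, sepCube l k) ⊆ box L := Set.iUnion₂_subset hmem
  refine le_trans ?_ (GC_mono_set hsub _)
  have hmeas : MeasurableSet (⋃ k ∈ B, sepCube l k) :=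
    Finset.measurableSet_biUnion B (fun k _ => measurableSet_sepCube l k)
  refine GC_mono_fun hmeas (fun n x hx => ?_)
  rw [prod_EG B (fun _ => HH ν 0 (pot A χ)) (fun k => (ms x).filter (· ∈ sepCube l k))]
  unfold EG
  refine ENNReal.ofReal_le_ofReal (Real.exp_le_exp.mpr ?_)
  -- every point lies in the separated cube of its cell
  have hx' : ∀ i, cl (l + 2) 0 (x i) ∈ B ∧ x i ∈ sepCube l (cl (l + 2) 0 (x i)) := by
    intro i
    obtain ⟨k, hk, hxk⟩ := Set.mem_iUnion₂.mp (hx i)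
    have hc : cl (l + 2) 0 (x i) = k := sepCube_subset_cell hl k hxk
    rw [hc]
    exact ⟨hk, hxk⟩
  have hfil : ∀ k ∈ B, Finset.univ.filter (fun i => x i ∈ sepCube l k) =
      Finset.univ.filter (fun i => x i ∈ cellSet (l + 2) 0 k) := by
    intro k _
    ext i
    rw [Finset.mem_filter, Finset.mem_filter]
    constructor
    · rintro ⟨_, h⟩
      exact ⟨Finset.mem_univ _, sepCube_subset_cell hl k h⟩
    · rintro ⟨_, h⟩
      refine ⟨Finset.mem_univ _, ?_⟩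
      have hc : cl (l + 2) 0 (x i) = k := h
      have := (hx' i).2
      rwa [hc] at this
  have h1 : ∀ k ∈ B, HH ν 0 (pot A χ) ((ms x).filter (· ∈ sepCube l k)) =
      ν * ((Finset.univ.filter (fun i => x i ∈ cellSet (l + 2) 0 k)).card : ℝ) -
      (1 / 2) * ∑ i ∈ Finset.univ.filter (fun i => x i ∈ cellSet (l + 2) 0 k),
        ∑ j ∈ Finset.univ.filter (fun i => x i ∈ cellSet (l + 2) 0 k),
          pot A χ (dist (x i) (x j)) := by
    intro k hk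
    unfold HH
    rw [card_filter_ms, pairSum_filter, hfil k hk]
    ring
  rw [Finset.sum_congr rfl h1, Finset.sum_sub_distrib, ← Finset.mul_sum, ← Finset.mul_sum,
    ← card_eq_cells (l + 2) 0 x B (fun i => (hx' i).1),
    ← group_cells (l + 2) 0 x B (fun i => (hx' i).1) (fun i j => pot A χ (dist (x i) (x j)))]
  unfold HH
  rw [card_ms, Fintype.card_fin, pairSum_ms]
  have hle : ∑ i, ∑ j, pot A χ (dist (x i) (x j)) ≤
      ∑ i, ∑ j, (if cl (l + 2) 0 (x i) = cl (l + 2) 0 (x j) then pot A χ (dist (x i) (x j))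
        else 0) := by
    refine Finset.sum_le_sum (fun i _ => Finset.sum_le_sum (fun j _ => ?_))
    split_ifs with h
    · exact le_refl _
    · exact pot_nonpos_of_far hχ (sepCube_far hl h (hx' i).2 (hx' j).2)
  linarith

/-- parameters of an admissible class: `0 < A`, strength at most `A/2` -/
structure Ok (A : ℝ) (χ : ℝ → ℝ) : Prop where
  hA : 0 < A
  att : Att χ (A / 2)

lemma XiE_ne_top {A : ℝ} {χ : ℝ → ℝ} (h : Ok A χ) {L : ℝ} (hL : 0 ≤ L) (ν : ℝ) :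
    XiE A χ L ν ≠ ⊤ := by
  have := XiE_le h.att h.hA le_rfl hL (Real.exp_pos ν).le (cell_bound (ν := ν) h.hA).1
  exact ne_top_of_le_ne_top ENNReal.ofReal_ne_top this

lemma XiE_eq_exp {A : ℝ} {χ : ℝ → ℝ} (h : Ok A χ) {L : ℝ} (hL : 0 ≤ L) (ν : ℝ) :
    XiE A χ L ν = ENNReal.ofReal (Real.exp (lnXi A χ L ν)) := by
  have h1 := one_le_XiE A χ L ν
  have ht := XiE_ne_top h hL ν
  have hpos : 0 < (XiE A χ L ν).toReal :=
    ENNReal.toReal_pos (fun h0 => by rw [h0] at h1; simp at h1) ht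
  unfold lnXi
  rw [Real.exp_log hpos, ENNReal.ofReal_toReal ht]

lemma lnXi_le_iff {A : ℝ} {χ : ℝ → ℝ} (h : Ok A χ) {L : ℝ} (hL : 0 ≤ L) (ν b : ℝ) :
    lnXi A χ L ν ≤ b ↔ XiE A χ L ν ≤ ENNReal.ofReal (Real.exp b) := by
  rw [XiE_eq_exp h hL, ENNReal.ofReal_le_ofReal_iff (Real.exp_pos _).le, Real.exp_le_exp]

lemma le_lnXi_iff {A : ℝ} {χ : ℝ → ℝ} (h : Ok A χ) {L : ℝ} (hL : 0 ≤ L) (ν b : ℝ) :
    b ≤ lnXi A χ L ν ↔ ENNReal.ofReal (Real.exp b) ≤ XiE A χ L ν := by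
  rw [XiE_eq_exp h hL, ENNReal.ofReal_le_ofReal_iff (Real.exp_pos _).le, Real.exp_le_exp]

lemma lnXi_nonneg {A : ℝ} {χ : ℝ → ℝ} (h : Ok A χ) {L : ℝ} (hL : 0 ≤ L) (ν : ℝ) :
    0 ≤ lnXi A χ L ν := by
  rw [le_lnXi_iff h hL]
  simpa using one_le_XiE A χ L ν

/-- the upper bound for the pressure -/
noncomputable def BB (A ν : ℝ) : ℝ := 1 + ν ^ 2 / A

lemma BB_pos {A : ℝ} (hA : 0 < A) (ν : ℝ) : 0 < BB A ν := by unfold BB; positivity

lemma lnXi_le_exp {A : ℝ} {χ : ℝ → ℝ} (h : Ok A χ) {L : ℝ} (hL : 0 ≤ L) (ν : ℝ) :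
    lnXi A χ L ν ≤ Real.exp ν * (L + 2) ^ 3 := by
  have h1 : lnXi A χ L ν ≤ Real.exp ν * (L + 1) ^ 3 := by
    rw [lnXi_le_iff h hL]
    exact XiE_le h.att h.hA le_rfl hL (Real.exp_pos ν).le (cell_bound (ν := ν) h.hA).1
  refine h1.trans (mul_le_mul_of_nonneg_left ?_ (Real.exp_pos ν).le)
  exact pow_le_pow_left₀ (by linarith) (by linarith) 3

lemma lnXi_le_BB {A : ℝ} {χ : ℝ → ℝ} (h : Ok A χ) {L : ℝ} (hL : 0 ≤ L) (ν : ℝ) :
    lnXi A χ L ν ≤ BB A ν * (L + 2) ^ 3 := by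
  have h1 : lnXi A χ L ν ≤ BB A ν * (L + 1) ^ 3 := by
    rw [lnXi_le_iff h hL]
    exact XiE_le h.att h.hA le_rfl hL (BB_pos h.hA ν).le (cell_bound (ν := ν) h.hA).2
  refine h1.trans (mul_le_mul_of_nonneg_left ?_ (BB_pos h.hA ν).le)
  exact pow_le_pow_left₀ (by linarith) (by linarith) 3

/-- the pressure, as a supremum over finite volumes -/
noncomputable def PP (A : ℝ) (χ : ℝ → ℝ) (ν : ℝ) : ℝ :=
  ⨆ L : NNReal, lnXi A χ L ν / ((L : ℝ) + 2) ^ 3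

lemma PP_bddAbove {A : ℝ} {χ : ℝ → ℝ} (h : Ok A χ) (ν : ℝ) :
    BddAbove (Set.range fun L : NNReal => lnXi A χ L ν / ((L : ℝ) + 2) ^ 3) := by
  refine ⟨BB A ν, ?_⟩
  rintro _ ⟨L, rfl⟩
  have hL : (0 : ℝ) ≤ L := L.2
  simp only
  rw [div_le_iff₀ (by positivity)]
  exact lnXi_le_BB h hL ν

lemma lnXi_le_PP {A : ℝ} {χ : ℝ → ℝ} (h : Ok A χ) {L : ℝ} (hL : 0 ≤ L) (ν : ℝ) :
    lnXi A χ L ν ≤ PP A χ ν * (L + 2) ^ 3 := by
  have := le_ciSup (PP_bddAbove h ν) ⟨L, hL⟩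
  rw [← div_le_iff₀ (by positivity)]
  exact this

lemma PP_le {A : ℝ} {χ : ℝ → ℝ} {ν b : ℝ}
    (hb : ∀ L : ℝ, 0 ≤ L → lnXi A χ L ν ≤ b * (L + 2) ^ 3) : PP A χ ν ≤ b := by
  refine ciSup_le (fun L => ?_)
  have hL : (0 : ℝ) ≤ L := L.2
  rw [div_le_iff₀ (by positivity)]
  exact hb L hL

lemma PP_nonneg {A : ℝ} {χ : ℝ → ℝ} (h : Ok A χ) (ν : ℝ) : 0 ≤ PP A χ ν := by
  have h1 := lnXi_le_PP h (le_refl (0 : ℝ)) ν
  have h2 := lnXi_nonneg h (le_refl (0 : ℝ)) ν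
  nlinarith

lemma PP_le_BB {A : ℝ} {χ : ℝ → ℝ} (h : Ok A χ) (ν : ℝ) : PP A χ ν ≤ BB A ν :=
  PP_le (fun _ hL => lnXi_le_BB h hL ν)

lemma PP_le_exp {A : ℝ} {χ : ℝ → ℝ} (h : Ok A χ) (ν : ℝ) : PP A χ ν ≤ Real.exp ν :=
  PP_le (fun _ hL => lnXi_le_exp h hL ν)

lemma lnXi_super {A : ℝ} {χ : ℝ → ℝ} (h : Ok A χ) {l L ν : ℝ}
    (hl : 0 ≤ l) (M : ℕ) (hL : M * (l + 2) ≤ L) :
    (M : ℝ) ^ 3 * lnXi A χ l ν ≤ lnXi A χ L ν := by
  have hL0 : 0 ≤ L := le_trans (by positivity) hL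
  rw [le_lnXi_iff h hL0]
  refine le_trans (le_of_eq ?_) (XiE_super h.att.meas h.att.nonneg hl M hL)
  rw [XiE_eq_exp h hl, ← ENNReal.ofReal_pow (Real.exp_pos _).le, ← Real.exp_nat_mul]
  push_cast
  rfl

/-- existence of the thermodynamic limit -/
theorem tendsto_PP {A : ℝ} {χ : ℝ → ℝ} (h : Ok A χ) (ν : ℝ) :
    Tendsto (fun L : ℝ => (L ^ 3)⁻¹ * lnXi A χ L ν) atTop (𝓝 (PP A χ ν)) := by
  rw [tendsto_order]
  constructor
  · -- lower bound
    intro c hc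
    obtain ⟨l, hl⟩ := exists_lt_of_lt_ciSup hc
    have hl0 : (0 : ℝ) ≤ l := l.2
    set q := lnXi A χ l ν / ((l : ℝ) + 2) ^ 3 with hq
    have hlim : Tendsto (fun L : ℝ => ((⌊L / (l + 2)⌋₊ : ℝ) / (L / (l + 2))) ^ 3 * q) atTop
        (𝓝 (1 ^ 3 * q)) := by
      refine Tendsto.mul_const q (Tendsto.pow ?_ 3)
      have := tendsto_nat_floor_div_atTop (R := ℝ)
      exact this.comp (tendsto_id.atTop_div_const (by positivity))
    rw [one_pow, one_mul] at hlim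
    have hev := (tendsto_order.mp hlim).1 c hl
    filter_upwards [hev, eventually_gt_atTop (0 : ℝ)] with L hL hL0
    refine lt_of_lt_of_le hL ?_
    have hM : ((⌊L / (l + 2)⌋₊ : ℕ) : ℝ) * ((l : ℝ) + 2) ≤ L := by
      have := Nat.floor_le (show 0 ≤ L / ((l : ℝ) + 2) by positivity)
      rwa [le_div_iff₀ (by positivity)] at this
    have hs := lnXi_super (ν := ν) h hl0 ⌊L / (l + 2)⌋₊ hM
    rw [hq]
    have e : ((⌊L / ((l : ℝ) + 2)⌋₊ : ℝ) / (L / ((l : ℝ) + 2))) ^ 3 *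
        (lnXi A χ l ν / ((l : ℝ) + 2) ^ 3) = (L ^ 3)⁻¹ * ((⌊L / ((l : ℝ) + 2)⌋₊ : ℝ) ^ 3 *
          lnXi A χ l ν) := by
      field_simp
    rw [e]
    exact mul_le_mul_of_nonneg_left hs (by positivity)
  · intro c hc
    have hlim : Tendsto (fun L : ℝ => PP A χ ν * ((L + 2) / L) ^ 3) atTop
        (𝓝 (PP A χ ν * 1 ^ 3)) := by
      refine Tendsto.const_mul _ (Tendsto.pow ?_ 3)
      have h1 : Tendsto (fun L : ℝ => 1 + 2 / L) atTop (𝓝 (1 + 0)) :=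
        tendsto_const_nhds.add (tendsto_const_nhds.div_atTop tendsto_id)
      rw [add_zero] at h1
      refine h1.congr' ?_
      filter_upwards [eventually_gt_atTop (0 : ℝ)] with L hL
      field_simp
    rw [one_pow, mul_one] at hlim
    have hev := (tendsto_order.mp hlim).2 c hc
    filter_upwards [hev, eventually_gt_atTop (0 : ℝ)] with L hL hL0
    refine lt_of_le_of_lt ?_ hL
    have := lnXi_le_PP h hL0.le ν
    calc (L ^ 3)⁻¹ * lnXi A χ L ν ≤ (L ^ 3)⁻¹ * (PP A χ ν * (L + 2) ^ 3) :=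
          mul_le_mul_of_nonneg_left this (by positivity)
      _ = PP A χ ν * ((L + 2) / L) ^ 3 := by field_simp

/-! ### convexity -/

lemma pairSum_comb (t : ℝ) (k1 k2 : ℝ → ℝ) (X : Multiset E) :
    pairSum (fun r => (1 - t) * k1 r + t * k2 r) X =
      (1 - t) * pairSum k1 X + t * pairSum k2 X := by
  rw [pairSum_add (fun r => (1 - t) * k1 r) (fun r => t * k2 r), pairSum_smul, pairSum_smul]

lemma HH_comb (A t ν1 ν2 : ℝ) (χ1 χ2 : ℝ → ℝ) (X : Multiset E) :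
    HH ((1 - t) * ν1 + t * ν2) 0 (pot A (fun r => (1 - t) * χ1 r + t * χ2 r)) X =
      (1 - t) * HH ν1 0 (pot A χ1) X + t * HH ν2 0 (pot A χ2) X := by
  have : pot A (fun r => (1 - t) * χ1 r + t * χ2 r) =
      fun r => (1 - t) * pot A χ1 r + t * pot A χ2 r := by
    funext r
    unfold pot
    ring
  unfold HH
  rw [this, pairSum_comb]
  ring

lemma lnXi_convex {A : ℝ} {χ1 χ2 : ℝ → ℝ} (h1 : Ok A χ1) (h2 : Ok A χ2) {t : ℝ} (ht0 : 0 ≤ t)
    (ht1 : t ≤ 1) (h : Ok A (fun r => (1 - t) * χ1 r + t * χ2 r)) {L : ℝ} (hL : 0 ≤ L)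
    (ν1 ν2 : ℝ) :
    lnXi A (fun r => (1 - t) * χ1 r + t * χ2 r) L ((1 - t) * ν1 + t * ν2) ≤
      (1 - t) * lnXi A χ1 L ν1 + t * lnXi A χ2 L ν2 := by
  rw [lnXi_le_iff h hL]
  have := GC_convex (box L) (measG_HH ν1 0 (measurable_pot h1.att.meas A))
    (measG_HH ν2 0 (measurable_pot h2.att.meas A)) ht0 ht1
    (c1 := lnXi A χ1 L ν1) (c2 := lnXi A χ2 L ν2) (le_of_eq (XiE_eq_exp h1 hL ν1))
    (le_of_eq (XiE_eq_exp h2 hL ν2))
  unfold XiE
  have e : (HH ((1 - t) * ν1 + t * ν2) 0 (pot A (fun r => (1 - t) * χ1 r + t * χ2 r))) =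
      fun X => (1 - t) * HH ν1 0 (pot A χ1) X + t * HH ν2 0 (pot A χ2) X := by
    funext X
    exact HH_comb A t ν1 ν2 χ1 χ2 X
  rw [e]
  exact this

lemma PP_convex2 {A : ℝ} {χ1 χ2 : ℝ → ℝ} (h1 : Ok A χ1) (h2 : Ok A χ2) {t : ℝ} (ht0 : 0 ≤ t)
    (ht1 : t ≤ 1) (h : Ok A (fun r => (1 - t) * χ1 r + t * χ2 r)) (ν1 ν2 : ℝ) :
    PP A (fun r => (1 - t) * χ1 r + t * χ2 r) ((1 - t) * ν1 + t * ν2) ≤
      (1 - t) * PP A χ1 ν1 + t * PP A χ2 ν2 := by
  refine PP_le (fun L hL => ?_)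
  have a := lnXi_convex h1 h2 ht0 ht1 h hL ν1 ν2
  have b := mul_le_mul_of_nonneg_left (lnXi_le_PP h1 hL ν1) (show (0 : ℝ) ≤ 1 - t by linarith)
  have c := mul_le_mul_of_nonneg_left (lnXi_le_PP h2 hL ν2) ht0
  calc _ ≤ _ := a
    _ ≤ (1 - t) * (PP A χ1 ν1 * (L + 2) ^ 3) + t * (PP A χ2 ν2 * (L + 2) ^ 3) := by linarith
    _ = _ := by ring

lemma PP_convexOn {A : ℝ} {χ : ℝ → ℝ} (h : Ok A χ) : ConvexOn ℝ Set.univ (PP A χ) := by
  refine ⟨convex_univ, fun ν1 _ ν2 _ a b ha hb hab => ?_⟩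
  have ha' : a = 1 - b := by linarith
  subst ha'
  simp only [smul_eq_mul]
  have e : (fun r => (1 - b) * χ r + b * χ r) = χ := by
    funext r; ring
  have := PP_convex2 h h hb (by linarith) (by rw [e]; exact h) ν1 ν2
  rwa [e] at this

lemma PP_mono {A : ℝ} {χ : ℝ → ℝ} (h : Ok A χ) : Monotone (PP A χ) := by
  intro ν ν' hν
  refine PP_le (fun L hL => ?_)
  refine le_trans ?_ (lnXi_le_PP h hL ν')
  rw [lnXi_le_iff h hL, ← XiE_eq_exp h hL]
  unfold XiE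
  refine GC_mono_fun (measurableSet_box L) (fun n x _ => ?_)
  unfold EG
  refine ENNReal.ofReal_le_ofReal (Real.exp_le_exp.mpr ?_)
  unfold HH
  have : (0 : ℝ) ≤ (Multiset.card (ms x) : ℝ) := by positivity
  nlinarith

lemma PP_mono_chi {A : ℝ} {χ χ' : ℝ → ℝ} (h : Ok A χ) (h' : Ok A χ') (hle : ∀ r, χ r ≤ χ' r)
    (ν : ℝ) : PP A χ ν ≤ PP A χ' ν := by
  refine PP_le (fun L hL => ?_)
  refine le_trans ?_ (lnXi_le_PP h' hL ν)
  rw [lnXi_le_iff h hL, ← XiE_eq_exp h' hL]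
  unfold XiE
  refine GC_mono_fun (measurableSet_box L) (fun n x _ => ?_)
  unfold EG
  refine ENNReal.ofReal_le_ofReal (Real.exp_le_exp.mpr ?_)
  unfold HH
  rw [pairSum_pot, pairSum_pot]
  have : ∑ i, ∑ j, χ (dist (x i) (x j)) ≤ ∑ i, ∑ j, χ' (dist (x i) (x j)) :=
    Finset.sum_le_sum (fun i _ => Finset.sum_le_sum (fun j _ => hle _))
  linarith

end Vale.Agent.P171
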