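import Vale.Agent.P171.Base

/-!
The recursion: infinitely many attractive terms, and the limiting potential.
-/

open MeasureTheory Set Filter Topology
open scoped ENNReal

namespace Vale.Agent.P171

/-- height of the repulsive step -/
noncomputable def AA : ℝ := 2000000

lemma AA_pos : 0 < AA := by unfold AA; norm_num

/-- strength of the `k`-th attractive term (after the first one) -/
noncomputable def aa (k : ℕ) : ℝ := 30000 / 2 ^ k

noncomputable def cc (k : ℕ) : ℝ := 240000 - 120000 / 2 ^ k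
noncomputable def rmk (k : ℕ) : ℝ := 12 / 10000 - (1 / 10000) / 2 ^ k
noncomputable def rpk (k : ℕ) : ℝ := 20 / 10000 + (2 / 10000) / 2 ^ k
noncomputable def dk (k : ℕ) : ℝ := (1 / 10000) / 2 ^ (k + 1)
noncomputable def wk (k : ℕ) : ℝ := aa k * dk k ^ 2 / 2
noncomputable def bk (k : ℕ) : ℝ := (120000 - 60000 / 2 ^ k) / VR 20

lemma aa_pos (k : ℕ) : 0 < aa k := by unfold aa; positivity
lemma dk_pos (k : ℕ) : 0 < dk k := by unfold dk; positivity
lemma wk_pos (k : ℕ) : 0 < wk k := by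
  have := aa_pos k; have := dk_pos k; unfold wk; positivity

lemma two_pow_pos' (k : ℕ) : (0 : ℝ) < 2 ^ k := by positivity

/-- invariant of the recursion -/
structure Inv (k : ℕ) (χ : ℝ → ℝ) : Prop where
  att : Att χ (cc k)
  range : ∃ D, 0 ≤ D ∧ ∀ r, D < r → χ r = 0
  jump : ∃ ym yp, JumpAt (PP AA χ) (rmk k) (rpk k) ym yp ∧ yp - ym ≤ wk k
  bound : ∀ r, χ r ≤ bk k

lemma VR_mono {R R' : ℝ} (hR : 0 ≤ R) (h : R ≤ R') : VR R ≤ VR R' := by
  rw [VR_eq hR, VR_eq (hR.trans h)]
  exact mul_le_mul_of_nonneg_right (pow_le_pow_left₀ hR h 3) VR_one_pos.le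

lemma psi_le_20 {a R : ℝ} (ha : 0 ≤ a) (hR : 20 ≤ R) (r : ℝ) : psi a R r ≤ a / VR 20 := by
  refine (psi_le ha (by linarith) r).trans ?_
  exact div_le_div_of_nonneg_left ha (VR_pos (by norm_num)) (VR_mono (by norm_num) hR)

lemma inv_zero : ∃ χ, Inv 0 χ := by
  have h0 : Att (fun _ => (0 : ℝ)) (AA / 4) := att_zero (by unfold AA; norm_num)
  obtain ⟨R, hR, ym', yp', hJ, hw⟩ := step (a := 60000) AA_pos h0 (by norm_num)
    (by unfold AA; norm_num) (D := 0) le_rfl (fun _ _ => rfl) (jump_base AA_pos) (w := 8)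
    (by linarith) (δ := 1 / 1000) (κ := 1 / 10000) (w' := wk 0) (by norm_num) (by norm_num)
    (by norm_num) (by norm_num) (by norm_num) (by norm_num) (wk_pos 0)
  have e : (fun r => (0 : ℝ) + psi 60000 R r) = psi 60000 R := by funext r; ring
  rw [e] at hJ
  refine ⟨psi 60000 R, ?_, ?_, ?_, ?_⟩
  · refine (psi_att (by norm_num) hR).mono ?_
    unfold cc
    norm_num
  · exact ⟨2 * R, by linarith, fun r hr => psi_eq_zero _ (by linarith) hr⟩
  · refine ⟨ym', yp', hJ.weaken ?_ ?_, hw⟩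
    · unfold rmk; norm_num
    · unfold rpk; norm_num
  · intro r
    refine (psi_le_20 (by norm_num) hR r).trans (le_of_eq ?_)
    unfold bk
    norm_num

lemma inv_step (k : ℕ) (χ : ℝ → ℝ) (h : Inv k χ) :
    ∃ R, 20 ≤ R ∧ Inv (k + 1) (fun r => χ r + psi (aa k) R r) := by
  have h2k := two_pow_pos' k
  obtain ⟨D, hD, hrange⟩ := h.range
  obtain ⟨ym, yp, hJ, hw⟩ := h.jump
  have ha := aa_pos k
  have hd := dk_pos k
  have hle1 : (1 : ℝ) ≤ 2 ^ k := one_le_pow₀ (by norm_num)
  have hd1 : dk k ≤ 1 := by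
    unfold dk
    rw [div_le_iff₀ (by positivity)]
    have : (1 : ℝ) ≤ 2 ^ (k + 1) := one_le_pow₀ (by norm_num)
    linarith
  have hrm0 : 0 ≤ rmk k := by
    unfold rmk
    have : (1 / 10000 : ℝ) / 2 ^ k ≤ 1 / 10000 := div_le_self (by norm_num) hle1
    linarith
  have hrp1 : rpk k ≤ 22 / 10000 := by
    unfold rpk
    have : (2 / 10000 : ℝ) / 2 ^ k ≤ 2 / 10000 := div_le_self (by norm_num) hle1
    linarith
  have hc4 : cc k ≤ AA / 4 := by
    unfold cc AA
    have : (0 : ℝ) ≤ 120000 / 2 ^ k := by positivity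
    linarith
  have haA : 32 * aa k ≤ AA := by
    unfold aa AA
    have : (30000 : ℝ) / 2 ^ k ≤ 30000 := div_le_self (by norm_num) hle1
    linarith
  have e2 : (2 : ℝ) ^ (k + 1) = 2 * 2 ^ k := by ring
  have hgap : rmk k < rpk k - dk k := by
    unfold rmk rpk dk
    have h1 : (1 / 10000 : ℝ) / 2 ^ (k + 1) ≤ 1 / 10000 :=
      div_le_self (by norm_num) (one_le_pow₀ (by norm_num))
    have h2 : (0 : ℝ) ≤ (1 / 10000) / 2 ^ k := by positivity
    have h3 : (0 : ℝ) ≤ (2 / 10000) / 2 ^ k := by positivity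
    linarith
  obtain ⟨R, hR, ym', yp', hJ', hw'⟩ := step (a := aa k) AA_pos (h.att.mono hc4) ha haA hD hrange
    hJ hw (δ := dk k) (κ := dk k) (w' := wk (k + 1)) hd hrm0 hgap (by
      unfold wk
      have : 0 < aa k * dk k ^ 2 := by positivity
      nlinarith) (by
      unfold wk
      have : aa k * dk k ^ 2 ≤ aa k * dk k := by
        have h3 : dk k ^ 2 ≤ dk k := by nlinarith
        exact mul_le_mul_of_nonneg_left h3 ha.le
      have : 0 < aa k * dk k := by positivity
      linarith) hd (wk_pos _)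
  refine ⟨R, hR, ?_, ?_, ?_, ?_⟩
  · refine (h.att.add (psi_att ha.le hR)).mono (le_of_eq ?_)
    unfold cc aa
    rw [e2]
    field_simp
    ring
  · refine ⟨max D (2 * R), le_trans hD (le_max_left _ _), fun r hr => ?_⟩
    rw [hrange r (lt_of_le_of_lt (le_max_left _ _) hr),
      psi_eq_zero _ (by linarith) (lt_of_le_of_lt (le_max_right _ _) hr), add_zero]
  · refine ⟨ym', yp', hJ'.weaken (le_of_eq ?_) (le_of_eq ?_), hw'⟩
    · unfold rmk dk
      rw [e2]
      field_simp
      ring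
    · unfold rpk dk
      rw [e2]
      field_simp
      ring
  · intro r
    have h1 := h.bound r
    have h2 := psi_le_20 ha.le hR r
    have h3 : bk k + aa k / VR 20 = bk (k + 1) := by
      unfold bk aa
      rw [e2]
      have := VR_pos (show (0 : ℝ) < 20 by norm_num)
      field_simp
      ring
    linarith

/-- the sequence of attractive parts -/
theorem exists_seq : ∃ (f : ℕ → ℝ → ℝ) (R : ℕ → ℝ), (∀ k, Inv k (f k)) ∧ (∀ k, 20 ≤ R k) ∧
    ∀ k, f (k + 1) = fun r => f k r + psi (aa k) (R k) r := by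
  obtain ⟨χ0, h0⟩ := inv_zero
  choose! g hg20 hg using inv_step
  let F : (k : ℕ) → {χ : ℝ → ℝ // Inv k χ} := fun k =>
    Nat.rec (motive := fun k => {χ : ℝ → ℝ // Inv k χ}) ⟨χ0, h0⟩
      (fun k s => ⟨fun r => s.1 r + psi (aa k) (g k s.1) r, hg k s.1 s.2⟩) k
  exact ⟨fun k => (F k).1, fun k => g k (F k).1, fun k => (F k).2,
    fun k => hg20 k (F k).1 (F k).2, fun k => rfl⟩

section limit

variable {f : ℕ → ℝ → ℝ} {R : ℕ → ℝ}

lemma att_diff (hinv : ∀ k, Inv k (f k)) (hR : ∀ k, 20 ≤ R k)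
    (hf : ∀ k, f (k + 1) = fun r => f k r + psi (aa k) (R k) r) (k m : ℕ) :
    Att (fun r => f (k + m) r - f k r) (cc (k + m) - cc k) := by
  induction m with
  | zero =>
    have : (fun r => f (k + 0) r - f k r) = fun _ => (0 : ℝ) := by funext r; simp
    rw [this]
    exact (att_zero le_rfl).mono (by simp)
  | succ m ih =>
    have e : (fun r => f (k + (m + 1)) r - f k r) =
        fun r => (f (k + m) r - f k r) + psi (aa (k + m)) (R (k + m)) r := by
      funext r
      rw [show k + (m + 1) = (k + m) + 1 by ring, hf (k + m)]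
      ring
    rw [e]
    refine (ih.add (psi_att (aa_pos _).le (hR _))).mono (le_of_eq ?_)
    unfold cc aa
    rw [show (2 : ℝ) ^ (k + (m + 1)) = 2 * 2 ^ (k + m) by ring]
    field_simp
    ring

lemma f_mono (hinv : ∀ k, Inv k (f k)) (hR : ∀ k, 20 ≤ R k)
    (hf : ∀ k, f (k + 1) = fun r => f k r + psi (aa k) (R k) r) (r : ℝ) :
    Monotone (fun k => f k r) := by
  refine monotone_nat_of_le_succ (fun k => ?_)
  simp only [hf k]
  have := psi_nonneg (aa_pos k).le (R k) r
  linarith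

lemma bk_le (k : ℕ) : bk k ≤ 120000 / VR 20 := by
  unfold bk
  refine div_le_div_of_nonneg_right ?_ (VR_pos (by norm_num)).le
  have : (0 : ℝ) ≤ 60000 / 2 ^ k := by positivity
  linarith

/-- the limiting attractive part -/
noncomputable def chiInf (f : ℕ → ℝ → ℝ) (r : ℝ) : ℝ := ⨆ k, f k r

lemma tendsto_chi (hinv : ∀ k, Inv k (f k)) (hR : ∀ k, 20 ≤ R k)
    (hf : ∀ k, f (k + 1) = fun r => f k r + psi (aa k) (R k) r) (r : ℝ) :
    Tendsto (fun k => f k r) atTop (𝓝 (chiInf f r)) := by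
  refine tendsto_atTop_ciSup (f_mono hinv hR hf r) ⟨120000 / VR 20, ?_⟩
  rintro _ ⟨k, rfl⟩
  exact ((hinv k).bound r).trans (bk_le k)

lemma chi_le (hinv : ∀ k, Inv k (f k)) (r : ℝ) : chiInf f r ≤ 120000 / VR 20 :=
  ciSup_le (fun k => ((hinv k).bound r).trans (bk_le k))

lemma le_chi (hinv : ∀ k, Inv k (f k)) (k : ℕ) (r : ℝ) : f k r ≤ chiInf f r := by
  refine le_ciSup (f := fun k => f k r) ⟨120000 / VR 20, ?_⟩ k
  rintro _ ⟨k, rfl⟩
  exact ((hinv k).bound r).trans (bk_le k)

lemma att_tail (hinv : ∀ k, Inv k (f k)) (hR : ∀ k, 20 ≤ R k)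
    (hf : ∀ k, f (k + 1) = fun r => f k r + psi (aa k) (R k) r) (k : ℕ) :
    Att (fun r => chiInf f r - f k r) (120000 / 2 ^ k) where
  meas := by
    refine Measurable.sub ?_ (hinv k).att.meas
    exact measurable_of_tendsto_metrizable (fun m => (hinv m).att.meas)
      (tendsto_pi_nhds.mpr (fun r => tendsto_chi hinv hR hf r))
  nonneg := fun r => sub_nonneg.mpr (le_chi hinv k r)
  strength := by
    intro n x
    have hlim : Tendsto (fun m => ∑ i, ∑ j, (f (k + m) (dist (x i) (x j)) -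
        f k (dist (x i) (x j)))) atTop
        (𝓝 (∑ i, ∑ j, (chiInf f (dist (x i) (x j)) - f k (dist (x i) (x j))))) := by
      refine tendsto_finset_sum _ (fun i _ => tendsto_finset_sum _ (fun j _ => ?_))
      refine Tendsto.sub ?_ tendsto_const_nhds
      have h1 := tendsto_chi hinv hR hf (dist (x i) (x j))
      exact h1.comp (tendsto_add_atTop_nat k |>.congr (fun m => by ring))
    refine le_of_tendsto hlim (Eventually.of_forall (fun m => ?_))
    have h1 := (att_diff hinv hR hf k m).strength n x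
    refine h1.trans (mul_le_mul_of_nonneg_right ?_ (sc_nonneg 1 0 x))
    unfold cc
    have : (0 : ℝ) ≤ 120000 / 2 ^ (k + m) := by positivity
    linarith

lemma cc_le (k : ℕ) : cc k ≤ AA / 4 := by
  unfold cc AA
  have : (0 : ℝ) ≤ 120000 / 2 ^ k := by positivity
  linarith

lemma ok_f (hinv : ∀ k, Inv k (f k)) (k : ℕ) : Ok AA (f k) :=
  ok_of_att AA_pos ((hinv k).att.mono (cc_le k)) (by have := AA_pos; linarith)

lemma att_chi (hinv : ∀ k, Inv k (f k)) (hR : ∀ k, 20 ≤ R k)
    (hf : ∀ k, f (k + 1) = fun r => f k r + psi (aa k) (R k) r) :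
    Att (chiInf f) (AA / 4) := by
  have h := (hinv 0).att.add (att_tail hinv hR hf 0)
  have e : (fun r => f 0 r + (chiInf f r - f 0 r)) = chiInf f := by funext r; ring
  rw [e] at h
  refine h.mono ?_
  unfold cc AA
  norm_num

lemma ok_chi (hinv : ∀ k, Inv k (f k)) (hR : ∀ k, 20 ≤ R k)
    (hf : ∀ k, f (k + 1) = fun r => f k r + psi (aa k) (R k) r) : Ok AA (chiInf f) :=
  ok_of_att AA_pos (att_chi hinv hR hf) (by have := AA_pos; linarith)

/-- pressures converge -/
lemma tendsto_PP_f (hinv : ∀ k, Inv k (f k)) (hR : ∀ k, 20 ≤ R k)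
    (hf : ∀ k, f (k + 1) = fun r => f k r + psi (aa k) (R k) r) (ν : ℝ) :
    Tendsto (fun k => PP AA (f k) ν) atTop (𝓝 (PP AA (chiInf f) ν)) := by
  have hok := ok_chi hinv hR hf
  have hup : ∀ k, PP AA (chiInf f) ν - BB AA ν * (1 / 2) ^ k ≤ PP AA (f k) ν := by
    intro k
    have h2k := two_pow_pos' k
    set t : ℝ := (1 / 2) ^ k with ht
    have ht0 : 0 < t := by positivity
    have ht1 : t ≤ 1 := pow_le_one₀ (by norm_num) (by norm_num)
    have htk : t * 2 ^ k = 1 := by
      rw [ht, ← mul_pow]; norm_num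
    have hatt2 : Att (fun r => f k r + 2 ^ k * (chiInf f r - f k r)) (AA / 2) := by
      refine ((hinv k).att.add ((att_tail hinv hR hf k).smul h2k.le)).mono ?_
      have e : (2 : ℝ) ^ k * (120000 / 2 ^ k) = 120000 := by field_simp
      rw [e]
      unfold cc AA
      have : (0 : ℝ) ≤ 120000 / 2 ^ k := by positivity
      linarith
    have hok2 : Ok AA (fun r => f k r + 2 ^ k * (chiInf f r - f k r)) := ⟨AA_pos, hatt2⟩
    have e : (fun r => (1 - t) * f k r + t * (f k r + 2 ^ k * (chiInf f r - f k r))) =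
        chiInf f := by
      funext r
      have : (1 - t) * f k r + t * (f k r + 2 ^ k * (chiInf f r - f k r)) =
        f k r + (t * 2 ^ k) * (chiInf f r - f k r) := by ring
      rw [this, htk]
      ring
    have h := PP_convex2 (ok_f hinv k) hok2 ht0.le ht1 (by rw [e]; exact hok) ν ν
    rw [e] at h
    have eν : (1 - t) * ν + t * ν = ν := by ring
    rw [eν] at h
    have h3 := PP_le_BB hok2 ν
    have h4 := PP_nonneg (ok_f hinv k) ν
    nlinarith
  have hlow : ∀ k, PP AA (f k) ν ≤ PP AA (chiInf f) ν := fun k =>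
    PP_mono_chi (ok_f hinv k) hok (fun r => le_chi hinv k r) ν
  refine tendsto_of_tendsto_of_tendsto_of_le_of_le ?_ tendsto_const_nhds hup hlow
  have h1 : Tendsto (fun k : ℕ => PP AA (chiInf f) ν - BB AA ν * (1 / 2 : ℝ) ^ k) atTop
      (𝓝 (PP AA (chiInf f) ν - BB AA ν * 0)) :=
    tendsto_const_nhds.sub ((tendsto_pow_atTop_nhds_zero_of_lt_one (by norm_num)
      (by norm_num)).const_mul _)
  simpa using h1

lemma tendsto_wk : Tendsto wk atTop (𝓝 0) := by
  have h : ∀ k, wk k ≤ 1 * (1 / 2 : ℝ) ^ k := by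
    intro k
    unfold wk aa dk
    have h2k := two_pow_pos' k
    have h1 : (1 : ℝ) ≤ 2 ^ (k + 1) := one_le_pow₀ (by norm_num)
    have h3 : ((1 / 10000 : ℝ) / 2 ^ (k + 1)) ^ 2 ≤ (1 / 10000) ^ 2 := by
      refine pow_le_pow_left₀ (by positivity) (div_le_self (by norm_num) h1) 2
    have h4 : (0 : ℝ) < 30000 / 2 ^ k := by positivity
    have h5 : (30000 / 2 ^ k) * ((1 / 10000 : ℝ) / 2 ^ (k + 1)) ^ 2 ≤
        (30000 / 2 ^ k) * (1 / 10000) ^ 2 := mul_le_mul_of_nonneg_left h3 h4.le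
    have h6 : (1 / 2 : ℝ) ^ k = 1 / 2 ^ k := by rw [one_div_pow]
    rw [h6]
    have h7 : (30000 : ℝ) / 2 ^ k = 30000 * (1 / 2 ^ k) := by ring
    have h8 : (0 : ℝ) < 1 / 2 ^ k := by positivity
    rw [h7] at *
    nlinarith
  refine squeeze_zero (fun k => (wk_pos k).le) h ?_
  have := (tendsto_pow_atTop_nhds_zero_of_lt_one (r := (1 / 2 : ℝ)) (by norm_num)
    (by norm_num)).const_mul 1
  simpa using this

/-- the limiting pressure has a kink -/
theorem exists_kink (hinv : ∀ k, Inv k (f k)) (hR : ∀ k, 20 ≤ R k)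
    (hf : ∀ k, f (k + 1) = fun r => f k r + psi (aa k) (R k) r) :
    ∃ ν, (∀ t y, t ≤ y → y < ν → PP AA (chiInf f) y - PP AA (chiInf f) t ≤
        12 / 10000 * (y - t)) ∧
      (∀ y t, ν < y → y ≤ t → 20 / 10000 * (t - y) ≤
        PP AA (chiInf f) t - PP AA (chiInf f) y) := by
  choose ym yp hJ hw using fun k => (hinv k).jump
  have hJ' : ∀ k, JumpAt (PP AA (f k)) (12 / 10000) (20 / 10000) (ym k) (yp k) := by
    intro k
    refine (hJ k).weaken ?_ ?_
    · unfold rmk
      have : (0 : ℝ) ≤ (1 / 10000) / 2 ^ k := by positivity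
      linarith
    · unfold rpk
      have : (0 : ℝ) ≤ (2 / 10000) / 2 ^ k := by positivity
      linarith
  have hw1 : ∀ k, yp k - ym k ≤ 1 := by
    intro k
    refine (hw k).trans ?_
    unfold wk aa dk
    have h1 : (1 : ℝ) ≤ 2 ^ (k + 1) := one_le_pow₀ (by norm_num)
    have h1' : (1 : ℝ) ≤ 2 ^ k := one_le_pow₀ (by norm_num)
    have h3 : ((1 / 10000 : ℝ) / 2 ^ (k + 1)) ^ 2 ≤ (1 / 10000) ^ 2 := by
      refine pow_le_pow_left₀ (by positivity) (div_le_self (by norm_num) h1) 2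
    have h4 : (30000 : ℝ) / 2 ^ k ≤ 30000 := div_le_self (by norm_num) h1'
    have h5 : (0 : ℝ) < 30000 / 2 ^ k := by positivity
    have h6 : (0 : ℝ) ≤ ((1 / 10000 : ℝ) / 2 ^ (k + 1)) ^ 2 := by positivity
    nlinarith
  have hlo : ∀ k, -1000 ≤ ym k := by
    intro k
    by_contra hcon
    have hcon' : ym k < -1000 := not_le.mp hcon
    have h1 := hw1 k
    have h2 : yp k ≤ 0 := by linarith
    have h3 := (hJ' k).right (yp k) 0 le_rfl h2
    have h4 := PP_le_exp (ok_f hinv k) 0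
    have h5 := PP_nonneg (ok_f hinv k) (yp k)
    rw [Real.exp_zero] at h4
    linarith
  have hhi : ∀ k, ym k ≤ 2000000 := by
    intro k
    by_contra hcon
    have hcon' : 2000000 < ym k := not_le.mp hcon
    have h1 := (hJ' k).left 0 (ym k) (by linarith) le_rfl
    have h4 := PP_le_exp (ok_f hinv k) 0
    rw [Real.exp_zero] at h4
    have hz : Ok AA (fun _ => 0) := ⟨AA_pos, att_zero (by have := AA_pos; linarith)⟩
    have h5 := PP_mono_chi hz (ok_f hinv k) (fun r => (hinv k).att.nonneg r) (ym k)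
    have h6 := (jump_base AA_pos).right (AA / 2) (ym k) le_rfl (by unfold AA; linarith)
    have h7 := PP_nonneg hz (AA / 2)
    have h8 : AA / 2 = 1000000 := by unfold AA; norm_num
    rw [h8] at h6 h7
    linarith
  have hcompact : IsCompact (Icc (-1000 : ℝ) 2000000) := isCompact_Icc
  obtain ⟨ν, _, φ, hφ, hlim⟩ := hcompact.tendsto_subseq (x := ym) (fun k => ⟨hlo k, hhi k⟩)
  have hlimp : Tendsto (yp ∘ φ) atTop (𝓝 ν) := by
    have h1 : Tendsto (fun n => ym (φ n) + wk (φ n)) atTop (𝓝 (ν + 0)) :=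
      hlim.add (tendsto_wk.comp hφ.tendsto_atTop)
    rw [add_zero] at h1
    refine tendsto_of_tendsto_of_tendsto_of_le_of_le hlim h1 ?_ ?_
    · intro n; exact (hJ (φ n)).le
    · intro n
      have := hw (φ n)
      simp only [Function.comp]
      linarith
  refine ⟨ν, ?_, ?_⟩
  · intro t y hty hy
    have hev : ∀ᶠ n in atTop, y < ym (φ n) := (tendsto_order.mp hlim).1 y hy
    have h1 := ((tendsto_PP_f hinv hR hf y).comp hφ.tendsto_atTop).sub
      ((tendsto_PP_f hinv hR hf t).comp hφ.tendsto_atTop)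
    refine le_of_tendsto h1 ?_
    filter_upwards [hev] with n hn
    exact (hJ' (φ n)).left t y hty hn.le
  · intro y t hy hyt
    have hev : ∀ᶠ n in atTop, yp (φ n) < y := (tendsto_order.mp hlimp).2 y hy
    have h1 := ((tendsto_PP_f hinv hR hf t).comp hφ.tendsto_atTop).sub
      ((tendsto_PP_f hinv hR hf y).comp hφ.tendsto_atTop)
    refine ge_of_tendsto h1 ?_
    filter_upwards [hev] with n hn
    exact (hJ' (φ n)).right y t hn.le hyt

end limit

/-- a kink is a point of nondifferentiability -/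
theorem not_diff_of_kink {P : ℝ → ℝ} (hc : Continuous P) {ν rm rp : ℝ} (hr : rm < rp)
    (hl : ∀ t y, t ≤ y → y < ν → P y - P t ≤ rm * (y - t))
    (hR : ∀ y t, ν < y → y ≤ t → rp * (t - y) ≤ P t - P y) : ¬ DifferentiableAt ℝ P ν := by
  intro hd
  have hder := hd.hasDerivAt
  rw [hasDerivAt_iff_tendsto_slope] at hder
  have h1 : deriv P ν ≤ rm := by
    have hl' : Tendsto (slope P ν) (𝓝[<] ν) (𝓝 (deriv P ν)) :=
      hder.mono_left (nhdsWithin_mono _ (fun x hx => ne_of_lt hx))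
    refine le_of_tendsto hl' ?_
    filter_upwards [self_mem_nhdsWithin] with t ht
    have ht' : t < ν := ht
    have h2 : P ν - P t ≤ rm * (ν - t) := by
      have c1 : Tendsto (fun y => P y - P t) (𝓝[<] ν) (𝓝 (P ν - P t)) :=
        ((hc.tendsto ν).mono_left nhdsWithin_le_nhds).sub tendsto_const_nhds
      have c2 : Tendsto (fun y => rm * (y - t)) (𝓝[<] ν) (𝓝 (rm * (ν - t))) := by
        have : Continuous fun y : ℝ => rm * (y - t) := by fun_prop
        exact (this.tendsto ν).mono_left nhdsWithin_le_nhds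
      refine le_of_tendsto_of_tendsto c1 c2 ?_
      have : Ioo t ν ∈ 𝓝[<] ν := Ioo_mem_nhdsLT ht'
      filter_upwards [this] with y hy
      exact hl t y hy.1.le hy.2
    rw [slope_def_field]
    rw [div_le_iff_of_neg (by linarith)]
    linarith
  have h2 : rp ≤ deriv P ν := by
    have hl' : Tendsto (slope P ν) (𝓝[>] ν) (𝓝 (deriv P ν)) :=
      hder.mono_left (nhdsWithin_mono _ (fun x hx => ne_of_gt hx))
    refine ge_of_tendsto hl' ?_
    filter_upwards [self_mem_nhdsWithin] with t ht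
    have ht' : ν < t := ht
    have h2 : rp * (t - ν) ≤ P t - P ν := by
      have c1 : Tendsto (fun y => P t - P y) (𝓝[>] ν) (𝓝 (P t - P ν)) :=
        tendsto_const_nhds.sub ((hc.tendsto ν).mono_left nhdsWithin_le_nhds)
      have c2 : Tendsto (fun y => rp * (t - y)) (𝓝[>] ν) (𝓝 (rp * (t - ν))) := by
        have : Continuous fun y : ℝ => rp * (t - y) := by fun_prop
        exact (this.tendsto ν).mono_left nhdsWithin_le_nhds
      refine le_of_tendsto_of_tendsto c2 c1 ?_
      have : Ioo ν t ∈ 𝓝[>] ν := Ioo_mem_nhdsGT ht'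
      filter_upwards [this] with y hy
      exact hR y t hy.1 hy.2.le
    rw [slope_def_field, le_div_iff₀ (by linarith)]
    linarith
  linarith

end Vale.Agent.P171
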