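import Vale.Agent.P171.Two

/-!
The explicit recursion: radii `(10^6)^(32 * 2^k)`, strengths `30000 / (2^k (10^6)^(2^k))`.
-/

open MeasureTheory Set Filter Topology
open scoped ENNReal

namespace Vale.Agent.P171

/-- scale parameter -/
noncomputable def yy (k : ℕ) : ℝ := (1000000 : ℝ) ^ (2 ^ k)

/-- actual strengths -/
noncomputable def ap (k : ℕ) : ℝ := 30000 / (2 ^ k * yy k)

/-- radii -/
noncomputable def Rr (k : ℕ) : ℝ := yy k ^ 32

/-- widths -/
noncomputable def w2 (k : ℕ) : ℝ := ap k * dk k ^ 2 / 2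

lemma yy_pos (k : ℕ) : 0 < yy k := by unfold yy; positivity

lemma yy_succ (k : ℕ) : yy (k + 1) = yy k ^ 2 := by
  unfold yy
  rw [← pow_mul]
  congr 1

lemma yy_zero : yy 0 = 1000000 := by unfold yy; norm_num

lemma yy_ge (k : ℕ) : (1000000 : ℝ) * 1000000 ^ k ≤ yy k := by
  induction k with
  | zero => rw [yy_zero]; norm_num
  | succ k ih =>
    rw [yy_succ]
    have h1 : (1000000 : ℝ) * 1000000 ^ k * (1000000 * 1000000 ^ k) ≤ yy k * yy k :=
      mul_le_mul ih ih (by positivity) (yy_pos k).le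
    have h2 : (1 : ℝ) ≤ 1000000 ^ k := one_le_pow₀ (by norm_num)
    calc (1000000 : ℝ) * 1000000 ^ (k + 1) = (1000000 * 1000000 ^ k) * 1000000 := by ring
      _ ≤ (1000000 * 1000000 ^ k) * (1000000 * 1000000 ^ k) :=
          mul_le_mul_of_nonneg_left (by linarith) (by positivity)
      _ ≤ yy k * yy k := h1
      _ = yy k ^ 2 := by ring

lemma yy_ge_million (k : ℕ) : (1000000 : ℝ) ≤ yy k := by
  refine le_trans ?_ (yy_ge k)
  have : (1 : ℝ) ≤ 1000000 ^ k := one_le_pow₀ (by norm_num)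
  linarith

lemma yy_ge_two_pow (k : ℕ) : (2 : ℝ) ^ k ≤ yy k := by
  refine le_trans ?_ (yy_ge k)
  have h1 : (2 : ℝ) ^ k ≤ 1000000 ^ k := pow_le_pow_left₀ (by norm_num) (by norm_num) k
  have h2 : (0 : ℝ) < 1000000 ^ k := by positivity
  linarith

lemma ap_pos (k : ℕ) : 0 < ap k := by
  have := yy_pos k
  unfold ap; positivity

lemma ap_le (k : ℕ) : ap k ≤ aa k := by
  unfold ap aa
  refine div_le_div_of_nonneg_left (by norm_num) (by positivity) ?_
  have := yy_ge_million k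
  have h2 : (0 : ℝ) < 2 ^ k := by positivity
  nlinarith

lemma w2_pos (k : ℕ) : 0 < w2 k := by
  have := ap_pos k; have := dk_pos k; unfold w2; positivity

lemma w2_le (k : ℕ) : w2 k ≤ wk k := by
  unfold w2 wk
  have := ap_le k
  have h := pow_pos (dk_pos k) 2
  nlinarith

/-- invariant of the explicit recursion -/
structure Inv2 (k : ℕ) (χ : ℝ → ℝ) : Prop where
  att : Att χ (cc k)
  range : ∀ r, 2 * yy k ^ 16 < r → χ r = 0
  jump : ∃ ym yp, JumpAt (PP AA χ) (rmk k) (rpk k) ym yp ∧ yp - ym ≤ w2 k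
  bound : ∀ r, χ r ≤ bk k
  decay : ∀ r, 2 * yy 0 ^ 16 < r →
    χ r ≤ (60000 - 60000 / 2 ^ k) / VR 1 * (r / 2) ^ (-(3 + 1 / 32) : ℝ)

lemma inv2_zero : Inv2 0 (psi 60000 (yy 0 ^ 16)) := by
  have h0 : Att (fun _ => (0 : ℝ)) (AA / 4) := att_zero (by unfold AA; norm_num)
  have hR20 : (20 : ℝ) ≤ yy 0 ^ 16 := by
    rw [yy_zero]; norm_num
  have hw2 : w2 0 = 3 / 80000000000 := by
    unfold w2 ap dk
    rw [yy_zero]
    norm_num
  obtain ⟨ym', yp', hJ, hw⟩ := step2 (a := 60000) AA_pos h0 (by norm_num)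
    (by unfold AA; norm_num) (D := 1) le_rfl (fun _ _ => rfl) (jump_base AA_pos) (w := 8)
    (by linarith) (δ := 1 / 1000) (κ := 1 / 10000) (w' := w2 0) (s := 1 / 100000000000)
    (Cs := 1000000000) (R := yy 0 ^ 16) (by norm_num) (by norm_num)
    (by norm_num) (by norm_num) (by norm_num) (by norm_num) (by norm_num) (by norm_num)
    (by rw [hw2]; norm_num) (by norm_num) (by norm_num) (by
      intro ν h1 h2
      have hA : AA = 2000000 := by unfold AA; norm_num
      rw [hA] at h1 h2 ⊢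
      have h3 : -5000000 ≤ ν := by
        refine le_trans ?_ h2
        norm_num
      have h4 : ν ≤ 1000000 := by linarith
      have h5 : ν ^ 2 ≤ 25000000000000 := by nlinarith
      linarith) (by norm_num) (by
      rw [yy_zero]
      norm_num) hR20
  have e : (fun r => (0 : ℝ) + psi 60000 (yy 0 ^ 16) r) = psi 60000 (yy 0 ^ 16) := by
    funext r; ring
  rw [e] at hJ
  refine ⟨?_, ?_, ?_, ?_, ?_⟩
  · refine (psi_att (by norm_num) hR20).mono ?_
    unfold cc
    norm_num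
  · exact fun r hr => psi_eq_zero _ (by positivity) hr
  · refine ⟨ym', yp', hJ.weaken ?_ ?_, hw⟩
    · unfold rmk; norm_num
    · unfold rpk; norm_num
  · intro r
    refine (psi_le_20 (by norm_num) hR20 r).trans (le_of_eq ?_)
    unfold bk
    norm_num
  · intro r hr
    rw [psi_eq_zero _ (by positivity) hr]
    have h1 := VR_one_pos
    have h2 : 0 ≤ (r / 2) ^ (-(3 + 1 / 32) : ℝ) := by
      refine Real.rpow_nonneg ?_ _
      have : 0 < yy 0 ^ 16 := by have := yy_pos 0; positivity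
      linarith
    norm_num

/-- the pointwise power bound for one attractive term -/
lemma psi_decay (k : ℕ) {r : ℝ} (hr : 0 < r) :
    psi (ap k) (Rr k) r ≤ 30000 / 2 ^ k / VR 1 * (r / 2) ^ (-(3 + 1 / 32) : ℝ) := by
  have hy := yy_pos k
  have hR : 0 < Rr k := by unfold Rr; positivity
  have hV := VR_one_pos
  have hpos : 0 ≤ (r / 2) ^ (-(3 + 1 / 32) : ℝ) := Real.rpow_nonneg (by linarith) _
  rcases lt_or_ge (2 * Rr k) r with h | h
  · rw [psi_eq_zero _ hR.le h]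
    positivity
  · refine (psi_le (ap_pos k).le hR r).trans ?_
    rw [VR_eq hR.le]
    have h1 : Rr k ^ (-(3 + 1 / 32) : ℝ) ≤ (r / 2) ^ (-(3 + 1 / 32) : ℝ) :=
      Real.rpow_le_rpow_of_nonpos (by linarith) (by linarith) (by norm_num)
    have h2 : Rr k ^ (-(3 + 1 / 32) : ℝ) = (Rr k ^ 3)⁻¹ * (yy k)⁻¹ := by
      rw [Real.rpow_neg hR.le, Real.rpow_add hR, mul_inv]
      congr 2
      · exact_mod_cast Real.rpow_natCast (Rr k) 3
      · unfold Rr
        rw [← Real.rpow_natCast (yy k) 32, ← Real.rpow_mul hy.le]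
        norm_num
    rw [h2] at h1
    have h3 : ap k / (Rr k ^ 3 * VR 1) = 30000 / 2 ^ k / VR 1 * ((Rr k ^ 3)⁻¹ * (yy k)⁻¹) := by
      unfold ap
      field_simp
    rw [h3]
    exact mul_le_mul_of_nonneg_left h1 (by positivity)

/-- the distance used to convert a pressure error into a jump -/
noncomputable def ss (k : ℕ) : ℝ := 2 / 1000000 / (8 ^ k * yy k ^ 2)

lemma ss_pos (k : ℕ) : 0 < ss k := by
  have := yy_pos k
  unfold ss; positivity

lemma h8k (k : ℕ) : (8 : ℝ) ^ k = 2 ^ k * 2 ^ k * 2 ^ k := by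
  rw [← mul_pow, ← mul_pow]; norm_num

lemma yy_sq_one (k : ℕ) : (1 : ℝ) ≤ yy k ^ 2 :=
  one_le_pow₀ (by have := yy_ge_million k; linarith)

lemma ss_le_one (k : ℕ) : ss k ≤ 1 := by
  have hy := yy_pos k
  have h8one : (1 : ℝ) ≤ 8 ^ k := one_le_pow₀ (by norm_num)
  have hyy2 := yy_sq_one k
  unfold ss
  rw [div_le_iff₀ (by positivity)]
  nlinarith

lemma ss_w2 (k : ℕ) : 2 * ss k ≤ w2 (k + 1) := by
  have hy := yy_pos k
  have h2k := two_pow_pos' k
  have e2 : (2 : ℝ) ^ (k + 1) = 2 * 2 ^ k := by ring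
  have e : w2 (k + 1) = 3 / 640000 * (1 / (8 ^ k * yy k ^ 2)) := by
    unfold w2 ap dk
    rw [yy_succ, h8k]
    rw [show (2 : ℝ) ^ (k + 1 + 1) = 4 * 2 ^ k by ring, e2]
    field_simp
    norm_num
  rw [e]
  unfold ss
  have hp : 0 < 1 / (8 ^ k * yy k ^ 2) := by positivity
  have e3 : 2 * (2 / 1000000 / (8 ^ k * yy k ^ 2)) = 4 / 1000000 * (1 / (8 ^ k * yy k ^ 2)) := by
    ring
  rw [e3]
  refine mul_le_mul_of_nonneg_right ?_ hp.le
  norm_num

lemma ss_dk (k : ℕ) : ss k + ss k / (2 * ap k) ≤ dk k := by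
  have hy := yy_pos k
  have hy6 := yy_ge_million k
  have h2k := two_pow_pos' k
  have h2one : (1 : ℝ) ≤ 2 ^ k := one_le_pow₀ (by norm_num)
  have e2 : (2 : ℝ) ^ (k + 1) = 2 * 2 ^ k := by ring
  have e1 : ss k = 2 / 1000000 * (1 / (8 ^ k * yy k ^ 2)) := by unfold ss; ring
  have hsA : ss k ≤ 2 / 1000000 * (1 / (2 * 2 ^ k)) := by
    rw [e1]
    refine mul_le_mul_of_nonneg_left ?_ (by norm_num)
    refine one_div_le_one_div_of_le (by positivity) ?_
    have h1 : (2 : ℝ) ^ k ≤ 8 ^ k := pow_le_pow_left₀ (by norm_num) (by norm_num) k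
    have h2 : (2 : ℝ) ≤ yy k ^ 2 := by nlinarith
    have h3 : (2 : ℝ) ^ k * 2 ≤ 8 ^ k * yy k ^ 2 :=
      mul_le_mul h1 h2 (by norm_num) (by positivity)
    linarith
  have hsB : ss k / (2 * ap k) ≤ 1 / 100000 * (1 / (2 * 2 ^ k)) := by
    have e4 : ss k / (2 * ap k) = 2 / 60000000000 * (2 ^ k / 8 ^ k) / yy k := by
      rw [e1]
      unfold ap
      field_simp
      norm_num
    have e5 : (2 : ℝ) ^ k / 8 ^ k ≤ 1 / 2 ^ k := by
      rw [div_le_div_iff₀ (by positivity) h2k, h8k, one_mul]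
      nlinarith [mul_pos h2k h2k]
    have e6 : 2 / 60000000000 * (2 ^ k / 8 ^ k) / yy k ≤ 2 / 60000000000 * (1 / 2 ^ k) / 1 := by
      refine div_le_div₀ (by positivity) ?_ one_pos (by linarith)
      exact mul_le_mul_of_nonneg_left e5 (by norm_num)
    rw [e4]
    refine e6.trans ?_
    have e7 : (0 : ℝ) < 1 / 2 ^ k := by positivity
    have e8 : (1 : ℝ) / 100000 * (1 / (2 * 2 ^ k)) = 1 / 200000 * (1 / 2 ^ k) := by
      field_simp
      norm_num
    rw [e8, div_one]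
    exact mul_le_mul_of_nonneg_right (by norm_num) e7.le
  have hdk : dk k = 1 / 10000 * (1 / (2 * 2 ^ k)) := by
    unfold dk
    rw [e2]
    field_simp
  have hp : (0 : ℝ) < 1 / (2 * 2 ^ k) := by positivity
  rw [hdk]
  linarith

lemma ap_range (k : ℕ) : 1 ≤ ap k * (2 * yy k ^ 16) ^ 3 := by
  have hy := yy_pos k
  have hy6 := yy_ge_million k
  have h2k := two_pow_pos' k
  have e1 : ap k * (2 * yy k ^ 16) ^ 3 = 240000 * (yy k ^ 47 / 2 ^ k) := by
    unfold ap
    field_simp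
    norm_num
  rw [e1]
  have h1 : (1 : ℝ) ≤ yy k ^ 47 / 2 ^ k := by
    rw [one_le_div h2k]
    refine (yy_ge_two_pow k).trans ?_
    have h1 : yy k ^ 1 ≤ yy k ^ 47 := pow_le_pow_right₀ (by linarith) (by norm_num)
    rwa [pow_one] at h1
  linarith

lemma radius_big (k : ℕ) :
    2688 * (2 * yy k ^ 16) * (4 * 1000000000 / ss k ^ 2) ^ 2 ≤ Rr k := by
  have hy := yy_pos k
  have e1 : 4 * 1000000000 / ss k ^ 2 = 10 ^ 21 * (64 ^ k * yy k ^ 4) := by
    unfold ss
    have h64 : (64 : ℝ) ^ k = 8 ^ k * 8 ^ k := by rw [← mul_pow]; norm_num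
    rw [h64]
    field_simp
    norm_num
  rw [e1]
  have e3 : 2688 * (2 * yy k ^ 16) * (10 ^ 21 * (64 ^ k * yy k ^ 4)) ^ 2 =
      (5376 * 10 ^ 42 * (4096 : ℝ) ^ k) * yy k ^ 24 := by
    have h4096 : (4096 : ℝ) ^ k = 64 ^ k * 64 ^ k := by rw [← mul_pow]; norm_num
    rw [h4096]
    ring
  rw [e3]
  unfold Rr
  have e4 : yy k ^ 32 = yy k ^ 8 * yy k ^ 24 := by ring
  rw [e4]
  refine mul_le_mul_of_nonneg_right ?_ (by positivity)
  have h1 := pow_le_pow_left₀ (by positivity) (yy_ge k) 8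
  refine le_trans ?_ h1
  have e5 : ((1000000 : ℝ) * 1000000 ^ k) ^ 8 = 10 ^ 48 * (10 ^ 48) ^ k := by
    rw [mul_pow, ← pow_mul, mul_comm k 8, pow_mul]
    norm_num
  rw [e5]
  have h3 : (4096 : ℝ) ^ k ≤ (10 ^ 48) ^ k := pow_le_pow_left₀ (by norm_num) (by norm_num) k
  exact mul_le_mul (by norm_num) h3 (by positivity) (by norm_num)

lemma rr20 (k : ℕ) : 20 ≤ Rr k := by
  have hy6 := yy_ge_million k
  unfold Rr
  have h1 : yy k ^ 1 ≤ yy k ^ 32 := pow_le_pow_right₀ (by linarith) (by norm_num)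
  rw [pow_one] at h1
  linarith

lemma aa_le (k : ℕ) : aa k ≤ 30000 := by
  unfold aa
  exact div_le_self (by norm_num) (one_le_pow₀ (by norm_num))

lemma nu_bound {a ym yp ν : ℝ} (ha : a ≤ 30000) (hym : -1000 ≤ ym) (hym2 : ym ≤ 2000000)
    (hle : ym ≤ yp) (hw1 : yp - ym ≤ 1) (h1 : ν ≤ yp)
    (h2 : ym - (a + 4 * (1 + 2 * yp ^ 2 / AA)) ≤ ν) : 1 + 2 * ν ^ 2 / AA ≤ 1000000000 := by
  have hA : AA = 2000000 := by unfold AA; norm_num
  rw [hA] at h2 ⊢
  have hyp : yp ≤ 2000001 := by linarith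
  have hyp0 : -1000 ≤ yp := by linarith
  have h3 : yp ^ 2 ≤ 5000000000000 := by nlinarith
  have h4 : -21000000 ≤ ν := by linarith
  have h5 : ν ≤ 21000000 := by linarith
  have h6 : ν ^ 2 ≤ 441000000000000 := by nlinarith
  linarith

lemma inv2_jump (k : ℕ) (χ : ℝ → ℝ) (h : Inv2 k χ) :
    ∃ ym yp, JumpAt (PP AA (fun r => χ r + psi (ap k) (Rr k) r)) (rmk (k + 1)) (rpk (k + 1))
      ym yp ∧ yp - ym ≤ w2 (k + 1) := by
  have h2k := two_pow_pos' k
  obtain ⟨ym, yp, hJ, hw⟩ := h.jump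
  have hy := yy_pos k
  have hy6 := yy_ge_million k
  have ha := ap_pos k
  have haa := ap_le k
  have haa1 := aa_le k
  have hd := dk_pos k
  have hle1 : (1 : ℝ) ≤ 2 ^ k := one_le_pow₀ (by norm_num)
  have hd1 : dk k ≤ 1 / 10000 := by
    unfold dk
    exact div_le_self (by norm_num) (one_le_pow₀ (by norm_num))
  have hrm0 : 0 ≤ rmk k := by
    unfold rmk
    have : (1 / 10000 : ℝ) / 2 ^ k ≤ 1 / 10000 := div_le_self (by norm_num) hle1
    linarith
  have hrp1 : rpk k ≤ 22 / 10000 := by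
    unfold rpk
    have : (2 / 10000 : ℝ) / 2 ^ k ≤ 2 / 10000 := div_le_self (by norm_num) hle1
    linarith
  have hc4 : cc k ≤ AA / 4 := cc_le k
  have haA : 32 * ap k ≤ AA := by
    unfold AA
    linarith
  have e2 : (2 : ℝ) ^ (k + 1) = 2 * 2 ^ k := by ring
  have hgap : rmk k < rpk k - dk k := by
    unfold rmk rpk dk
    have h1 : (1 / 10000 : ℝ) / 2 ^ (k + 1) ≤ 1 / 10000 :=
      div_le_self (by norm_num) (one_le_pow₀ (by norm_num))
    have h2 : (0 : ℝ) ≤ (1 / 10000) / 2 ^ k := by positivity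
    have h3 : (0 : ℝ) ≤ (2 / 10000) / 2 ^ k := by positivity
    linarith
  have hJ0 : JumpAt (PP AA χ) (12 / 10000) (20 / 10000) ym yp := by
    refine hJ.weaken ?_ ?_
    · unfold rmk
      have : (0 : ℝ) ≤ (1 / 10000) / 2 ^ k := by positivity
      linarith
    · unfold rpk
      have : (0 : ℝ) ≤ (2 / 10000) / 2 ^ k := by positivity
      linarith
  have hok : Ok AA χ := ok_of_att AA_pos (h.att.mono hc4) (by have := AA_pos; linarith)
  have hd2 : dk k ^ 2 ≤ 1 / 100000000 := by nlinarith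
  have hw1 : yp - ym ≤ 1 := by
    refine hw.trans ((w2_le k).trans ?_)
    unfold wk
    have : aa k * dk k ^ 2 ≤ 30000 * (1 / 100000000) :=
      mul_le_mul haa1 hd2 (by positivity) (by norm_num)
    linarith
  obtain ⟨hym, hym2⟩ := jump_loc hok h.att hJ0 hw1
  have hD1 : (1 : ℝ) ≤ 2 * yy k ^ 16 := by
    have : (1 : ℝ) ≤ yy k ^ 16 := one_le_pow₀ (by linarith)
    linarith
  have hadk : ap k * dk k ^ 2 ≤ ap k * dk k := by
    have h3 : dk k ^ 2 ≤ dk k := by nlinarith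
    exact mul_le_mul_of_nonneg_left h3 ha.le
  have hadk0 : 0 < ap k * dk k ^ 2 := by positivity
  have c1 : 2 * rpk k * w2 k ≤ ap k * dk k ^ 2 := by
    unfold w2
    have : rpk k * (ap k * dk k ^ 2) ≤ 1 * (ap k * dk k ^ 2) :=
      mul_le_mul_of_nonneg_right (by linarith) hadk0.le
    linarith
  have c2 : w2 k ≤ ap k * dk k := by
    unfold w2
    linarith
  obtain ⟨ym', yp', hJ', hw'⟩ := step2 (a := ap k) AA_pos (h.att.mono hc4) ha haA hD1 h.range
    hJ hw (δ := dk k) (κ := dk k) (w' := w2 (k + 1)) (s := ss k) (Cs := 1000000000) (R := Rr k)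
    hd hrm0 hgap (by linarith) c1 c2 (ss_pos k) (ss_le_one k) (ss_w2 k) (ss_dk k) (by norm_num)
    (fun ν h1 h2 => nu_bound (haa.trans haa1) hym hym2 hJ.le hw1 h1 h2)
    (ap_range k) (radius_big k) (rr20 k)
  refine ⟨ym', yp', hJ'.weaken (le_of_eq ?_) (le_of_eq ?_), hw'⟩
  · unfold rmk dk
    rw [e2]
    field_simp
    ring
  · unfold rpk dk
    rw [e2]
    field_simp
    ring

lemma inv2_step (k : ℕ) (χ : ℝ → ℝ) (h : Inv2 k χ) :
    Inv2 (k + 1) (fun r => χ r + psi (ap k) (Rr k) r) := by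
  have h2k := two_pow_pos' k
  have hy := yy_pos k
  have hy6 := yy_ge_million k
  have ha := ap_pos k
  have haa := ap_le k
  have hRr20 := rr20 k
  have e2 : (2 : ℝ) ^ (k + 1) = 2 * 2 ^ k := by ring
  refine ⟨?_, ?_, inv2_jump k χ h, ?_, ?_⟩
  · refine (h.att.add (psi_att ha.le hRr20)).mono ?_
    have e4 : cc k + 2 * aa k = cc (k + 1) := by
      unfold cc aa
      rw [e2]
      field_simp
      ring
    linarith
  · intro r hr
    have e5 : 2 * yy (k + 1) ^ 16 = 2 * Rr k := by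
      unfold Rr
      rw [yy_succ]
      ring
    rw [e5] at hr
    have h5 : 2 * yy k ^ 16 ≤ 2 * Rr k := by
      unfold Rr
      have := pow_le_pow_right₀ (show (1 : ℝ) ≤ yy k by linarith) (show 16 ≤ 32 by norm_num)
      linarith
    rw [h.range r (by linarith), psi_eq_zero _ (by linarith) hr, add_zero]
  · intro r
    have h1 := h.bound r
    have h2 := psi_le_20 ha.le hRr20 r
    have hV20 := VR_pos (show (0 : ℝ) < 20 by norm_num)
    have h4 : ap k / VR 20 ≤ aa k / VR 20 := div_le_div_of_nonneg_right haa hV20.le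
    have h3 : bk k + aa k / VR 20 = bk (k + 1) := by
      unfold bk aa
      rw [e2]
      field_simp
      ring
    linarith
  · intro r hr
    have hr0 : 0 < r := by
      have : 0 < yy 0 ^ 16 := by have := yy_pos 0; positivity
      linarith
    have h1 := h.decay r hr
    have h2 := psi_decay k hr0
    have hV := VR_one_pos
    have e6 : (60000 - 60000 / 2 ^ k) / VR 1 * (r / 2) ^ (-(3 + 1 / 32) : ℝ) +
        30000 / 2 ^ k / VR 1 * (r / 2) ^ (-(3 + 1 / 32) : ℝ) =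
        (60000 - 60000 / 2 ^ (k + 1)) / VR 1 * (r / 2) ^ (-(3 + 1 / 32) : ℝ) := by
      rw [e2]
      field_simp
      ring
    linarith

end Vale.Agent.P171
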