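import Vale.Agent.P171.Seq

/-!
Quantitative version of the recursion: explicit radii and strengths, which gives a two-sided
power bound on the limiting potential.
-/

open MeasureTheory Set Filter Topology
open scoped ENNReal

namespace Vale.Agent.P171

/-- **Mean-field upper bound, explicit conditions.** -/
theorem PP_add_upper_explicit {A a : ℝ} {χ : ℝ → ℝ} (hA : 0 < A) (hχ : Att χ (A / 4)) (ha : 0 < a)
    (hA32 : 32 * a ≤ A) {D : ℝ} (hD : 0 ≤ D) (hrange : ∀ r, D < r → χ r = 0) {ν T : ℝ}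
    (hT : ∀ m : ℝ, 0 ≤ m → PP A χ (ν + a * m) - a * m ^ 2 / 2 ≤ T) {ε lam l R : ℝ}
    (hlam0 : 0 < lam) (hlam1 : lam ≤ 1) (hlamC : 3 / 2 * lam * (1 + 2 * ν ^ 2 / A) ≤ 3 / 8 * ε)
    (hlpos : 0 < l) (hl1 : D / l ≤ lam / 12) (hl2 : ((l + 2) / l) ^ 3 - 1 ≤ lam / 2)
    (hl3 : Real.log (1 + (4 / (lam * a)) * l ^ 3) / l ^ 3 ≤ ε / 2)
    (hxi : ((R + 2 * l) / R) ^ 6 - 1 ≤ lam / 4) (hR20 : 20 ≤ R) :
    PP A (fun r => χ r + psi a R r) ν ≤ T + ε := by
  set C := 1 + 2 * ν ^ 2 / A with hC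
  have hC0 : 0 < C := by positivity
  have hε : 0 < ε := by
    have : 0 < 3 / 2 * lam * C := by positivity
    linarith
  obtain ⟨K, hKbig⟩ := exists_nat_gt (12 / lam)
  have hKr : (0 : ℝ) < K := lt_trans (by positivity) hKbig
  have hK : 0 < K := by exact_mod_cast hKr
  have hK1 : 1 / (K : ℝ) ≤ lam / 12 := by
    rw [div_le_iff₀ hKr]
    rw [div_lt_iff₀ hlam0] at hKbig
    linarith
  have hR0 : 0 < R := by linarith
  have hnew : Ok A (fun r => χ r + psi a R r) :=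
    ok_of_att hA (hχ.add (psi_att ha.le hR20)) (by linarith)
  have hY := Y_bound hA hχ ha hA32 hR0 hlpos hlam0 hlam1 hT hl2 hxi
  set Y := GC (hbox l) (EG (HH ν (a * ((R + 2 * l) / R) ^ 6 / (2 * l ^ 3))
        (pot A (fun r => (1 + lam) * χ r)))) with hYdef
  set y := l ^ 3 * (T + 3 / 2 * lam * C) + Real.log (1 + 1 / (lam * a / (4 * l ^ 3))) with hy
  have hYy : Y ≤ ENNReal.ofReal (Real.exp y) := by
    refine hY.trans (le_of_eq ?_)
    rw [hy, Real.exp_add, Real.exp_log (by positivity)]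
  have hfin : ∀ M : ℕ, lnXi A (fun r => χ r + psi a R r) (M * l) ν ≤
      Real.log K + ((M : ℝ) + 1) ^ 3 * y := by
    intro M
    rw [lnXi_le_iff hnew (by positivity)]
    refine (XiE_add_upper hA hχ ha.le hR0 hD hrange hlpos hlam0 hlam1 hK (by linarith) ν M).trans ?_
    calc (K : ℝ≥0∞) * Y ^ ((M + 1) ^ 3)
        ≤ (K : ℝ≥0∞) * (ENNReal.ofReal (Real.exp y)) ^ ((M + 1) ^ 3) := by gcongr
      _ = _ := by
          rw [← ENNReal.ofReal_pow (Real.exp_pos _).le, ← Real.exp_nat_mul,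
            ← ENNReal.ofReal_natCast, ← ENNReal.ofReal_mul hKr.le, Real.exp_add,
            Real.exp_log hKr]
          push_cast
          rfl
  have hlimL : Tendsto (fun M : ℕ => ((M : ℝ) * l)) atTop atTop :=
    tendsto_natCast_atTop_atTop.atTop_mul_const hlpos
  have h1 := (tendsto_PP hnew ν).comp hlimL
  have h2 : Tendsto (fun M : ℕ => Real.log K / ((M : ℝ) * l) ^ 3 +
      (((M : ℝ) + 1) / M) ^ 3 * (y / l ^ 3)) atTop (𝓝 (0 + 1 ^ 3 * (y / l ^ 3))) := by
    refine Tendsto.add ?_ ?_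
    · refine tendsto_const_nhds.div_atTop ?_
      exact (tendsto_pow_atTop (α := ℝ) (n := 3) (by norm_num)).comp hlimL
    · refine Tendsto.mul_const _ (Tendsto.pow ?_ 3)
      exact (tendsto_shift_div 1).comp tendsto_natCast_atTop_atTop
  have h3 : PP A (fun r => χ r + psi a R r) ν ≤ 0 + 1 ^ 3 * (y / l ^ 3) := by
    refine le_of_tendsto_of_tendsto h1 h2 ?_
    filter_upwards [eventually_gt_atTop 0] with M hM
    have hMr : (0 : ℝ) < M := by exact_mod_cast hM
    simp only [Function.comp]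
    have h4 := mul_le_mul_of_nonneg_left (hfin M)
      (show 0 ≤ (((M : ℝ) * l) ^ 3)⁻¹ by positivity)
    refine h4.trans (le_of_eq ?_)
    field_simp
  rw [zero_add, one_pow, one_mul] at h3
  refine h3.trans ?_
  have e : y / l ^ 3 = T + 3 / 2 * lam * C +
      Real.log (1 + (4 / (lam * a)) * l ^ 3) / l ^ 3 := by
    rw [hy]
    have : 1 / (lam * a / (4 * l ^ 3)) = (4 / (lam * a)) * l ^ 3 := by field_simp
    rw [this]
    field_simp
  rw [e]
  linarith

lemma log_one_add_sq_le {u : ℝ} (hu : 0 ≤ u) : Real.log (1 + u ^ 2) ≤ 2 * u := by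
  rw [← Real.log_exp (2 * u)]
  refine Real.log_le_log (by positivity) ?_
  have h1 : u + 1 ≤ Real.exp u := Real.add_one_le_exp u
  have h2 : Real.exp (2 * u) = Real.exp u ^ 2 := by
    rw [← Real.exp_nat_mul]; norm_num
  rw [h2]
  nlinarith [Real.exp_pos u]

lemma pow6_bound {x : ℝ} (hx0 : 0 ≤ x) (hx : x ≤ 1 / 48) : (1 + x) ^ 6 - 1 ≤ 12 * x := by
  have h2 : x ^ 2 ≤ x / 48 := by nlinarith
  have h3 : x ^ 3 ≤ x / 48 := by
    have : x ^ 3 = x ^ 2 * x := by ring
    nlinarith [pow_nonneg hx0 2]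
  have h4 : x ^ 4 ≤ x / 48 := by
    have : x ^ 4 = x ^ 3 * x := by ring
    nlinarith [pow_nonneg hx0 3]
  have h5 : x ^ 5 ≤ x / 48 := by
    have : x ^ 5 = x ^ 4 * x := by ring
    nlinarith [pow_nonneg hx0 4]
  have h6 : x ^ 6 ≤ x / 48 := by
    have : x ^ 6 = x ^ 5 * x := by ring
    nlinarith [pow_nonneg hx0 5]
  have e : (1 + x) ^ 6 - 1 = 6 * x + 15 * x ^ 2 + 20 * x ^ 3 + 15 * x ^ 4 + 6 * x ^ 5 + x ^ 6 := by
    ring
  rw [e]
  linarith

/-- **Mean-field upper bound with an explicit radius.** -/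
theorem PP_add_upper2 {A a : ℝ} {χ : ℝ → ℝ} (hA : 0 < A) (hχ : Att χ (A / 4)) (ha : 0 < a)
    (hA32 : 32 * a ≤ A) {D : ℝ} (hD : 1 ≤ D) (hrange : ∀ r, D < r → χ r = 0) {ν T : ℝ}
    (hT : ∀ m : ℝ, 0 ≤ m → PP A χ (ν + a * m) - a * m ^ 2 / 2 ≤ T) {ε Cs R : ℝ}
    (hε : 0 < ε) (hε1 : ε ≤ 1) (hCs : 1 ≤ Cs) (hC : 1 + 2 * ν ^ 2 / A ≤ Cs)
    (haD : 1 ≤ a * D ^ 3) (hR : 2688 * D * (4 * Cs / ε) ^ 2 ≤ R) :
    PP A (fun r => χ r + psi a R r) ν ≤ T + ε := by
  have hCs0 : 0 < Cs := by linarith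
  have hD0 : 0 < D := by linarith
  set lam := ε / (4 * Cs) with hlam
  have hlam0 : 0 < lam := by positivity
  have hlam1 : lam ≤ 1 := by
    rw [hlam, div_le_iff₀ (by positivity)]
    linarith
  have hlε : ε = 4 * Cs * lam := by rw [hlam]; field_simp
  have hinv : 4 * Cs / ε = 1 / lam := by rw [hlam]; field_simp
  set l := 28 * D / lam with hl
  have hlpos : 0 < l := by positivity
  have hllam : l * lam = 28 * D := by rw [hl]; field_simp
  have hRl : 96 * l ≤ R * lam := by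
    rw [hinv] at hR
    have h1 : 2688 * D * (1 / lam) ^ 2 * lam ≤ R * lam := mul_le_mul_of_nonneg_right hR hlam0.le
    have h2 : 2688 * D * (1 / lam) ^ 2 * lam = 96 * l := by rw [hl]; field_simp; ring
    linarith
  have hl28 : 28 ≤ l := by
    have : l * lam ≤ l * 1 := mul_le_mul_of_nonneg_left hlam1 hlpos.le
    nlinarith
  have hRpos : 96 * l ≤ R := by
    have hR0 : 0 ≤ R := by
      by_contra hcon
      have : R * lam < 0 := mul_neg_of_neg_of_pos (not_le.mp hcon) hlam0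
      linarith
    have : R * lam ≤ R * 1 := mul_le_mul_of_nonneg_left hlam1 hR0
    linarith
  have hR0 : 0 < R := by linarith
  refine PP_add_upper_explicit hA hχ ha hA32 hD0.le hrange hT hlam0 hlam1 (l := l) ?_ hlpos ?_ ?_
    ?_ ?_ (by linarith)
  · rw [hlε]
    have : lam * (1 + 2 * ν ^ 2 / A) ≤ lam * Cs := mul_le_mul_of_nonneg_left hC hlam0.le
    linarith
  · rw [div_le_iff₀ hlpos]
    nlinarith
  · have e : (l + 2) / l = 1 + 2 / l := by field_simp
    rw [e]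
    set x := 2 / l with hx
    have hx0 : 0 < x := by positivity
    have hxl : x * l = 2 := by rw [hx]; field_simp
    have hx1 : x ≤ 1 / 14 := by
      rw [hx, div_le_iff₀ hlpos]; linarith
    have hx2 : 14 * x ≤ lam := by
      have h1 : 14 * x * l ≤ lam * l := by
        have : 14 * x * l = 28 := by linarith
        rw [this]
        linarith
      exact le_of_mul_le_mul_right h1 hlpos
    have e2 : (1 + x) ^ 3 - 1 = 3 * x + 3 * x ^ 2 + x ^ 3 := by ring
    rw [e2]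
    have h2 : x ^ 2 ≤ x / 14 := by nlinarith
    have h3 : x ^ 3 ≤ x / 14 := by
      have : x ^ 3 = x ^ 2 * x := by ring
      nlinarith [pow_nonneg hx0.le 2]
    linarith
  · set y := 4 / (lam * a) * l ^ 3 with hy
    have hy0 : 0 < y := by positivity
    have h1 : Real.log (1 + y) ≤ 2 * Real.sqrt y := by
      have := log_one_add_sq_le (Real.sqrt_nonneg y)
      rwa [Real.sq_sqrt hy0.le] at this
    rw [div_le_iff₀ (by positivity)]
    refine h1.trans ?_
    have h2 : Real.sqrt y ≤ ε / 4 * l ^ 3 := by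
      rw [Real.sqrt_le_left (by positivity)]
      rw [hy, hlε]
      have h3 : 4 ≤ (Cs * lam) ^ 2 * (lam * a) * l ^ 3 := by
        have e3 : (Cs * lam) ^ 2 * (lam * a) * l ^ 3 = Cs ^ 2 * a * (l * lam) ^ 3 := by ring
        rw [e3, hllam]
        have h4 : 1 ≤ Cs ^ 2 := one_le_pow₀ hCs
        have h5 : Cs ^ 2 * a * (28 * D) ^ 3 = 21952 * (Cs ^ 2 * (a * D ^ 3)) := by ring
        rw [h5]
        have h6 : 1 * 1 ≤ Cs ^ 2 * (a * D ^ 3) := mul_le_mul h4 haD zero_le_one (by positivity)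
        linarith
      have h7 : 4 / (lam * a) * l ^ 3 ≤ (Cs * lam) ^ 2 * l ^ 3 * l ^ 3 := by
        rw [div_mul_eq_mul_div, div_le_iff₀ (by positivity)]
        have := mul_le_mul_of_nonneg_right h3 (show 0 ≤ l ^ 3 by positivity)
        nlinarith
      calc 4 / (lam * a) * l ^ 3 ≤ (Cs * lam) ^ 2 * l ^ 3 * l ^ 3 := h7
        _ = (4 * Cs * lam / 4 * l ^ 3) ^ 2 := by ring
    linarith
  · have e : (R + 2 * l) / R = 1 + 2 * l / R := by field_simp
    rw [e]
    set x := 2 * l / R with hx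
    have hx0 : 0 ≤ x := by positivity
    have hx2 : 48 * x ≤ lam := by
      rw [hx]
      have : 48 * (2 * l / R) = 96 * l / R := by ring
      rw [this, div_le_iff₀ hR0]
      linarith
    have := pow6_bound hx0 (by linarith)
    linarith

/-- **Existence of a mean-field coexistence point**, with bounds on its location. -/
theorem mf_coexist2 {P : ℝ → ℝ} (hconv : ConvexOn ℝ univ P) (hmono : Monotone P)
    (hpos : ∀ y, 0 ≤ P y) (hexp : ∀ y, P y ≤ Real.exp y) {A : ℝ} (hA : 0 < A)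
    (hB : ∀ y, P y ≤ 1 + y ^ 2 / A) {rm rp ym yp w a δ : ℝ} (hJ : JumpAt P rm rp ym yp)
    (hw : yp - ym ≤ w) (ha : 0 < a) (hA32 : 32 * a ≤ A) (hδ : 0 < δ) (hrm : 0 ≤ rm)
    (hgap : rm < rp - δ) (h1 : 2 * rp * w ≤ a * δ ^ 2) (h2 : w ≤ a * δ) :
    ∃ ν T m1 m2 : ℝ, m1 ≤ rm ∧ rp - δ ≤ m2 ∧ Phi P a ν m1 = T ∧ Phi P a ν m2 = T ∧
      (∀ m, 0 ≤ m → Phi P a ν m ≤ T) ∧ ν ≤ yp ∧
      m2 ≤ max rp (max 1 (4 * (1 + 2 * yp ^ 2 / A) / a)) := by
  have hrp : 0 ≤ rp := by linarith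
  have hm0 : 0 < rp - δ := by linarith
  have hcont := continuous_of_convex hconv
  set C := 1 + 2 * yp ^ 2 / A with hC
  have hC0 : 0 < C := by positivity
  set M := max rp (max 1 (4 * C / a)) with hM
  have hMrp : rp ≤ M := le_max_left _ _
  have hM1 : 1 ≤ M := le_trans (le_max_left _ _) (le_max_right _ _)
  have hMC : 4 * C ≤ a * M := by
    have : 4 * C / a ≤ M := le_trans (le_max_right _ _) (le_max_right _ _)
    rw [div_le_iff₀ ha] at this
    linarith
  have hbig : ∀ ν m, ν ≤ yp → M ≤ m → Phi P a ν m ≤ 0 := by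
    intro ν m hν hm
    unfold Phi
    have h3 : P (ν + a * m) ≤ P (yp + a * m) := hmono (by linarith)
    have h4 := hB (yp + a * m)
    have h5 : (yp + a * m) ^ 2 / A ≤ 2 * yp ^ 2 / A + a * m ^ 2 / 16 := by
      rw [div_add_div _ _ hA.ne' (by norm_num : (16 : ℝ) ≠ 0), div_le_div_iff₀ hA (by positivity)]
      have h2 : (yp + a * m) ^ 2 ≤ 2 * yp ^ 2 + 2 * (a * m) ^ 2 := by
        nlinarith [sq_nonneg (yp - a * m)]
      have h3 : 32 * (a * m) ^ 2 ≤ A * (a * m ^ 2) := by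
        have : 0 ≤ a * m ^ 2 := by positivity
        nlinarith
      nlinarith [mul_nonneg hA.le (sub_nonneg.mpr h2), mul_nonneg hA.le (sub_nonneg.mpr h3)]
    have h6 : 4 * C ≤ a * m ^ 2 := by
      have h7 : a * M ≤ a * m := mul_le_mul_of_nonneg_left hm ha.le
      have h8 : a * m * 1 ≤ a * m * m := mul_le_mul_of_nonneg_left (by linarith) (by
        have : 0 < m := by linarith
        positivity)
      nlinarith
    nlinarith
  have hPhiCont : Continuous (Function.uncurry fun ν m => Phi P a ν m) := by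
    unfold Phi Function.uncurry
    fun_prop
  set K1 := Icc (0 : ℝ) rm with hK1
  set K2 := Icc (rp - δ) M with hK2
  have c1 : IsCompact K1 := isCompact_Icc
  have c2 : IsCompact K2 := isCompact_Icc
  have n1 : K1.Nonempty := ⟨0, by rw [hK1]; exact ⟨le_rfl, hrm⟩⟩
  have hrpK2 : rp ∈ K2 := by rw [hK2]; exact ⟨by linarith, hMrp⟩
  have n2 : K2.Nonempty := ⟨rp, hrpK2⟩
  set h1f : ℝ → ℝ := fun ν => sSup ((fun m => Phi P a ν m) '' K1) with hh1
  set h2f : ℝ → ℝ := fun ν => sSup ((fun m => Phi P a ν m) '' K2) with hh2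
  have k1 : Continuous h1f := c1.continuous_sSup hPhiCont
  have k2 : Continuous h2f := c2.continuous_sSup hPhiCont
  have hc : ∀ ν, Continuous (fun m => Phi P a ν m) := by
    intro ν
    unfold Phi
    fun_prop
  have le1 : ∀ ν m, m ∈ K1 → Phi P a ν m ≤ h1f ν := by
    intro ν m hm
    exact le_csSup (c1.image (hc ν)).bddAbove (mem_image_of_mem _ hm)
  have le2 : ∀ ν m, m ∈ K2 → Phi P a ν m ≤ h2f ν := by
    intro ν m hm
    exact le_csSup (c2.image (hc ν)).bddAbove (mem_image_of_mem _ hm)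
  have at1 : ∀ ν, ∃ m ∈ K1, h1f ν = Phi P a ν m := fun ν =>
    c1.exists_sSup_image_eq n1 (hc ν).continuousOn
  have at2 : ∀ ν, ∃ m ∈ K2, h2f ν = Phi P a ν m := fun ν =>
    c2.exists_sSup_image_eq n2 (hc ν).continuousOn
  have zero_le1 : ∀ ν, 0 ≤ h1f ν := by
    intro ν
    have h0 := le1 ν 0 (by rw [hK1]; exact ⟨le_rfl, hrm⟩)
    refine le_trans ?_ h0
    unfold Phi
    have := hpos (ν + a * 0)
    simp only [ne_eq, OfNat.ofNat_ne_zero, not_false_eq_true, zero_pow, mul_zero, zero_div,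
      sub_zero]
    simpa using this
  -- right end
  have hR : h1f yp ≤ h2f yp := by
    obtain ⟨m, hm, he⟩ := at1 yp
    rw [he]
    refine le_trans ?_ (le2 yp rp hrpK2)
    rw [hK1, mem_Icc] at hm
    have h := hJ.right (yp + a * m) (yp + a * rp) (by nlinarith [hm.1]) (by nlinarith [hm.2])
    unfold Phi
    nlinarith [sq_nonneg (rp - m)]
  -- left end
  set νlo := min yp (Real.log (a * (rp - δ) ^ 2 / 2) - a * M) with hνlo
  have hL : h2f νlo ≤ h1f νlo := by
    obtain ⟨m, hm, he⟩ := at2 νlo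
    rw [he]
    refine le_trans ?_ (zero_le1 νlo)
    rw [hK2, mem_Icc] at hm
    unfold Phi
    have h3 := hexp (νlo + a * m)
    have h4 : νlo + a * m ≤ Real.log (a * (rp - δ) ^ 2 / 2) := by
      have : νlo ≤ Real.log (a * (rp - δ) ^ 2 / 2) - a * M := min_le_right _ _
      nlinarith [hm.2]
    have h5 : Real.exp (νlo + a * m) ≤ a * (rp - δ) ^ 2 / 2 := by
      have := Real.exp_le_exp.mpr h4
      rwa [Real.exp_log (by positivity)] at this
    have h6 : (rp - δ) ^ 2 ≤ m ^ 2 := pow_le_pow_left₀ hm0.le hm.1 2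
    nlinarith
  have hνle : νlo ≤ yp := min_le_left _ _
  obtain ⟨ν, hν, hνeq⟩ : ∃ ν ∈ Icc νlo yp, h2f ν - h1f ν = 0 := by
    have := intermediate_value_Icc hνle (k2.sub k1).continuousOn (f := fun ν => h2f ν - h1f ν)
    have h0 : (0 : ℝ) ∈ Icc (h2f νlo - h1f νlo) (h2f yp - h1f yp) := ⟨by linarith, by linarith⟩
    obtain ⟨ν, hν, he⟩ := this h0
    exact ⟨ν, hν, he⟩
  have heq : h2f ν = h1f ν := by linarith
  obtain ⟨m1, hm1, he1⟩ := at1 ν
  obtain ⟨m2, hm2, he2⟩ := at2 ν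
  refine ⟨ν, h1f ν, m1, m2, hm1.2, hm2.1, he1.symm, by rw [← he2, heq], ?_, hν.2, hm2.2⟩
  intro m hm
  rcases le_or_gt m rm with a1 | a1
  · exact le1 ν m ⟨hm, a1⟩
  · rcases le_or_gt m (rp - δ) with a2 | a2
    · rcases gap hmono hJ hw ha hδ hrp h1 h2 (ν := ν) a1.le a2 with g | g
      · exact g.trans (le1 ν rm ⟨hrm, le_rfl⟩)
      · exact g.trans ((le2 ν rp hrpK2).trans heq.le)
    · rcases le_or_gt m M with a3 | a3
      · exact (le2 ν m ⟨a2.le, a3⟩).trans heq.le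
      · exact (hbig ν m hν.2 a3.le).trans (zero_le1 ν)

/-- **The recursion step, explicit.** -/
theorem step2 {A a : ℝ} {χ : ℝ → ℝ} (hA : 0 < A) (hχ : Att χ (A / 4)) (ha : 0 < a)
    (hA32 : 32 * a ≤ A) {D : ℝ} (hD : 1 ≤ D) (hrange : ∀ r, D < r → χ r = 0)
    {rm rp ym yp w δ κ w' s Cs R : ℝ} (hJ : JumpAt (PP A χ) rm rp ym yp) (hw : yp - ym ≤ w)
    (hδ : 0 < δ) (hrm : 0 ≤ rm) (hgap : rm < rp - δ) (hrp1 : rp ≤ 1)
    (h1 : 2 * rp * w ≤ a * δ ^ 2)
    (h2 : w ≤ a * δ) (hs : 0 < s) (hs1 : s ≤ 1) (hsw : 2 * s ≤ w') (hsκ : s + s / (2 * a) ≤ κ)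
    (hCs : 1 ≤ Cs) (hloc : ∀ ν, ν ≤ yp → ym - (a + 4 * (1 + 2 * yp ^ 2 / A)) ≤ ν →
      1 + 2 * ν ^ 2 / A ≤ Cs) (haD : 1 ≤ a * D ^ 3)
    (hR : 2688 * D * (4 * Cs / s ^ 2) ^ 2 ≤ R) (hR20 : 20 ≤ R) :
    ∃ ym' yp', JumpAt (PP A (fun r => χ r + psi a R r)) (rm + κ) (rp - δ - κ) ym' yp'
      ∧ yp' - ym' ≤ w' := by
  have hok : Ok A χ := ok_of_att hA hχ (by linarith)
  obtain ⟨ν, T, m1, m2, hm1, hm2, e1, e2, hmax, hν1, hm2M⟩ := mf_coexist2 (PP_convexOn hok)
    (PP_mono hok) (PP_nonneg hok) (PP_le_exp hok) hA (PP_le_BB hok) hJ hw ha hA32 hδ hrm hgap h1 h2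
  have hC0 : 0 < 1 + 2 * yp ^ 2 / A := by positivity
  have ham2 : a * m2 ≤ a + 4 * (1 + 2 * yp ^ 2 / A) := by
    have h3 : m2 ≤ 1 + 4 * (1 + 2 * yp ^ 2 / A) / a := by
      refine hm2M.trans ?_
      have : 0 ≤ 4 * (1 + 2 * yp ^ 2 / A) / a := by positivity
      refine max_le (by linarith) (max_le (by linarith) (by linarith))
    have h4 := mul_le_mul_of_nonneg_left h3 ha.le
    refine h4.trans (le_of_eq ?_)
    field_simp
  have hm2rm : rm < m2 := by linarith
  have hνlow : ym - (a + 4 * (1 + 2 * yp ^ 2 / A)) ≤ ν := by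
    have h5 : ym ≤ ν + a * m2 := by
      by_contra hcon
      have hlt := not_le.mp hcon
      have h6 := hJ.left (ν + a * rm) (ν + a * m2) (by nlinarith) hlt.le
      have h7 := hmax rm hrm
      rw [← e2] at h7
      unfold Phi at h7
      have h8 : 0 < a * (m2 - rm) ^ 2 := by
        have : 0 < m2 - rm := by linarith
        positivity
      nlinarith
    linarith
  have hup := PP_add_upper2 hA hχ ha hA32 hD hrange (ν := ν) (T := T)
    (fun m hm => hmax m hm) (ε := s ^ 2) (Cs := Cs) (R := R) (by positivity)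
    (pow_le_one₀ hs.le hs1) hCs (hloc ν hν1 hνlow) haD hR
  refine ⟨ν - s, ν + s, ?_, by linarith⟩
  have hnew : Ok A (fun r => χ r + psi a R r) :=
    ok_of_att hA (hχ.add (psi_att ha.le hR20)) (by linarith)
  have hj := jump_step (P := PP A χ) (PP_convexOn hnew) ha hs
    (fun ν m => PP_add_lower hok hnew ha.le (by linarith) ν m) hup e1 e2
  exact hj.weaken (by linarith) (by linarith)

/-- location of a jump with the rates of the recursion -/
lemma jump_loc {χ : ℝ → ℝ} {c : ℝ} (hok : Ok AA χ) (hatt : Att χ c) {ym yp : ℝ}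
    (hJ : JumpAt (PP AA χ) (12 / 10000) (20 / 10000) ym yp) (hw : yp - ym ≤ 1) :
    -1000 ≤ ym ∧ ym ≤ 2000000 := by
  constructor
  · by_contra hcon
    have hcon' : ym < -1000 := not_le.mp hcon
    have h2 : yp ≤ 0 := by linarith
    have h3 := hJ.right yp 0 le_rfl h2
    have h4 := PP_le_exp hok 0
    have h5 := PP_nonneg hok yp
    rw [Real.exp_zero] at h4
    linarith
  · by_contra hcon
    have hcon' : 2000000 < ym := not_le.mp hcon
    have h1 := hJ.left 0 ym (by linarith) le_rfl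
    have h4 := PP_le_exp hok 0
    rw [Real.exp_zero] at h4
    have hz : Ok AA (fun _ => 0) := ⟨AA_pos, att_zero (by have := AA_pos; linarith)⟩
    have h5 := PP_mono_chi hz hok (fun r => hatt.nonneg r) ym
    have h6 := (jump_base AA_pos).right (AA / 2) ym le_rfl (by unfold AA; linarith)
    have h7 := PP_nonneg hz (AA / 2)
    have h8 : AA / 2 = 1000000 := by unfold AA; norm_num
    rw [h8] at h6 h7
    linarith

end Vale.Agent.P171
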